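import Vale.Agent.P032.R2.H267.Fields
import Vale.Agent.P032.R2.H264.Wd

/-!
# P032: the label fields on `semAt`

* `labS`, `labH` : `semAt` has the literal meaning `LabS`, `LabH`; so all label fields of `SF` and `TF`
  hold (`(labS ..).s_conv` ..., `(labH ..).t_conv` ...);
* `gset` : the field `gset`.
-/

set_option autoImplicit false

open Set Filter Topology Metric

noncomputable section

namespace Vale.Agent.P032.R2.H267

open Vale.Agent.P032.Six Vale.Agent.P032.Words Vale.Agent.P032.S5.H767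
open Vale.Agent.P032.R2.H741.Tp Vale.Agent.P032.R2.H264

theorem freq_left {ι Λ : Type} {cc : ι → ℂ} {F : ι → Λ → Set ℂ} {G : Set ℝ} {t : ℝ}
    {k : ι × Fin 6 → Λ} (h : LimL (posX cc F) G t k) (q : ι × Fin 6) :
    ∃ᶠ s in 𝓝[<] (t + (q.2.val : ℝ)), pt (cc q.1) s ∈ F q.1 (k q) := by
  have h1 : Tendsto (fun s : ℝ => s + (q.2.val : ℝ)) (𝓝[<] t) (𝓝[<] (t + (q.2.val : ℝ))) := by
    refine tendsto_nhdsWithin_iff.2 ⟨?_, ?_⟩
    · have : Continuous fun s : ℝ => s + (q.2.val : ℝ) := by fun_prop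
      exact (this.tendsto t).mono_left nhdsWithin_le_nhds
    · filter_upwards [self_mem_nhdsWithin] with s hs
      have hs : s < t := hs
      rw [mem_Iio]
      linarith
  refine h1.frequently (h.mono fun s hs => ?_)
  have h2 : pos cc q s ∈ F q.1 (k q) := hs.2 q
  exact h2

theorem freq_right {ι Λ : Type} {cc : ι → ℂ} {F : ι → Λ → Set ℂ} {G : Set ℝ} {t : ℝ}
    {k : ι × Fin 6 → Λ} (h : LimR (posX cc F) G t k) (q : ι × Fin 6) :
    ∃ᶠ s in 𝓝[>] (t + (q.2.val : ℝ)), pt (cc q.1) s ∈ F q.1 (k q) := by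
  have h1 : Tendsto (fun s : ℝ => s + (q.2.val : ℝ)) (𝓝[>] t) (𝓝[>] (t + (q.2.val : ℝ))) := by
    refine tendsto_nhdsWithin_iff.2 ⟨?_, ?_⟩
    · have : Continuous fun s : ℝ => s + (q.2.val : ℝ) := by fun_prop
      exact (this.tendsto t).mono_left nhdsWithin_le_nhds
    · filter_upwards [self_mem_nhdsWithin] with s hs
      have hs : t < s := hs
      rw [mem_Ioi]
      linarith
  refine h1.frequently (h.mono fun s hs => ?_)
  have h2 : pos cc q s ∈ F q.1 (k q) := hs.2 q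
  exact h2

variable {U : Fin 6 → Set ℂ} {T : ℂ → Set (Fin 6)} {G : RD} {D : Dat} {L0 L K : Sl G} {u : ℝ}

/-- the colours of the letter of a selection are in the palette -/
theorem lm_pair (R : Rings T (cen G D) (cls G D) (lts G D)) (r : Fin (G.R + G.Y)) (l : Fin 6)
    {p : ℕ} (hp : p < 2) (hl : lm l = 2 + p) {q : ℂ} (hd : dist q (D.c r.val) = 1)
    (hq : q ∈ D.F r.val l) :
    D.x (G.sg r.val (2 * p)) ∈ T q ∧ D.x (G.sg r.val (2 * p + 1)) ∈ T q := by
  have h1 : cls G D r l ⊆ T q := R.sub r l q hd hq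
  have h2 : D.x (G.sg r.val (2 * p)) ∈ cls G D r l ∧ D.x (G.sg r.val (2 * p + 1)) ∈ cls G D r l := by
    unfold cls
    unfold lm at hl
    interval_cases p <;> fin_cases l <;> simp_all
  exact ⟨h1 h2.1, h1 h2.2⟩

theorem fin3 (k : Fin 6) : ∃ n : ℤ, (((k + 3 : Fin 6).val : ℕ) : ℤ) = (k.val : ℤ) + 3 + 6 * n := by
  refine ⟨-((k.val + 3) / 6 : ℕ), ?_⟩
  rw [Fin.val_add]
  have h3 : ((3 : Fin 6).val) = 3 := rfl
  rw [h3]
  push_cast
  omega

theorem nc_six {z : ℂ} {i : Fin 6} {v : ℝ} {n : ℤ} : Nc U z i (v + 6 * n) ↔ Nc U z i v := by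
  unfold Nc
  rw [pt_int_six]

/-- the label atoms of the state of `semAt` have the literal meaning -/
theorem labS (W : Wd U T G D)
    (hL : LimL (posX (cen G D) (lts G D)) (Good (cen G D)) u L) :
    LabS G (semAt U T G D L0 u L K) U T D.c D.x u where
  wt := W.wt
  mn := W.mn
  sgl := fun r hr => W.sgl r (by omega)
  nd := fun r hr => W.nd (by omega)
  dpt := fun r hr => W.dpt r (by omega)
  n := fun r hr i hi x hx => Iff.rfl
  XL := by
    rintro r hr k hk p hp ⟨hr', hk', hl⟩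
    refine (freq_left hL (⟨r, hr'⟩, ⟨k, hk⟩)).mono fun s hs => ?_
    have h2 := lm_pair W.rings ⟨r, hr'⟩ _ hp hl (dist_pt (D.c r) s) hs
    exact ⟨W.wt.irr.sub _ h2.1, W.wt.irr.sub _ h2.2⟩

/-- the label atoms of `semAt` have the literal meaning -/
theorem labH (W : Wd U T G D) (h0 : D.u0 ≤ u) (h1 : u < D.u0 + 1)
    (hL : LimL (posX (cen G D) (lts G D)) (Good (cen G D)) u L)
    (hK : LimR (posX (cen G D) (lts G D)) (Good (cen G D)) u K) :
    LabH G (semAt U T G D L0 u L K) U T D.c D.x D.u0 u where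
  toLabS := labS W hL
  lt0 := h0
  lt1 := h1
  C := fun r hr k hk i hi => Iff.rfl
  XR := by
    rintro r hr k hk p hp ⟨hr', hk', hl⟩
    refine (freq_right hK (⟨r, hr'⟩, ⟨k, hk⟩)).mono fun s hs => ?_
    have h2 := lm_pair W.rings ⟨r, hr'⟩ _ hp hl (dist_pt (D.c r) s) hs
    exact ⟨W.wt.irr.sub _ h2.1, W.wt.irr.sub _ h2.2⟩
  M := by
    rintro r hr j hj k hk (⟨w, hw, h2, h3⟩ | ⟨h2, -⟩)
    · refine ⟨w, h2, h3, ?_⟩
      have hw : Nc U (D.c r) (D.x (G.sg r j)) (w + ((fk k).val : ℝ)) := hw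
      rwa [fk_val hk] at hw
    · exact absurd rfl h2
  g := by
    rintro r hr i hi q hq hq' (⟨w, hw, h2, h3⟩ | ⟨h2, -⟩)
    · refine ⟨w, h2, h3, ?_⟩
      have e1 : (2 * i + (q - 2)) / 2 = i := by omega
      have e2 : 2 + (2 * i + (q - 2)) % 2 = q := by omega
      rw [e1, e2] at hw
      obtain ⟨m, k1, k2⟩ := hw
      refine ⟨(m.val : ℤ), by push_cast; exact k1, ?_⟩
      obtain ⟨n, hn⟩ := fin3 m
      have hn' : (((m + 3 : Fin 6).val : ℕ) : ℝ) = (m.val : ℝ) + 3 + 6 * n := by exact_mod_cast hn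
      rw [hn'] at k2
      have e3 : w + ((m.val : ℝ) + 3 + 6 * (n : ℝ)) = w + (((m.val : ℤ)) : ℝ) + 3 + 6 * n := by
        push_cast; ring
      rw [e3, nc_six] at k2
      exact k2
    · exact absurd rfl h2
  D := fun r hr k hk w hw h => h
  H := fun r hr k hk h => h
  ct := fun r hr s hs k hk h => h

/-- the field `gset` -/
theorem gset : ∀ r < G.R, ∀ i < 2, ∀ q, 2 ≤ q → q < 4 → ∀ k < 6,
    (semAt U T G D L0 u L K).n r (G.sg r i) (3 * k + 1) →
    (semAt U T G D L0 u L K).n r (G.sg r q) (3 * ((k + 3) % 6) + 1) →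
    (semAt U T G D L0 u L K).g 1 r (2 * i + (q - 2)) := by
  intro r hr i hi q hq hq' k hk h1 h2
  have h1 : Nx U (D.c r) (D.x (G.sg r i)) u ((3 * k + 1 : ℕ) : ℤ) := h1
  have h2 : Nx U (D.c r) (D.x (G.sg r q)) u ((3 * ((k + 3) % 6) + 1 : ℕ) : ℤ) := h2
  rw [show ((3 * k + 1 : ℕ) : ℤ) = 3 * (k : ℤ) + 1 by push_cast; ring, Nx.one] at h1
  rw [show ((3 * ((k + 3) % 6) + 1 : ℕ) : ℤ) = 3 * (((k + 3) % 6 : ℕ) : ℤ) + 1 by push_cast; ring,
    Nx.one] at h2
  refine Or.inr ⟨by norm_num, ?_⟩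
  have e1 : (2 * i + (q - 2)) / 2 = i := by omega
  have e2 : 2 + (2 * i + (q - 2)) % 2 = q := by omega
  rw [e1, e2]
  refine ⟨fk k, ?_, ?_⟩
  · rw [fk_val hk]
    push_cast at h1
    exact h1
  · have e3 : (fk k + 3 : Fin 6).val = (k + 3) % 6 := by
      rw [Fin.val_add, fk_val hk]
      rfl
    rw [e3]
    rw [Int.cast_natCast] at h2
    exact h2

end Vale.Agent.P032.R2.H267
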