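import Vale.Agent.P032.R2.H264.SemAt

/-!
# P032: the fields of the memories on `semAt`

`fM`, `fgmono` (step), `finitn`, `fM0`, `fg0` (start), `fclosen` (end).
-/

set_option autoImplicit false

open Set Filter Topology Metric

noncomputable section

namespace Vale.Agent.P032.R2.H267

open Vale.Agent.P032.Six Vale.Agent.P032.Words Vale.Agent.P032.S5.H767
open Vale.Agent.P032.R2.H741.Tp Vale.Agent.P032.R2.H264

variable {U : Fin 6 → Set ℂ} {T : ℂ → Set (Fin 6)} {G : RD} {D : Dat} {L0 L K : Sl G} {u : ℝ}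

/-- the field `M` -/
theorem fM : ∀ r < G.R, ∀ j < 4, ∀ k < 6, ((semAt U T G D L0 u L K).M 1 r (G.sg r j) k ↔
    (semAt U T G D L0 u L K).M 0 r (G.sg r j) k ∨
      (semAt U T G D L0 u L K).n r (G.sg r j) (3 * k + 1)) := by
  intro r hr j hj k hk
  have e1 : (semAt U T G D L0 u L K).n r (G.sg r j) (3 * k + 1) ↔
      Nc U (D.c r) (D.x (G.sg r j)) (u + ((fk k).val : ℝ)) := by
    show Nx U (D.c r) (D.x (G.sg r j)) u ((3 * k + 1 : ℕ) : ℤ) ↔ _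
    rw [show ((3 * k + 1 : ℕ) : ℤ) = 3 * (k : ℤ) + 1 by push_cast; ring, Nx.one, fk_val hk]
    push_cast
    exact Iff.rfl
  rw [e1]
  show (_ ∨ ((1 : ℕ) ≠ 0 ∧ _)) ↔ ((_ ∨ ((0 : ℕ) ≠ 0 ∧ _)) ∨ _)
  simp only [ne_eq, one_ne_zero, not_false_eq_true, true_and, not_true_eq_false, false_and,
    or_false]

/-- the field `gmono` -/
theorem fgmono : ∀ r < G.R, ∀ j < 4, (semAt U T G D L0 u L K).g 0 r j →
    (semAt U T G D L0 u L K).g 1 r j := by
  intro r hr j hj h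
  rcases h with h | ⟨h, -⟩
  · exact Or.inl h
  · exact absurd rfl h

/-- the field `initn` -/
theorem finitn : ∀ r < G.R, ∀ j < 4, ∀ k < 6,
    ((semAt U T G D L0 D.u0 L K).n r (G.sg r j) (3 * k) ↔
      (semAt U T G D L0 D.u0 L K).J r (G.sg r j) k) := by
  intro r hr j hj k hk
  show Nx U (D.c r) (D.x (G.sg r j)) D.u0 ((3 * k : ℕ) : ℤ) ↔
    Nx U (D.c r) (D.x (G.sg r j)) D.u0 (3 * (k : ℤ))
  push_cast
  exact Iff.rfl

theorem not_seen {S : Set ℝ} {u0 : ℝ} : ¬ seen S u0 u0 := by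
  rintro ⟨w, -, h1, h2⟩
  exact absurd h2 (not_lt.2 h1)

/-- the field `M0` -/
theorem fM0 : ∀ r < G.R, ∀ j < 4, ∀ k < 6,
    ¬ (semAt U T G D L0 D.u0 L K).M 0 r (G.sg r j) k := by
  rintro r hr j hj k hk (h | ⟨h, -⟩)
  · exact not_seen h
  · exact h rfl

/-- the field `g0` -/
theorem fg0 : ∀ r < G.R, ∀ j < 4, ¬ (semAt U T G D L0 D.u0 L K).g 0 r j := by
  rintro r hr j hj (h | ⟨h, -⟩)
  · exact not_seen h
  · exact h rfl

/-- the field `closen` -/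
theorem fclosen : ∀ r < G.R, ∀ j < 4, ∀ k < 6,
    ((semAt U T G D L0 (D.u0 + 1) L K).n r (G.sg r j) (3 * k) ↔
      (semAt U T G D L0 (D.u0 + 1) L K).J r (G.sg r j) ((k + 1) % 6)) := by
  intro r hr j hj k hk
  show Nx U (D.c r) (D.x (G.sg r j)) (D.u0 + 1) ((3 * k : ℕ) : ℤ) ↔
    Nx U (D.c r) (D.x (G.sg r j)) D.u0 (3 * (((k + 1) % 6 : ℕ) : ℤ))
  have e3 : ((3 * k : ℕ) : ℤ) = 3 * (k : ℤ) := by push_cast; ring
  have h6 : (k + 1) % 6 < 6 := Nat.mod_lt _ (by norm_num)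
  have ek : fk ((k + 1) % 6) = fk k + 1 := by
    apply Fin.ext
    rw [fk_val h6, Fin.val_add, fk_val hk]
    rfl
  rw [e3, lv_n (D := D) (r := r) (i := G.sg r j) hk, lv_n (D := D) (r := r) (i := G.sg r j) h6, ek]
  obtain ⟨m, hm⟩ := (nM_reg (U := U) (z := D.c r) (i := D.x (G.sg r j)) (k := fk k) (D.u0 + 1)).1
  rw [lv_iff hm, lv_iff (nM_rot.1 hm)]

end Vale.Agent.P032.R2.H267
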