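import Vale.Agent.P032.R2.H492.Fields2

/-!
# P032: the fields of contacts between rings

For every `S` with the meaning `PM` (positions of the rings, palettes, two-pair points): the fields
`ctC`, `ctD`, `same`, `sameH`, `sameD`.
-/

set_option autoImplicit false

open Set Filter Topology Metric

noncomputable section

namespace Vale.Agent.P032.R2.H492.PM

open Vale.Agent.P032.Six Vale.Agent.P032.Words Vale.Agent.P032.S5.H767
open Vale.Agent.P032.R2.H741.Tp Vale.Agent.P032.R2.H492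

/-! ### positions -/

theorem ct3 {y z : ℂ} {u : ℝ} {k : ℕ} (h : pt y (u + (k : ℝ)) = z) :
    pt z (u + (((k + 3) % 6 : ℕ) : ℝ)) = y := by
  rw [pt_add_nat_mod]
  have e : u + ((k + 3 : ℕ) : ℝ) = (u + (k : ℝ)) + 3 := by push_cast; ring
  rw [e, pt_three, S5.H767.pt_tr z y (u + (k : ℝ)), h]
  ring

theorem ct1 {y z : ℂ} {u : ℝ} {k : ℕ} (h : pt y (u + (k : ℝ)) = z) :
    pt y (u + (((k + 1) % 6 : ℕ) : ℝ)) = pt z (u + (((k + 2) % 6 : ℕ) : ℝ)) := by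
  rw [pt_add_nat_mod, pt_add_nat_mod]
  have e : u + ((k + 1 : ℕ) : ℝ) = (u + (k : ℝ)) + 1 := by push_cast; ring
  have e' : u + ((k + 2 : ℕ) : ℝ) = (u + (k : ℝ)) + 2 := by push_cast; ring
  have hs := pt_sum y (u + (k : ℝ))
  rw [e, e', S5.H767.pt_tr z y (u + (k : ℝ) + 2)]
  linear_combination -hs + h

theorem ct5 {y z : ℂ} {u : ℝ} {k : ℕ} (h : pt y (u + (k : ℝ)) = z) :
    pt y (u + (((k + 5) % 6 : ℕ) : ℝ)) = pt z (u + (((k + 4) % 6 : ℕ) : ℝ)) := by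
  rw [pt_add_nat_mod, pt_add_nat_mod]
  have e : u + ((k + 5 : ℕ) : ℝ) = (u + (k : ℝ) + 4) + 1 := by push_cast; ring
  have e' : u + ((k + 4 : ℕ) : ℝ) = (u + (k : ℝ)) + 4 := by push_cast; ring
  have e6 : u + (k : ℝ) + 4 + 2 = u + (k : ℝ) + 6 := by ring
  have hs := pt_sum y (u + (k : ℝ) + 4)
  rw [e6, pt_six] at hs
  rw [e, e', S5.H767.pt_tr z y (u + (k : ℝ) + 4)]
  linear_combination -hs + h

/-! ### the same pairs -/

theorem smq_iff {a b c d : ℕ} (h : smq a b c d = true) : (a = c ∧ b = d) ∨ (a = d ∧ b = c) := by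
  unfold smq at h
  simpa using h

variable {G : RD} {S : Sem} {U : Fin 6 → Set ℂ} {T : ℂ → Set (Fin 6)} {c : ℕ → ℂ}
  {x : ℕ → Fin 6} {u : ℝ}

theorem dpt_smq {y : ℂ} {i j m n i' j' m' n' : ℕ} (h1 : smq i j i' j' = true)
    (h2 : smq m n m' n' = true) (h : DPt T y (x i) (x j) (x m) (x n)) :
    DPt T y (x i') (x j') (x m') (x n') := by
  rcases smq_iff h1 with ⟨rfl, rfl⟩ | ⟨rfl, rfl⟩ <;> rcases smq_iff h2 with ⟨rfl, rfl⟩ | ⟨rfl, rfl⟩
  · exact h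
  · exact h.swap34
  · exact h.swap12
  · exact h.swap12.swap34

theorem dpt_smp {y : ℂ} {i j m n i' j' m' n' : ℕ} (h : smp i j m n i' j' m' n' = true)
    (hD : DPt T y (x i) (x j) (x m) (x n)) : DPt T y (x i') (x j') (x m') (x n') := by
  unfold smp at h
  rw [Bool.or_eq_true, Bool.and_eq_true, Bool.and_eq_true] at h
  rcases h with ⟨h1, h2⟩ | ⟨h1, h2⟩
  · exact dpt_smq h1 h2 hD
  · exact (dpt_smq h1 h2 hD).swap

theorem smq_comm {a b c d : ℕ} (h : smq a b c d = true) : smq c d a b = true := by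
  rcases smq_iff h with ⟨rfl, rfl⟩ | ⟨rfl, rfl⟩ <;> simp [smq]

theorem smp_comm {i j m n i' j' m' n' : ℕ} (h : smp i j m n i' j' m' n' = true) :
    smp i' j' m' n' i j m n = true := by
  unfold smp at h ⊢
  rw [Bool.or_eq_true, Bool.and_eq_true, Bool.and_eq_true] at h ⊢
  rcases h with ⟨h1, h2⟩ | ⟨h1, h2⟩
  · exact Or.inl ⟨smq_comm h1, smq_comm h2⟩
  · exact Or.inr ⟨smq_comm h2, smq_comm h1⟩

theorem dpt_smp_iff {y : ℂ} {i j m n i' j' m' n' : ℕ} (h : smp i j m n i' j' m' n' = true) :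
    DPt T y (x i) (x j) (x m) (x n) ↔ DPt T y (x i') (x j') (x m') (x n') :=
  ⟨dpt_smp h, dpt_smp (smp_comm h)⟩

/-! ### the fields -/

section
variable (W : PM G S U T c x u)
include W

/-- the palette of a centre -/
theorem mem_cen {s : ℕ} (hs : s < G.R) {i : ℕ} (hi : i < 6) :
    x i ∈ T (c s) ↔ ∃ j < 4, i = G.sg s j := by
  have hT : T (c s) = {x (G.sg s 0), x (G.sg s 1), x (G.sg s 2), x (G.sg s 3)} := (W.cen s hs).pal
  have key : ∀ j < 6, (x i = x (G.sg s j) ↔ i = G.sg s j) := fun j hj =>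
    ⟨fun h => W.xi i hi _ (W.sgl s hs j hj) h, fun h => by rw [h]⟩
  rw [hT]
  simp only [mem_insert_iff, mem_singleton_iff]
  rw [key 0 (by norm_num), key 1 (by norm_num), key 2 (by norm_num), key 3 (by norm_num)]
  constructor
  · rintro (h | h | h | h)
    · exact ⟨0, by norm_num, h⟩
    · exact ⟨1, by norm_num, h⟩
    · exact ⟨2, by norm_num, h⟩
    · exact ⟨3, by norm_num, h⟩
  · rintro ⟨j, hj, h⟩
    interval_cases j
    · exact Or.inl h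
    · exact Or.inr (Or.inl h)
    · exact Or.inr (Or.inr (Or.inl h))
    · exact Or.inr (Or.inr (Or.inr h))

theorem ctC : ∀ r < G.R, ∀ s < G.R, G.adj r s = true → ∀ k < 6, S.ct r s k → ∀ i < 6,
    (S.C r k i ↔ ∃ j < 4, i = G.sg s j) ∧ (S.C s ((k + 3) % 6) i ↔ ∃ j < 4, i = G.sg r j) := by
  intro r hr s hs _ k hk hct i hi
  have h := (W.hct r hr s hs k hk).1 hct
  refine ⟨?_, ?_⟩
  · rw [W.hC r hr k hk i hi, h]
    exact W.mem_cen hs hi
  · rw [W.hC s hs _ (Nat.mod_lt _ (by norm_num)) i hi, ct3 h]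
    exact W.mem_cen hr hi

theorem ctD : ∀ r < G.R, ∀ s < G.R, G.adj r s = true → ∀ k < 6, S.ct r s k → ∀ w < 16,
    (smp (pc G r w 0) (pc G r w 1) (pc G r w 2) (pc G r w 3) (G.sg s 0) (G.sg s 1) (G.sg s 2)
      (G.sg s 3) = true → S.D r k w) ∧
    (smp (pc G s w 0) (pc G s w 1) (pc G s w 2) (pc G s w 3) (G.sg r 0) (G.sg r 1) (G.sg r 2)
      (G.sg r 3) = true → S.D s ((k + 3) % 6) w) := by
  intro r hr s hs _ k hk hct w hw
  have h := (W.hct r hr s hs k hk).1 hct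
  refine ⟨fun hp => ?_, fun hp => ?_⟩
  · refine W.hD' r hr k hk w hw ?_
    rw [h]
    exact (dpt_smp_iff hp).2 (W.cen s hs)
  · refine W.hD' s hs _ (Nat.mod_lt _ (by norm_num)) w hw ?_
    rw [ct3 h]
    exact (dpt_smp_iff hp).2 (W.cen r hr)

theorem same : ∀ r < G.R, ∀ s < G.R, G.adj r s = true → ∀ k < 6, S.ct r s k → ∀ i < 6,
    (S.C r ((k + 1) % 6) i ↔ S.C s ((k + 2) % 6) i) ∧
    (S.C r ((k + 5) % 6) i ↔ S.C s ((k + 4) % 6) i) := by
  intro r hr s hs _ k hk hct i hi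
  have h := (W.hct r hr s hs k hk).1 hct
  rw [W.hC r hr _ (Nat.mod_lt _ (by norm_num)) i hi, W.hC s hs _ (Nat.mod_lt _ (by norm_num)) i hi,
    W.hC r hr _ (Nat.mod_lt _ (by norm_num)) i hi, W.hC s hs _ (Nat.mod_lt _ (by norm_num)) i hi,
    ct1 h, ct5 h]
  exact ⟨Iff.rfl, Iff.rfl⟩

theorem sameH : ∀ r < G.R, ∀ s < G.R, G.adj r s = true → ∀ k < 6, S.ct r s k →
    (S.H r ((k + 1) % 6) ↔ S.H s ((k + 2) % 6)) ∧ (S.H r ((k + 5) % 6) ↔ S.H s ((k + 4) % 6)) := by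
  intro r hr s hs _ k hk hct
  have h := (W.hct r hr s hs k hk).1 hct
  rw [W.hH r hr _ (Nat.mod_lt _ (by norm_num)), W.hH s hs _ (Nat.mod_lt _ (by norm_num)),
    W.hH r hr _ (Nat.mod_lt _ (by norm_num)), W.hH s hs _ (Nat.mod_lt _ (by norm_num)),
    ct1 h, ct5 h]
  exact ⟨Iff.rfl, Iff.rfl⟩

theorem hDi {r : ℕ} (hr : r < G.R) {k : ℕ} (hk : k < 6) {w : ℕ} (hw : w < 16) :
    S.D r k w ↔ DPt T (pt (c r) (u + (k : ℝ))) (x (pc G r w 0)) (x (pc G r w 1)) (x (pc G r w 2))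
      (x (pc G r w 3)) :=
  ⟨W.hD r hr k hk w hw, W.hD' r hr k hk w hw⟩

theorem sameD : ∀ r < G.R, ∀ s < G.R, G.adj r s = true → ∀ k < 6, S.ct r s k → ∀ w < 16,
    ∀ w' < 16, smp (pc G r w 0) (pc G r w 1) (pc G r w 2) (pc G r w 3) (pc G s w' 0) (pc G s w' 1)
      (pc G s w' 2) (pc G s w' 3) = true →
    (S.D r ((k + 1) % 6) w ↔ S.D s ((k + 2) % 6) w') ∧
    (S.D r ((k + 5) % 6) w ↔ S.D s ((k + 4) % 6) w') := by
  intro r hr s hs _ k hk hct w hw w' hw' hp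
  have h := (W.hct r hr s hs k hk).1 hct
  rw [W.hDi hr (Nat.mod_lt _ (by norm_num)) hw, W.hDi hs (Nat.mod_lt _ (by norm_num)) hw',
    W.hDi hr (Nat.mod_lt _ (by norm_num)) hw, W.hDi hs (Nat.mod_lt _ (by norm_num)) hw',
    ct1 h, ct5 h]
  exact ⟨dpt_smp_iff hp, dpt_smp_iff hp⟩

end

end Vale.Agent.P032.R2.H492.PM
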