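import Vale.Agent.P032.R2.H267.NoS3

/-!
# P032: no contacts between two-pair points in the world where contacts are two-pair points of type S3
or harmless points with the common pair

`S3H U T`: at most four colours; a four-coloured point on the circle of a two-pair point `z` meets `T z`
in one of the pairs and is a two-pair point with this pair or harmless with this pair (`tie`); exact
arcs of two-pair points end in three-coloured points (`end3`).

* `S3H.noLock`: two two-pair points `{ab|cd}`, `{ab|ef}` are not at distance one.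
-/

open Set Filter Topology Metric

noncomputable section

namespace Vale.Agent.P032.Six

open S5.H767 (Ex ex_self dist_of_closure sub_of_closure line_free)

/-- contacts are two-pair points or harmless points with the common pair -/
structure S3H (U : Fin 6 → Set ℂ) (T : ℂ → Set (Fin 6)) : Prop where
  irr : Irr U T
  le4 : ∀ x, (T x).ncard ≤ 4
  tie : ∀ {z : ℂ} {a b c d : Fin 6}, DPt T z a b c d → ∀ {y : ℂ}, dist y z = 1 →
    (T y).ncard = 4 →
      (T y ∩ T z = {a, b} ∧ ((∃ e f, DPt T y a b e f) ∨ Harm T y {a, b})) ∨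
      (T y ∩ T z = {c, d} ∧ ((∃ e f, DPt T y c d e f) ∨ Harm T y {c, d}))
  end3 : ∀ {z : ℂ} {a b c d : Fin 6}, DPt T z a b c d → ∀ {v : ℂ}, Acc T z {a, b} v →
    {a, b} ⊂ T v → (T v).ncard ≤ 3

variable {U : Fin 6 → Set ℂ} {T : ℂ → Set (Fin 6)}

namespace S3H

/-- points of the circle inside the palette of the centre -/
theorem inside (H : S3H U T) {z x : ℂ} {a b c d : Fin 6} (hz : DPt T z a b c d)
    (hx : dist x z = 1) (hsub : T x ⊆ T z) : T x = {a, b} ∨ T x = {c, d} := by
  have h := H.irr
  have h4 := H.le4 x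
  obtain ⟨i0, hi0⟩ := h.ne x
  rcases Nat.lt_or_ge (T x).ncard 4 with hlt | hge
  · by_cases h3 : (T x).ncard = 3
    · exfalso
      have hc := Set.ncard_sdiff hsub (Set.toFinite _)
      rw [hz.card, h3] at hc
      obtain ⟨i, hi⟩ := Set.ncard_eq_one.1 (show (T z \ T x).ncard = 1 by omega)
      have hins : T z ⊆ insert i (T x) := by
        intro m hm
        by_cases hmx : m ∈ T x
        · exact Or.inr hmx
        · left
          have : m ∈ T z \ T x := ⟨hm, hmx⟩
          rw [hi] at this
          exact this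
      have hiz : i ∈ T z := by
        have : i ∈ T z \ T x := by rw [hi]; rfl
        exact this.1
      rw [hz.pal] at hiz
      rcases hiz with h1 | h1 | h1 | h1
      · exact h.no_three_in hz hx (by omega) (Or.inl h1) hins
      · exact h.no_three_in hz hx (by omega) (Or.inr h1) hins
      · exact h.no_three_in hz.swap hx (by omega) (Or.inl h1) hins
      · exact h.no_three_in hz.swap hx (by omega) (Or.inr h1) hins
    · by_cases h2 : (T x).ncard = 2
      · exact h.twoPairs hz x hx (h.pair_open h2 hsub Subset.rfl) hsub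
      · exfalso
        have h1 : (T x).ncard ≤ 1 := by omega
        have h5 : T x ⊆ {i0} := fun m hm =>
          (Set.ncard_le_one (Set.toFinite _)).1 h1 m hm i0 hi0
        exact h.mx.notMem' (h.mem_of_single h5) hx (h.sub z (hsub hi0))
  · exfalso
    have hc4 : (T x).ncard = 4 := by omega
    have hint : T x ∩ T z = T x := inter_eq_left.2 hsub
    rcases H.tie hz hx hc4 with ⟨h1, -⟩ | ⟨h1, -⟩
    · rw [hint] at h1
      rw [h1, Set.ncard_pair hz.ab] at hc4
      omega
    · rw [hint] at h1
      rw [h1, Set.ncard_pair hz.cd] at hc4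
      omega

/-- a four-coloured point on the circles of two two-pair points with different common pairs is a
two-pair point -/
theorem dpt2 (H : S3H U T) {x z p : ℂ} {a b c d e f : Fin 6} (hz : DPt T z a b c d)
    (hp : DPt T p c d e f) (hx : dist x z = 1) (hxp : dist x p = 1)
    (nd : [a, b, c, d, e, f].Nodup) (ha : a ∈ T x) (hb : b ∈ T x) (he : e ∈ T x) (hf : f ∈ T x) :
    DPt T x a b e f := by
  have hn := nd
  simp only [List.nodup_cons, List.mem_cons, List.not_mem_nil, or_false, not_or, List.nodup_nil,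
    and_true, not_false_eq_true] at hn
  obtain ⟨⟨ab, ac, ad, ae, af⟩, ⟨bc, bd, be, bf⟩, ⟨cd, ce, cf⟩, ⟨de, df⟩, ef⟩ := hn
  have hs : ({a, b, e, f} : Set (Fin 6)) ⊆ T x := by
    rintro i (rfl | rfl | rfl | hi)
    · exact ha
    · exact hb
    · exact he
    · rw [mem_singleton_iff] at hi; rw [hi]; exact hf
  have hc : ({a, b, e, f} : Set (Fin 6)).ncard = 4 := by
    rw [Set.ncard_insert_of_notMem, Set.ncard_insert_of_notMem, Set.ncard_pair ef]
    · simp [be, bf]
    · simp [ab, ae, af]
  have h4 := H.le4 x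
  have hT : T x = {a, b, e, f} :=
    (Set.eq_of_subset_of_ncard_le hs (by omega) (Set.toFinite _)).symm
  have hmn : ∀ i, i ∈ T x → i ≠ a → i ≠ b → i = e ∨ i = f := by
    intro i hi hia hib
    rw [hT] at hi
    rcases hi with h1 | h1 | h1 | h1
    · exact absurd h1 hia
    · exact absurd h1 hib
    · exact Or.inl h1
    · exact Or.inr h1
  have perm : ∀ {m n : Fin 6}, DPt T x a b m n → DPt T x a b e f := by
    intro m n hD
    have hm := hmn m (by rw [hD.pal]; simp) hD.ac.symm hD.bc.symm
    have hn := hmn n (by rw [hD.pal]; simp) hD.ad.symm hD.bd.symm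
    rcases hm with rfl | rfl <;> rcases hn with rfl | rfl
    · exact absurd rfl hD.cd
    · exact hD
    · exact hD.swap34
    · exact absurd rfl hD.cd
  rcases H.tie hz hx (by rw [hT, hc]) with ⟨-, ⟨m, n, hD⟩ | hH⟩ | ⟨h1, -⟩
  · exact perm hD
  · exfalso
    rcases H.tie hp hxp (by rw [hT, hc]) with ⟨h1, -⟩ | ⟨-, ⟨m, n, hD⟩ | hH2⟩
    · have h2 : e ∈ T x ∩ T p := ⟨he, by rw [hp.pal]; simp⟩
      rw [h1] at h2
      rcases h2 with h2 | h2
      · exact ce h2.symm
      · exact de (by rw [mem_singleton_iff] at h2; exact h2.symm)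
    · exact hH.not_dpt hD
    · have h3 := hH.unique hH2
      have h4 : e ∈ ({a, b} : Set (Fin 6)) := by rw [← h3]; simp
      rcases h4 with h4 | h4
      · exact ae h4.symm
      · exact be (by rw [mem_singleton_iff] at h4; exact h4.symm)
  · exfalso
    have h2 : a ∈ T x ∩ T z := ⟨ha, by rw [hz.pal]; simp⟩
    rw [h1] at h2
    rcases h2 with h2 | h2
    · exact ac h2
    · exact ad (by rw [mem_singleton_iff] at h2; exact h2)

end S3H

namespace Lock

variable {z y p : ℂ} {a b c d e f : Fin 6}

/-- on an exact `cd`-arc of `S(z)` the translate is exact -/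
theorem exact_trV (L : Lock T z y a b c d e f) (H : S3H U T) {p : ℂ} (hp : Arc T z p {c, d}) :
    T (y + p - z) = {a, b} ∨ T (y + p - z) = {e, f} := by
  have h := H.irr
  have hTp : T p = {c, d} := hp.mem
  have h1 : p ≠ y := by
    rintro rfl
    exact L.cy (by rw [hTp]; simp)
  have h2 : p + y ≠ 2 * z := by
    intro h2
    have e1 : 2 * z - y = p := by linear_combination -h2
    exact L.anti_cd h (by rw [e1]; exact h.sub _ (by rw [hTp]; simp))
      (by rw [e1]; exact h.sub _ (by rw [hTp]; simp))
  have hc := h.prism833 hp L.d1 h1 h2 (i := c) (by simp)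
  have hd := h.prism833 hp L.d1 h1 h2 (i := d) (by simp)
  exact H.inside L.hy (L.dist_tr hp.1).1
    (L.in_y (fun h5 => hc (h.sub _ h5)) fun h5 => hd (h.sub _ h5))

/-- on a whole arc the translated palette is constant -/
theorem const_trV (L : Lock T z y a b c d e f) (H : S3H U T) {p : ℂ} (hp : dist p z = 1)
    {l : ℝ} (hl : 0 < l) (harc : ∀ t ∈ Ioo 0 l, T (z + (p - z) * cis (-(1 * t))) = {c, d})
    (h0 : T p = {c, d}) (hep : T (y + p - z) = {e, f}) :
    e ∈ T (y + (z + (p - z) * cis (-(1 * l))) - z) ∧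
      f ∈ T (y + (z + (p - z) * cis (-(1 * l))) - z) := by
  have h := H.irr
  have hcont : Continuous fun t : ℝ => y + (z + (p - z) * cis (-(1 * t))) - z :=
    (continuous_const.add (continuous_rot z p 1)).sub continuous_const
  have hcd : ({c, d} : Set (Fin 6)).ncard = 2 := Set.ncard_pair L.hz.cd
  have hcdz : ({c, d} : Set (Fin 6)) ⊆ T z := by
    rintro i (rfl | hi)
    · exact L.cz
    · rw [mem_singleton_iff] at hi; rw [hi]; exact L.dz
  have hdich : ∀ t ∈ Ico 0 l, T (y + (z + (p - z) * cis (-(1 * t))) - z) = {a, b} ∨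
      T (y + (z + (p - z) * cis (-(1 * t))) - z) = {e, f} := by
    intro t ht
    have hT : T (z + (p - z) * cis (-(1 * t))) = {c, d} := by
      rcases eq_or_lt_of_le ht.1 with h1 | h1
      · rw [← h1, mul_zero, neg_zero, cis_zero394, mul_one, add_sub_cancel]; exact h0
      · exact harc t ⟨h1, ht.2⟩
    exact L.exact_trV H ⟨dist_rot hp _, h.pair_open hcd hcdz hT.subset⟩
  obtain ⟨⟨ab, ac, ad, ae, af⟩, ⟨bc, bd, be, bf⟩, ⟨cd, ce, cf⟩, ⟨de, df⟩, ef⟩ := L.ne_all
  have hpre : IsPreconnected (Ico (0 : ℝ) l) := isPreconnected_Ico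
  have hsub := isPreconnected_iff_subset_of_disjoint_closed.1 hpre
    {t | a ∈ T (y + (z + (p - z) * cis (-(1 * t))) - z)}
    {t | e ∈ T (y + (z + (p - z) * cis (-(1 * t))) - z)}
    ((h.closed a).preimage hcont) ((h.closed e).preimage hcont)
    (fun t ht => by
      rcases hdich t ht with h1 | h1
      · left; show a ∈ T (y + (z + (p - z) * cis (-(1 * t))) - z); rw [h1]; simp
      · right; show e ∈ T (y + (z + (p - z) * cis (-(1 * t))) - z); rw [h1]; simp)
    (by
      rw [Set.eq_empty_iff_forall_notMem]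
      rintro t ⟨ht, h1, h2⟩
      have h1 : a ∈ T (y + (z + (p - z) * cis (-(1 * t))) - z) := h1
      have h2 : e ∈ T (y + (z + (p - z) * cis (-(1 * t))) - z) := h2
      rcases hdich t ht with h3 | h3
      · rw [h3] at h2; simp [ae.symm, be.symm] at h2
      · rw [h3] at h1; simp [ae, af] at h1)
  have hall : ∀ t ∈ Ico 0 l, T (y + (z + (p - z) * cis (-(1 * t))) - z) = {e, f} := by
    have h00 : a ∉ T (y + (z + (p - z) * cis (-(1 * (0 : ℝ)))) - z) := by
      rw [mul_zero, neg_zero, cis_zero394, mul_one, add_sub_cancel, hep]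
      simp [ae, af]
    intro t ht
    rcases hsub with h1 | h1
    · exact absurd (h1 ⟨le_rfl, hl⟩) h00
    · have h2 : e ∈ T (y + (z + (p - z) * cis (-(1 * t))) - z) := h1 ht
      rcases hdich t ht with h3 | h3
      · rw [h3] at h2; simp [ae.symm, be.symm] at h2
      · exact h3
  have hmem : ∀ i : Fin 6, (∀ t ∈ Ico 0 l, i ∈ T (y + (z + (p - z) * cis (-(1 * t))) - z)) →
      i ∈ T (y + (z + (p - z) * cis (-(1 * l))) - z) := by
    intro i hi
    have h1 : IsClosed {t : ℝ | i ∈ T (y + (z + (p - z) * cis (-(1 * t))) - z)} :=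
      (h.closed i).preimage hcont
    have h2 : closure (Ico 0 l) ⊆ {t : ℝ | i ∈ T (y + (z + (p - z) * cis (-(1 * t))) - z)} :=
      closure_minimal hi h1
    rw [closure_Ico hl.ne] at h2
    exact h2 ⟨hl.le, le_rfl⟩
  exact ⟨hmem e fun t ht => by rw [hall t ht]; simp, hmem f fun t ht => by rw [hall t ht]; simp⟩

/-- the tie at the end of a `cd`-arc -/
theorem no_tieV (L : Lock T z y a b c d e f) (H : S3H U T) {q : ℂ} (hA : Acc T z {c, d} q)
    (hss : {c, d} ⊂ T q) (he : e ∈ T (y + q - z)) (hf : f ∈ T (y + q - z)) : False := by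
  have h := H.irr
  obtain ⟨⟨ab, ac, ad, ae, af⟩, ⟨bc, bd, be, bf⟩, ⟨cd, ce, cf⟩, ⟨de, df⟩, ef⟩ := L.ne_all
  have hq3 : (T q).ncard ≤ 3 := H.end3 L.hz.swap hA hss
  obtain ⟨x, hx, hTq⟩ := h.third L.hz.swap hA.dist hq3 hss
  have hqy : q ≠ y := by
    rintro rfl
    exact L.cy (by rw [hTq]; simp)
  have hanti : q + y ≠ 2 * z := by
    intro h2
    have e1 : 2 * z - y = q := by linear_combination -h2
    exact L.anti_cd h (by rw [e1]; exact h.sub _ (by rw [hTq]; simp))
      (by rw [e1]; exact h.sub _ (by rw [hTq]; simp))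
  have hxef : x = e ∨ x = f := by
    rcases L.all x with h1 | h1 | h1 | h1 | h1 | h1
    · exact absurd (h1 ▸ L.az) hx
    · exact absurd (h1 ▸ L.bz) hx
    · exact absurd (h1 ▸ L.cz) hx
    · exact absurd (h1 ▸ L.dz) hx
    · exact Or.inl h1
    · exact Or.inr h1
  obtain ⟨w, hw⟩ : ∃ w, w = y + q - z := ⟨_, rfl⟩
  rw [← hw] at he hf
  have hwy : dist w y = 1 := by rw [hw]; exact (L.dist_tr hA.dist).1
  have hwq : dist w q = 1 := by rw [hw]; exact (L.dist_tr hA.dist).2
  have hefw : ({e, f} : Set (Fin 6)) ⊆ T w := by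
    rintro i (rfl | hi)
    · exact he
    · rw [mem_singleton_iff] at hi; rw [hi]; exact hf
  have hxw : x ∈ T w := by
    rcases hxef with rfl | rfl
    · exact he
    · exact hf
  by_cases hin : T w ⊆ T y
  · -- `w` is exact
    have hTw : T w = {e, f} := by
      rcases H.inside L.hy hwy hin with h1 | h1
      · rw [h1] at he; simp [ae.symm, be.symm] at he
      · exact h1
    have hefy : ({e, f} : Set (Fin 6)) ⊆ T y := by rw [← hTw]; exact hin
    have harc : Arc T y w {e, f} :=
      ⟨hwy, h.pair_open (Set.ncard_pair ef) hefy hTw.subset⟩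
    have hxq : x ∈ Pal U q := h.sub _ (by rw [hTq]; simp)
    have hzy : dist z y = 1 := L.symm.d1
    refine h.prism833 harc hzy (p := w) ?_ ?_ (i := x) (by rcases hxef with rfl | rfl <;> simp) ?_
    · intro h1
      exact hanti (by rw [hw] at h1; linear_combination h1)
    · intro h1
      exact hqy (by rw [hw] at h1; linear_combination h1)
    · have e2 : z + w - y = q := by rw [hw]; ring
      rw [e2]; exact hxq
  · -- a colour `g ∈ {c, d}` at `w`
    obtain ⟨g, hgw, hgy⟩ := Set.not_subset.1 hin
    have hgcd : g = c ∨ g = d := by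
      rcases L.all g with h1 | h1 | h1 | h1 | h1 | h1
      · exact absurd (h1 ▸ L.ay) hgy
      · exact absurd (h1 ▸ L.by') hgy
      · exact Or.inl h1
      · exact Or.inr h1
      · exact absurd (h1 ▸ L.ey) hgy
      · exact absurd (h1 ▸ L.fy) hgy
    rcases Nat.lt_or_ge (T w).ncard 4 with hlt | hge
    · -- three colours
      have key : ∀ g', T q ⊆ insert g' (T w) → g' ∈ T z → False := by
        intro g' hs hgz
        rcases h.lemmaX (by rw [dist_comm]; exact hwq) (by omega) hs hA.dist (h.sub _ hgz)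
          with h1 | h1
        · have : e ∈ T z := by rw [h1]; exact he
          exact L.ez this
        · exact hqy (by rw [hw] at h1; linear_combination -h1)
      rcases hgcd with rfl | rfl
      · refine key d ?_ L.dz
        rw [hTq]
        rintro i (rfl | rfl | hi)
        · exact Or.inr hgw
        · exact Or.inl rfl
        · rw [mem_singleton_iff] at hi; rw [hi]; exact Or.inr hxw
      · refine key c ?_ L.cz
        rw [hTq]
        rintro i (rfl | rfl | hi)
        · exact Or.inl rfl
        · exact Or.inr hgw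
        · rw [mem_singleton_iff] at hi; rw [hi]; exact Or.inr hxw
    · -- four colours
      have hw4 : (T w).ncard = 4 := by have := H.le4 w; omega
      rcases H.tie L.hy hwy hw4 with ⟨h1, -⟩ | ⟨h1, h2⟩
      · have : e ∈ T w ∩ T y := ⟨he, L.ey⟩
        rw [h1] at this
        simp [ae.symm, be.symm] at this
      · have hmy : ∀ i ∈ T w, i ≠ e → i ≠ f → i = c ∨ i = d := by
          intro i hi hie hif
          have : i ∉ T y := by
            intro h5
            have h6 : i ∈ T w ∩ T y := ⟨hi, h5⟩
            rw [h1] at h6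
            rcases h6 with h6 | h6
            · exact hie h6
            · exact hif h6
          rcases L.all i with h1 | h1 | h1 | h1 | h1 | h1
          · exact absurd (h1 ▸ L.ay) this
          · exact absurd (h1 ▸ L.by') this
          · exact Or.inl h1
          · exact Or.inr h1
          · exact absurd (h1 ▸ L.ey) this
          · exact absurd (h1 ▸ L.fy) this
        have hc4 : ({c, d, e, f} : Set (Fin 6)).ncard = 4 := by
          rw [Set.ncard_insert_of_notMem, Set.ncard_insert_of_notMem, Set.ncard_pair ef]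
          · simp [de, df]
          · simp [cd, ce, cf]
        have hsw : T w ⊆ {c, d, e, f} := by
          intro i hi
          by_cases hie : i = e
          · simp [hie]
          · by_cases hif : i = f
            · simp [hif]
            · rcases hmy i hi hie hif with rfl | rfl <;> simp
        have hTw : T w = {c, d, e, f} :=
          Set.eq_of_subset_of_ncard_le hsw (by omega) (Set.toFinite _)
        have hcw : c ∈ T w ∧ d ∈ T w := by rw [hTw]; simp
        have hqw : T q ⊆ T w := by
          rw [hTq]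
          rintro i (rfl | rfl | hi)
          · exact hcw.1
          · exact hcw.2
          · rw [mem_singleton_iff] at hi; rw [hi]; exact hxw
        have hq3' : (T q).ncard = 3 := by
          rw [hTq]
          refine Set.ncard_eq_three.2 ⟨c, d, x, cd, ?_, ?_, rfl⟩
          · rcases hxef with rfl | rfl
            · exact ce
            · exact cf
          · rcases hxef with rfl | rfl
            · exact de
            · exact df
        rcases h2 with ⟨m, n, hD⟩ | hH
        · rcases H.inside hD (by rw [dist_comm]; exact hwq) hqw with h5 | h5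
          · rw [h5, Set.ncard_pair hD.ab] at hq3'; omega
          · rw [h5, Set.ncard_pair hD.cd] at hq3'; omega
        · have h5 := hH.h1 q (by rw [dist_comm]; exact hwq) hqw
          have h6 : e ∈ T q := h5 (by simp)
          have h7 : f ∈ T q := h5 (by simp)
          rw [hTq] at h6 h7
          rcases hxef with rfl | rfl
          · rcases h7 with h7 | h7 | h7
            · exact cf h7.symm
            · exact df h7.symm
            · exact ef (by rw [mem_singleton_iff] at h7; exact h7.symm)
          · rcases h6 with h6 | h6 | h6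
            · exact ce h6.symm
            · exact de h6.symm
            · exact ef (by rw [mem_singleton_iff] at h6; exact h6)

/-- **RULE R**: on an exact `cd`-arc of `S(z)` the translate to `S(y)` is exactly `{a, b}` -/
theorem ruleV (L : Lock T z y a b c d e f) (H : S3H U T) {p : ℂ} (hp : Arc T z p {c, d}) :
    T (y + p - z) = {a, b} := by
  have h := H.irr
  rcases L.exact_trV H hp with h1 | h1
  · exact h1
  · exfalso
    have hcdz : ({c, d} : Set (Fin 6)) ⊆ T z := by
      rintro i (rfl | hi)
      · exact L.cz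
      · rw [mem_singleton_iff] at hi; rw [hi]; exact L.dz
    obtain ⟨l, hl0, -, hlt, hss, hA⟩ := h.arc_side (o := 1) (Or.inl rfl)
      (Set.ncard_pair L.hz.cd) hcdz hp.1 hp.mem
    obtain ⟨he, hf⟩ := L.const_trV H hp.1 hl0 hlt hp.mem h1
    exact L.no_tieV H hA hss he hf

/-- a flank is not a limit of exact `ab`-arcs of `S(z)` -/
theorem not_abV (L : Lock T z y a b c d e f) (H : S3H U T) (hz : dist p z = 1)
    (hy : dist p y = 1) : p ∉ closure (Ex T z {a, b}) := by
  intro hp
  have h := H.irr
  have hab := sub_of_closure h hp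
  have haz : ({a, b} : Set (Fin 6)) ⊆ T z := by
    rintro i (rfl | hi)
    · exact L.az
    · rw [mem_singleton_iff] at hi; rw [hi]; exact L.bz
  obtain ⟨o1, o2⟩ := L.off hz
  by_cases hsub : T p ⊆ {a, b}
  · have harc := h.pair_open (Set.ncard_pair L.hz.ab) haz hsub
    exact line_free h hz (t := a) (harc.mono fun q hq => by rw [hq]; simp) hy o1 o2
      (h.sub _ L.ay)
  · have hss : {a, b} ⊂ T p := ⟨hab, hsub⟩
    have h3 := H.end3 L.hz (acc_of_closure hp) hss
    obtain ⟨g, hg, hTp⟩ := h.third L.hz hz h3 hss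
    have hcp : c ∉ T p := by
      rw [hTp]
      rintro (h1 | h1 | h1)
      · exact L.hz.ac h1.symm
      · exact L.hz.bc h1.symm
      · exact hg (by rw [← h1]; exact L.cz)
    have hdp : d ∉ T p := by
      rw [hTp]
      rintro (h1 | h1 | h1)
      · exact L.hz.ad h1.symm
      · exact L.hz.bd h1.symm
      · exact hg (by rw [← h1]; exact L.dz)
    rcases H.inside L.hy hy (L.in_y hcp hdp) with h1 | h1
    · exact hsub h1.subset
    · have : a ∈ T p := hab (by simp)
      rw [h1] at this
      obtain ⟨⟨ab, ac, ad, ae, af⟩, -⟩ := L.ne_all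
      simp [ae, af] at this

/-- **dichotomy at a flank** -/
theorem dichV (L : Lock T z y a b c d e f) (H : S3H U T) (hz : dist p z = 1)
    (hy : dist p y = 1) : p ∈ closure (Ex T z {c, d}) ∨ (e ∈ T p ∧ f ∈ T p) := by
  by_contra hcon
  push Not at hcon
  obtain ⟨hcd, hef⟩ := hcon
  have h := H.irr
  have hab := L.not_abV H hz hy
  have C := S5.H767.ctr_of_dpt h L.hz L.nd
  obtain ⟨o1, o2⟩ := L.off hz
  have h1 : ∀ᶠ q in 𝓝[sphere z 1] p, q ∉ closure (Ex T z {a, b}) :=
    mem_nhdsWithin_of_mem_nhds (isClosed_closure.isOpen_compl.mem_nhds hab)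
  have h2 : ∀ᶠ q in 𝓝[sphere z 1] p, q ∉ closure (Ex T z {c, d}) :=
    mem_nhdsWithin_of_mem_nhds (isClosed_closure.isOpen_compl.mem_nhds hcd)
  by_cases he : e ∈ T p
  · have hf := hef he
    have h3 : ∀ᶠ q in 𝓝[sphere z 1] p, f ∉ T q :=
      mem_nhdsWithin_of_mem_nhds ((h.closed f).isOpen_compl.mem_nhds hf)
    refine line_free h hz (t := e) ?_ hy o1 o2 (h.sub _ L.ey)
    filter_upwards [h1, h2, h3, self_mem_nhdsWithin] with q k1 k2 k3 k4
    obtain ⟨l, hl⟩ := C.cover (y := q) k4
    fin_cases l
    · exact hl.2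
    · exact absurd hl.2 k3
    · exact absurd hl k1
    · exact absurd hl k2
  · have h3 : ∀ᶠ q in 𝓝[sphere z 1] p, e ∉ T q :=
      mem_nhdsWithin_of_mem_nhds ((h.closed e).isOpen_compl.mem_nhds he)
    refine line_free h hz (t := f) ?_ hy o1 o2 (h.sub _ L.fy)
    filter_upwards [h1, h2, h3, self_mem_nhdsWithin] with q k1 k2 k3 k4
    obtain ⟨l, hl⟩ := C.cover (y := q) k4
    fin_cases l
    · exact absurd hl.2 k3
    · exact hl.2
    · exact absurd hl k1
    · exact absurd hl k2

/-- the translate of a limit of exact `ef`-arcs of `S(y)` -/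
theorem tr_accV (L : Lock T z y a b c d e f) (H : S3H U T) (hp : p ∈ closure (Ex T y {e, f})) :
    z + p - y ∈ closure (Ex T z {a, b}) := by
  have h := H.irr
  rw [mem_closure_iff_nhds]
  intro V hV
  have hcont : Tendsto (fun q : ℂ => z + q - y) (𝓝 p) (𝓝 (z + p - y)) := by
    have : Continuous fun q : ℂ => z + q - y := by fun_prop
    exact this.tendsto p
  obtain ⟨q, hqV, hq⟩ := mem_closure_iff_nhds.1 hp _ (hcont hV)
  have hT : T (z + q - y) = {a, b} := L.symm.ruleV H hq
  have hd : dist (z + q - y) z = 1 := (L.symm.dist_tr hq.1).1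
  have haz : ({a, b} : Set (Fin 6)) ⊆ T z := by
    rintro i (rfl | hi)
    · exact L.az
    · rw [mem_singleton_iff] at hi; rw [hi]; exact L.bz
  exact ⟨z + q - y, hqV, hd, h.pair_open (Set.ncard_pair L.hz.ab) haz hT.subset⟩

/-- a limit of exact `ef`-arcs of `S(y)`: the other flank has not both `c, d` -/
theorem not_cdV' (L : Lock T z y a b c d e f) (H : S3H U T) (hp : p ∈ closure (Ex T y {e, f}))
    (hc : c ∈ Pal U (y + z - p)) (hd : d ∈ Pal U (y + z - p)) : False := by
  have h := H.irr
  have h1 := L.tr_accV H hp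
  have h2 := sub_of_closure h h1
  have e1 : 2 * z - (z + p - y) = y + z - p := by ring
  exact h.anti L.hz (dist_of_closure h1) (h.sub _ (h2 (by simp))) (h.sub _ (h2 (by simp)))
    (by rw [e1]; exact hc) (by rw [e1]; exact hd)

/-- ... and is a limit of exact `ef`-arcs too -/
theorem efV' (L : Lock T z y a b c d e f) (H : S3H U T) (hz : dist p z = 1) (hy : dist p y = 1)
    (hp : p ∈ closure (Ex T y {e, f})) : y + z - p ∈ closure (Ex T y {e, f}) := by
  have h := H.irr
  obtain ⟨g1, g2⟩ := L.flank' hz hy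
  rcases L.symm.dichV H g2 g1 with h1 | ⟨h1, h2⟩
  · exact h1
  · exact (L.not_cdV' H hp (h.sub _ h1) (h.sub _ h2)).elim

/-- ... and the flank itself has not both `c, d` -/
theorem not_cdV (L : Lock T z y a b c d e f) (H : S3H U T) (hz : dist p z = 1)
    (hy : dist p y = 1) (hp : p ∈ closure (Ex T y {e, f})) (hc : c ∈ Pal U p)
    (hd : d ∈ Pal U p) : False := by
  have h1 := L.efV' H hz hy hp
  have e1 : y + z - (y + z - p) = p := by ring
  exact L.not_cdV' H h1 (by rw [e1]; exact hc) (by rw [e1]; exact hd)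

/-- if one flank is `{c, d, e, f}` then so is the other one -/
theorem t1_stepV (L : Lock T z y a b c d e f) (H : S3H U T) (hz : dist p z = 1)
    (hy : dist p y = 1) (hc : c ∈ T p) (hd : d ∈ T p) (he : e ∈ T p) (hf : f ∈ T p) :
    (c ∈ T (y + z - p) ∧ d ∈ T (y + z - p)) ∧ e ∈ T (y + z - p) ∧ f ∈ T (y + z - p) := by
  have h := H.irr
  obtain ⟨g1, g2⟩ := L.flank' hz hy
  have e1 : y + z - (y + z - p) = p := by ring
  have e2 : z + y - (y + z - p) = p := by ring
  constructor
  · rcases L.symm.dichV H g2 g1 with h1 | h1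
    · have h2 := L.efV' H g1 g2 h1
      rw [e1] at h2
      exact (L.not_cdV H hz hy h2 (h.sub _ hc) (h.sub _ hd)).elim
    · exact h1
  · rcases L.dichV H g1 g2 with h1 | h1
    · have h2 := L.symm.efV' H g2 g1 h1
      rw [e2] at h2
      exact (L.symm.not_cdV H hy hz h2 (h.sub _ he) (h.sub _ hf)).elim
    · exact h1

/-- **no flank has the four colours `c, d, e, f`** -/
theorem no_t1V (L : Lock T z y a b c d e f) (H : S3H U T) (hz : dist p z = 1)
    (hy : dist p y = 1) (hc : c ∈ T p) (hd : d ∈ T p) (he : e ∈ T p) (hf : f ∈ T p) : False := by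
  have h := H.irr
  have Dp : DPt T p c d e f := H.dpt2 L.hz.swap L.hy hz hy L.nd_cdab hc hd he hf
  -- the pair `z, p` with flank `y`
  have L2 : Lock T z p c d a b e f := ⟨L.hz.swap, Dp, hz, L.nd_cdab⟩
  have hyp : dist y p = 1 := by rw [dist_comm]; exact hy
  obtain ⟨⟨k1, k2⟩, k3, k4⟩ := L2.t1_stepV H (p := y) L.d1 hyp L.ay L.by' L.ey L.fy
  obtain ⟨g1, g2⟩ := L2.flank' (p := y) L.d1 hyp
  have D3 : DPt T (p + z - y) a b e f := H.dpt2 L.hz Dp g1 g2 L.nd k1 k2 k3 k4
  have L3 : Lock T z (p + z - y) a b c d e f := ⟨L.hz, D3, g1, L.nd⟩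
  obtain ⟨⟨m1, m2⟩, -⟩ := L3.t1_stepV H (p := p) hz (by rw [dist_comm]; exact g2) hc hd he hf
  have e1 : p + z - y + z - p = 2 * z - y := by ring
  rw [e1] at m1 m2
  exact L.anti_cd h (h.sub _ m1) (h.sub _ m2)

/-- **no flank carries both `e` and `f`** -/
theorem no_swappedV (L : Lock T z y a b c d e f) (H : S3H U T) (hz : dist p z = 1)
    (hy : dist p y = 1) (he : e ∈ T p) (hf : f ∈ T p) : False := by
  have h := H.irr
  obtain ⟨⟨ab, ac, ad, ae, af⟩, ⟨bc, bd, be, bf⟩, ⟨cd, ce, cf⟩, ⟨de, df⟩, ef⟩ := L.ne_all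
  obtain ⟨g0, hg0⟩ := L.hz.arc2
  obtain ⟨g, hg, g1, g2, g3, g4⟩ := hg0.exists_off_two (y := p) (y' := y + z - p)
  have hu : T (y + g - z) = {a, b} := L.ruleV H hg
  have huy : dist (y + g - z) y = 1 := (L.dist_tr hg.1).1
  have haby : ({a, b} : Set (Fin 6)) ⊆ T y := by
    rintro i (rfl | hi)
    · exact L.ay
    · rw [mem_singleton_iff] at hi; rw [hi]; exact L.by'
  have hua : Arc T y (y + g - z) {a, b} :=
    ⟨huy, h.pair_open (Set.ncard_pair ab) haby hu.subset⟩
  obtain ⟨w, hw⟩ : ∃ w, w = p + g - z := ⟨_, rfl⟩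
  have hwp : dist w p = 1 := by
    rw [hw, dist_eq_norm, show p + g - z - p = g - z by ring, ← dist_eq_norm]; exact hg.1
  have hcd : ∀ i ∈ ({c, d} : Set (Fin 6)), i ∉ T w := by
    intro i hi h5
    exact h.prism833 hg hz g1 g2 hi (by rw [← hw]; exact h.sub _ h5)
  have hab : ∀ i ∈ ({a, b} : Set (Fin 6)), i ∉ T w := by
    intro i hi h5
    refine h.prism833 (z := y) (y := p) hua hy (fun h1 => g4 ?_) (fun h1 => g3 ?_) hi ?_
    · linear_combination h1
    · linear_combination h1
    · rw [show p + (y + g - z) - y = w by rw [hw]; ring]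
      exact h.sub _ h5
  have hsub : T w ⊆ {e, f} := by
    intro i hi
    rcases L.all i with rfl | rfl | rfl | rfl | rfl | rfl
    · exact absurd hi (hab _ (by simp))
    · exact absurd hi (hab _ (by simp))
    · exact absurd hi (hcd _ (by simp))
    · exact absurd hi (hcd _ (by simp))
    · simp
    · simp
  have hwTp : T w ⊆ T p := by
    intro i hi
    rcases hsub hi with rfl | h1
    · exact he
    · rw [mem_singleton_iff] at h1; rw [h1]; exact hf
  rcases Nat.lt_or_ge (T p).ncard 4 with hlt | hge
  · exact h.not_sub hwp (by omega) hwTp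
  · have hp4 : (T p).ncard = 4 := by have := H.le4 p; omega
    rcases H.tie L.hz hz hp4 with ⟨h1, -⟩ | ⟨h1, -⟩
    · -- `T p = T y`
      have hap : a ∈ T p := (h1.symm.subset (by simp : a ∈ ({a, b} : Set (Fin 6)))).1
      have hbp : b ∈ T p := (h1.symm.subset (by simp : b ∈ ({a, b} : Set (Fin 6)))).1
      have hsy : T y ⊆ T p := by
        rw [L.hy.pal]
        rintro i (rfl | rfl | rfl | hi)
        · exact hap
        · exact hbp
        · exact he
        · rw [mem_singleton_iff] at hi; rw [hi]; exact hf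
      have hint : T p ∩ T y = T y := inter_eq_right.2 hsy
      rcases H.tie L.hy hy hp4 with ⟨h2, -⟩ | ⟨h2, -⟩
      · rw [hint] at h2
        have h3 := L.ey
        rw [h2] at h3
        rcases h3 with h3 | h3
        · exact ae h3.symm
        · exact be h3.symm
      · rw [hint] at h2
        have h3 := L.ay
        rw [h2] at h3
        rcases h3 with h3 | h3
        · exact ae h3
        · exact af h3
    · have hcp : c ∈ T p := (h1.symm.subset (by simp : c ∈ ({c, d} : Set (Fin 6)))).1
      have hdp : d ∈ T p := (h1.symm.subset (by simp : d ∈ ({c, d} : Set (Fin 6)))).1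
      exact L.no_t1V H hz hy hcp hdp he hf

/-- **there are no contacts of type S3** -/
theorem falseV' (L : Lock T z y a b c d e f) (H : S3H U T) (hz : dist p z = 1)
    (hy : dist p y = 1) : False := by
  rcases L.dichV H hz hy with h1 | ⟨he, hf⟩
  · have h2 := sub_of_closure H.irr h1
    exact L.symm.no_swappedV H hy hz (h2 (by simp)) (h2 (by simp))
  · exact L.no_swappedV H hz hy he hf

end Lock

/-- **two-pair points of type S3 are not at distance one** -/
theorem S3H.noLock (H : S3H U T) {z y : ℂ} {a b c d e f : Fin 6} (hz : DPt T z a b c d)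
    (hy : DPt T y a b e f) (hd : dist y z = 1) (nd : [a, b, c, d, e, f].Nodup) : False := by
  obtain ⟨p, hpz, hpy⟩ := exists_flank hd
  exact Lock.falseV' ⟨hz, hy, hd, nd⟩ H hpz hpy

end Vale.Agent.P032.Six
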