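import Vale.Agent.P032.R2.H659.Antip

/-!
# P032: the labels of a two-pair point as functions of the direction

`z = {a, b | c, d}`, `Nc U z i v`: the direction `pt z v - z` is in the dual cone of the colour `i`: all rays
`w` of `U i` at `z` have `0 ≤ ip w (pt z v - z)`.

* `Nc.per`, `Nc.isClosed`, `Nc.conv` (CONV: an interval of length `< 3`), `Nc.left`, `Nc.right` (one-sided
  limits exist);
* `Irr.nc_opp` (opp: not `Nc i v` and `Nc i (v + 3)`), `Irr.nc_pair` (not `Nc a v` and `Nc b v`);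
* `Irr.nc_near`, `Irr.nc_far`, `Irr.pairlab` (a pair in the palette), `Irr.letlab_right`,
  `Irr.letlab_left` (a pair next to a direction);
* `Irr.line1`, `Irr.line1'` (at most one direction with `Nc c v`, `Nc b (v + 3)` per period), `Irr.mix_right`,
  `Irr.mix_left` (never on one side of a direction).
-/

set_option autoImplicit false

open Set Filter Topology Metric

noncomputable section

namespace Vale.Agent.P032.Six

open S5.H767 (pt dist_pt pt_six pt_three)

variable {k : ℕ} {U : Fin k → Set ℂ} {T : ℂ → Set (Fin k)} {z : ℂ} {a b c d i j q : Fin k}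
  {v v' v₁ v₂ : ℝ}

/-- the direction `v` is in the dual cone of the colour `i` at `z` -/
def Nc (U : Fin k → Set ℂ) (z : ℂ) (i : Fin k) (v : ℝ) : Prop :=
  ∀ w, Ray (U i) z w → 0 ≤ ip w (pt z v - z)

theorem pt_sub (z : ℂ) (v : ℝ) : pt z v - z = cis (v * (Real.pi / 3)) := by
  unfold pt; ring

theorem ip_right_add (w x y : ℂ) (α β : ℝ) : ip w (α * x + β * y) = α * ip w x + β * ip w y := by
  unfold ip; simp; ring

theorem pt_add_three_sub (z : ℂ) (v : ℝ) : pt z (v + 3) - z = -(pt z v - z) := by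
  rw [pt_three]; ring

theorem ip_neg_right (w x : ℂ) : ip w (-x) = -ip w x := by
  unfold ip; simp; ring

namespace Nc

theorem add_three_iff : Nc U z i (v + 3) ↔ ∀ w, Ray (U i) z w → ip w (pt z v - z) ≤ 0 := by
  unfold Nc
  refine forall₂_congr fun w _ => ?_
  rw [pt_add_three_sub, ip_neg_right]
  constructor <;> intro h <;> linarith

theorem per : Nc U z i (v + 6) ↔ Nc U z i v := by
  unfold Nc; rw [pt_six]

theorem per' : Nc U z i (v - 6) ↔ Nc U z i v := by
  rw [← per (v := v - 6), sub_add_cancel]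

theorem isClosed : IsClosed {v | Nc U z i v} := by
  have h1 : {v | Nc U z i v} = ⋂ (w : ℂ) (_ : Ray (U i) z w), {v | 0 ≤ ip w (pt z v - z)} := by
    ext v; simp [Nc]
  rw [h1]
  refine isClosed_iInter fun w => isClosed_iInter fun _ => isClosed_le continuous_const ?_
  have h2 : (fun v : ℝ => ip w (pt z v - z)) =
      fun v : ℝ => w.re * Real.cos (v * (Real.pi / 3)) + w.im * Real.sin (v * (Real.pi / 3)) := by
    funext v
    rw [pt_sub]
    unfold ip
    rw [cis_re, cis_im]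
  rw [h2]
  fun_prop

/-- **CONV** -/
theorem conv (h1 : Nc U z i v₁) (h2 : Nc U z i v₂) (h3 : v₁ ≤ v) (h4 : v ≤ v₂) (h5 : v₂ < v₁ + 3) :
    Nc U z i v := by
  rcases eq_or_lt_of_le (h3.trans h4) with h6 | h6
  · have : v = v₁ := le_antisymm (by linarith) h3
    rwa [this]
  intro w hw
  have k1 := h1 w hw
  have k2 := h2 w hw
  rw [pt_sub] at k1 k2 ⊢
  have hpi := Real.pi_pos
  set θ := Real.pi / 3 with hθ
  have hθ0 : 0 < θ := by positivity
  have s0 : 0 < Real.sin ((v₂ - v₁) * θ) := by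
    refine Real.sin_pos_of_pos_of_lt_pi (mul_pos (by linarith) hθ0) ?_
    have : (v₂ - v₁) * θ < 3 * θ := mul_lt_mul_of_pos_right (by linarith) hθ0
    rw [hθ] at this ⊢; linarith
  have s1 : 0 ≤ Real.sin ((v₂ - v) * θ) := by
    refine Real.sin_nonneg_of_nonneg_of_le_pi (mul_nonneg (by linarith) hθ0.le) ?_
    have : (v₂ - v) * θ ≤ 3 * θ := mul_le_mul_of_nonneg_right (by linarith) hθ0.le
    rw [hθ] at this ⊢; linarith
  have s2 : 0 ≤ Real.sin ((v - v₁) * θ) := by
    refine Real.sin_nonneg_of_nonneg_of_le_pi (mul_nonneg (by linarith) hθ0.le) ?_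
    have : (v - v₁) * θ ≤ 3 * θ := mul_le_mul_of_nonneg_right (by linarith) hθ0.le
    rw [hθ] at this ⊢; linarith
  have key : Real.sin ((v₂ - v₁) * θ) * ip w (cis (v * θ)) =
      Real.sin ((v₂ - v) * θ) * ip w (cis (v₁ * θ)) +
        Real.sin ((v - v₁) * θ) * ip w (cis (v₂ * θ)) := by
    unfold ip
    rw [cis_re, cis_im, cis_re, cis_im, cis_re, cis_im]
    have e1 : (v₂ - v₁) * θ = v₂ * θ - v₁ * θ := by ring
    have e2 : (v₂ - v) * θ = v₂ * θ - v * θ := by ring
    have e3 : (v - v₁) * θ = v * θ - v₁ * θ := by ring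
    rw [e1, e2, e3, Real.sin_sub, Real.sin_sub, Real.sin_sub]
    ring
  have h7 : 0 ≤ Real.sin ((v₂ - v₁) * θ) * ip w (cis (v * θ)) := by
    rw [key]; positivity
  exact nonneg_of_mul_nonneg_right h7 s0

/-- just after a direction the label is constant -/
theorem right (U : Fin k → Set ℂ) (z : ℂ) (i : Fin k) (v : ℝ) :
    (∀ᶠ t in 𝓝[>] v, Nc U z i t) ∨ ∀ᶠ t in 𝓝[>] v, ¬ Nc U z i t := by
  by_contra hcon
  push Not at hcon
  obtain ⟨h1, h2⟩ := hcon
  have h3 : ∃ᶠ t in 𝓝[>] v, Nc U z i t := by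
    intro h4; exact h2 h4
  have h1' : ∃ᶠ t in 𝓝[>] v, ¬ Nc U z i t := by
    intro h4; exact h1 (h4.mono fun t ht => by simpa using ht)
  obtain ⟨t1, ht1, k1, k2⟩ := (h3.and_eventually (Ioo_mem_nhdsGT (show v < v + 1 by linarith))).exists
  refine h1' ?_
  filter_upwards [Ioo_mem_nhdsGT k1] with t ht hn
  refine hn ?_
  obtain ⟨t0, ht0, k3, k4⟩ := (h3.and_eventually (Ioo_mem_nhdsGT ht.1)).exists
  exact conv ht0 ht1 k4.le ht.2.le (by linarith)

/-- just before a direction the label is constant -/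
theorem left (U : Fin k → Set ℂ) (z : ℂ) (i : Fin k) (v : ℝ) :
    (∀ᶠ t in 𝓝[<] v, Nc U z i t) ∨ ∀ᶠ t in 𝓝[<] v, ¬ Nc U z i t := by
  by_contra hcon
  push Not at hcon
  obtain ⟨h1, h2⟩ := hcon
  have h3 : ∃ᶠ t in 𝓝[<] v, Nc U z i t := by
    intro h4; exact h2 h4
  have h1' : ∃ᶠ t in 𝓝[<] v, ¬ Nc U z i t := by
    intro h4; exact h1 (h4.mono fun t ht => by simpa using ht)
  obtain ⟨t1, ht1, k1, k2⟩ := (h3.and_eventually (Ioo_mem_nhdsLT (show v - 1 < v by linarith))).exists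
  refine h1' ?_
  filter_upwards [Ioo_mem_nhdsLT k2] with t ht hn
  refine hn ?_
  obtain ⟨t0, ht0, k3, k4⟩ := (h3.and_eventually (Ioo_mem_nhdsLT ht.2)).exists
  exact conv ht1 ht0 ht.1.le k3.le (by linarith)

end Nc

/-- `i` is one of the colours of the first pair, `j` the other one -/
def Pr (a b i j : Fin k) : Prop := (i = a ∧ j = b) ∨ (i = b ∧ j = a)

theorem DPt.norm1 (hz : DPt T z a b c d) (h : Pr a b i j) : DPt T z i j c d := by
  rcases h with ⟨rfl, rfl⟩ | ⟨rfl, rfl⟩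
  · exact hz
  · exact hz.swap12

theorem DPt.norm2 (hz : DPt T z a b c d) (h : Pr c d i j) : DPt T z a b i j := by
  rcases h with ⟨rfl, rfl⟩ | ⟨rfl, rfl⟩
  · exact hz
  · exact hz.swap34

namespace Irr

/-- the labels of a pair are not both at `v` -/
theorem nc_pair (h : Irr U T) (hz : DPt T z a b c d) (h1 : Nc U z a v) (h2 : Nc U z b v) : False := by
  obtain ⟨u, hu, ha, hb⟩ := h.exists_ray_off hz (dist_pt z v)
  have k1 := h1 u ha
  have k2 := h2 _ hb
  rw [ip_neg] at k2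
  exact hu (by linarith)

/-- **opp**, first colour -/
theorem nc_opp (h : Irr U T) (hz : DPt T z a b c d) (h1 : Nc U z a v) (h2 : Nc U z a (v + 3)) :
    False := by
  obtain ⟨u, hu, ha, hb⟩ := h.exists_ray_off hz (dist_pt z v)
  exact hu (le_antisymm (Nc.add_three_iff.1 h2 u ha) (h1 u ha))

/-- **opp**, any colour of the palette -/
theorem nc_opp' (h : Irr U T) (hz : DPt T z a b c d) (hi : i ∈ T z) (h1 : Nc U z i v)
    (h2 : Nc U z i (v + 3)) : False := by
  rw [hz.pal] at hi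
  rcases hi with rfl | rfl | rfl | hi
  · exact h.nc_opp hz h1 h2
  · exact h.nc_opp hz.swap12 h1 h2
  · exact h.nc_opp hz.swap h1 h2
  · rw [mem_singleton_iff] at hi; subst hi
    exact h.nc_opp hz.swap34.swap h1 h2

/-- a near contact -/
theorem nc_near (h : Irr U T) (hi : NrC U z (pt z v) i) : Nc U z i v :=
  h.mx.near_polar (dist_pt z v) hi.1 hi.2

/-- a far contact -/
theorem nc_far (h : Irr U T) (hi : FrC U z (pt z v) i) : Nc U z i (v + 3) :=
  Nc.add_three_iff.2 (h.mx.far_polar (dist_pt z v) hi.1 hi.2)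

/-- a colour of `T z` on the circle is near or far -/
theorem nc_or (h : Irr U T) (hz : DPt T z a b c d) (hi : a ∈ Pal U (pt z v)) :
    Nc U z a v ∨ Nc U z a (v + 3) := by
  rcases h.nr_or_fr hz (dist_pt z v) hi with h1 | h1
  · exact Or.inl (h.nc_near h1)
  · exact Or.inr (h.nc_far h1)

/-- **pairlab**: both colours of a pair on the circle -/
theorem pairlab (h : Irr U T) (hz : DPt T z a b c d) (ha : a ∈ Pal U (pt z v))
    (hb : b ∈ Pal U (pt z v)) :
    (Nc U z a v ∧ Nc U z b (v + 3)) ∨ (Nc U z b v ∧ Nc U z a (v + 3)) := by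
  rcases h.nr_or_fr hz (dist_pt z v) ha with h1 | h1
  · exact Or.inl ⟨h.nc_near h1, h.nc_far (h.fr_of_nr hz (dist_pt z v) h1 hb)⟩
  · exact Or.inr ⟨h.nc_near (h.nr_of_fr hz (dist_pt z v) h1 hb), h.nc_far h1⟩

/-- **letlab**, on the right of a direction -/
theorem letlab_right (h : Irr U T) (hz : DPt T z a b c d)
    (hp : ∀ᶠ t in 𝓝[>] v, a ∈ Pal U (pt z t) ∧ b ∈ Pal U (pt z t)) :
    (∀ᶠ t in 𝓝[>] v, Nc U z a t ∧ Nc U z b (t + 3)) ∨
      ∀ᶠ t in 𝓝[>] v, Nc U z b t ∧ Nc U z a (t + 3) := by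
  rcases Nc.right U z a v with h1 | h1
  · left
    filter_upwards [h1, hp] with t k1 k2
    rcases h.pairlab hz k2.1 k2.2 with k3 | k3
    · exact k3
    · exact (h.nc_opp hz k1 k3.2).elim
  · right
    filter_upwards [h1, hp] with t k1 k2
    rcases h.pairlab hz k2.1 k2.2 with k3 | k3
    · exact (k1 k3.1).elim
    · exact k3

/-- **letlab**, on the left of a direction -/
theorem letlab_left (h : Irr U T) (hz : DPt T z a b c d)
    (hp : ∀ᶠ t in 𝓝[<] v, a ∈ Pal U (pt z t) ∧ b ∈ Pal U (pt z t)) :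
    (∀ᶠ t in 𝓝[<] v, Nc U z a t ∧ Nc U z b (t + 3)) ∨
      ∀ᶠ t in 𝓝[<] v, Nc U z b t ∧ Nc U z a (t + 3) := by
  rcases Nc.left U z a v with h1 | h1
  · left
    filter_upwards [h1, hp] with t k1 k2
    rcases h.pairlab hz k2.1 k2.2 with k3 | k3
    · exact k3
    · exact (h.nc_opp hz k1 k3.2).elim
  · right
    filter_upwards [h1, hp] with t k1 k2
    rcases h.pairlab hz k2.1 k2.2 with k3 | k3
    · exact (k1 k3.1).elim
    · exact k3

/-- **line1**: at most one direction with `c` near and `b` far -/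
theorem line1 (h : Irr U T) (hz : DPt T z a b c d) (h1 : Nc U z c v) (h2 : Nc U z b (v + 3))
    (h3 : Nc U z c v') (h4 : Nc U z b (v' + 3)) : pt z v' = pt z v := by
  have e : ∀ t, ‖pt z t - z‖ = 1 := fun t => by rw [← dist_eq_norm]; exact dist_pt z t
  have := h.cone_labels hz (e v) (e v') h1 (Nc.add_three_iff.1 h2) h3 (Nc.add_three_iff.1 h4)
  linear_combination -this

/-- **line1** for any crossed pair -/
theorem line1' (h : Irr U T) (hz : DPt T z a b c d) (hi : i = a ∨ i = b) (hq : q = c ∨ q = d)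
    (h1 : Nc U z q v) (h2 : Nc U z i (v + 3)) (h3 : Nc U z q v') (h4 : Nc U z i (v' + 3)) :
    pt z v' = pt z v := by
  rcases hi with rfl | rfl <;> rcases hq with rfl | rfl
  · exact h.line1 hz.swap12 h1 h2 h3 h4
  · exact h.line1 hz.swap12.swap34 h1 h2 h3 h4
  · exact h.line1 hz h1 h2 h3 h4
  · exact h.line1 hz.swap34 h1 h2 h3 h4

theorem pt_inj_near {s t : ℝ} (h : pt z s = pt z t) (h1 : |s - t| < 3) : s = t := by
  have h2 : cis (s * (Real.pi / 3)) = cis (t * (Real.pi / 3)) := by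
    rw [← pt_sub z, ← pt_sub z, h]
  -- angles
  unfold cis at h2
  obtain ⟨n, hn⟩ := Complex.exp_eq_exp_iff_exists_int.1 h2
  have h3 := congrArg Complex.im hn
  have h4 : s * (Real.pi / 3) = t * (Real.pi / 3) + n * (2 * Real.pi) := by simpa using h3
  have hpi := Real.pi_pos
  have h5 : s - t = 6 * n := by
    have : (s - t) * Real.pi = 6 * n * Real.pi := by linarith
    exact mul_right_cancel₀ hpi.ne' this
  have h6 : |(n : ℝ)| < 1 := by
    rw [h5, abs_mul] at h1
    have : |(6 : ℝ)| = 6 := by norm_num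
    rw [this] at h1
    linarith
  have h7 : n = 0 := by
    have h8 : |n| < 1 := by exact_mod_cast h6
    exact Int.abs_lt_one_iff.1 h8
  rw [h7] at h5
  push_cast at h5
  linarith

/-- **mix**: a crossed pair is not near and far on a whole interval -/
theorem mix_right (h : Irr U T) (hz : DPt T z a b c d) (hi : i = a ∨ i = b) (hq : q = c ∨ q = d) :
    ∀ᶠ t in 𝓝[>] v, ¬ (Nc U z q t ∧ Nc U z i (t + 3)) := by
  by_cases h0 : ∃ t ∈ Ioo v (v + 1), Nc U z q t ∧ Nc U z i (t + 3)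
  · obtain ⟨t0, ht0, k1, k2⟩ := h0
    filter_upwards [Ioo_mem_nhdsGT ht0.1] with t ht ⟨k3, k4⟩
    have h1 := h.line1' hz hi hq k1 k2 k3 k4
    have h2 := pt_inj_near h1 (by rw [abs_lt]; constructor <;> linarith [ht.1, ht.2, ht0.1, ht0.2])
    linarith [ht.2]
  · push Not at h0
    filter_upwards [Ioo_mem_nhdsGT (show v < v + 1 by linarith)] with t ht ⟨k1, k2⟩
    exact h0 t ht k1 k2

theorem mix_left (h : Irr U T) (hz : DPt T z a b c d) (hi : i = a ∨ i = b) (hq : q = c ∨ q = d) :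
    ∀ᶠ t in 𝓝[<] v, ¬ (Nc U z q t ∧ Nc U z i (t + 3)) := by
  by_cases h0 : ∃ t ∈ Ioo (v - 1) v, Nc U z q t ∧ Nc U z i (t + 3)
  · obtain ⟨t0, ht0, k1, k2⟩ := h0
    filter_upwards [Ioo_mem_nhdsLT ht0.2] with t ht ⟨k3, k4⟩
    have h1 := h.line1' hz hi hq k1 k2 k3 k4
    have h2 := pt_inj_near h1 (by rw [abs_lt]; constructor <;> linarith [ht.1, ht.2, ht0.1, ht0.2])
    linarith [ht.1]
  · push Not at h0
    filter_upwards [Ioo_mem_nhdsLT (show v - 1 < v by linarith)] with t ht ⟨k1, k2⟩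
    exact h0 t ht k1 k2

end Irr

end Vale.Agent.P032.Six
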