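import Vale.Agent.P032.R2.H267.Tight
import Vale.Agent.P032.R2.H264.Mem
import Vale.Agent.P032.R2.H609.WLim

/-!
# P032: the label families of the transition system

Directions are numbered in thirds: at the time `u` the number `3 k`, `3 k + 1`, `3 k + 2` stands for: just
before, at, just after `u + k`; `Nx U z i u x`: the label of the colour `i` holds in the direction number `x`.

* `Nx.zero`, `Nx.one`, `Nx.two`: the three cases; `nx_memL`, `nx_memR` : limits of the label as a latch;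
* `Nx.per` (period 18), `Nx.n0L`, `Nx.n0R`, `Nx.conv`, `Nx.dich`;
* `Nx.convM`, `Nx.convM2` : with the memory `seen {w | Nc (w + k)} u0 u`;
* `Irr.nx_opp`, `nx_pair`, `nx_mix`, `nx_line1`, `nx_gline`, `nx_lab1`, `nx_pairlab`, `nx_letlab0`, `nx_letlab1`
  (letters `LF`, `RF` of `R2.H609.WLim`);
* `Irr.nx_rkind`, `nx_mkind`, `nx_agree`, `nx_tight0`, `nx_tight1`.
-/

set_option autoImplicit false

open Set Filter Topology Metric

noncomputable section

namespace Vale.Agent.P032.Six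

open S5.H767 (pt dist_pt pt_six pt_three MemL MemR seen)

/-- the direction number `x` at the time `u` -/
def dr (u s : ℝ) (x : ℤ) : ℝ := u + ((x / 3 : ℤ) : ℝ) + (((x % 3 : ℤ) : ℝ) - 1) * s

section
variable {u s v : ℝ} {x y w k : ℤ}

theorem dr_zero (u s : ℝ) (k : ℤ) : dr u s (3 * k) = u + k - s := by
  have h1 : (3 * k) / 3 = k := by omega
  have h2 : (3 * k) % 3 = 0 := by omega
  unfold dr
  rw [h1, h2]; push_cast; ring

theorem dr_one (u s : ℝ) (k : ℤ) : dr u s (3 * k + 1) = u + k := by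
  have h1 : (3 * k + 1) / 3 = k := by omega
  have h2 : (3 * k + 1) % 3 = 1 := by omega
  unfold dr
  rw [h1, h2]; push_cast; ring

theorem dr_two (u s : ℝ) (k : ℤ) : dr u s (3 * k + 2) = u + k + s := by
  have h1 : (3 * k + 2) / 3 = k := by omega
  have h2 : (3 * k + 2) % 3 = 2 := by omega
  unfold dr
  rw [h1, h2]; push_cast; ring

theorem three_cases (x : ℤ) : ∃ k : ℤ, x = 3 * k ∨ x = 3 * k + 1 ∨ x = 3 * k + 2 :=
  ⟨x / 3, by omega⟩

theorem dr_add (u s : ℝ) (x n : ℤ) : dr u s (x + 3 * n) = dr u s x + n := by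
  obtain ⟨k, rfl | rfl | rfl⟩ := three_cases x
  · rw [show 3 * k + 3 * n = 3 * (k + n) by ring, dr_zero, dr_zero]; push_cast; ring
  · rw [show 3 * k + 1 + 3 * n = 3 * (k + n) + 1 by ring, dr_one, dr_one]; push_cast; ring
  · rw [show 3 * k + 2 + 3 * n = 3 * (k + n) + 2 by ring, dr_two, dr_two]; push_cast; ring

theorem dr_mono (h0 : 0 < s) (h1 : s < 1 / 2) : StrictMono (dr u s) := by
  refine strictMono_int_of_lt_succ fun x => ?_
  obtain ⟨k, rfl | rfl | rfl⟩ := three_cases x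
  · rw [dr_zero, dr_one]; linarith
  · rw [dr_one, show 3 * k + 1 + 1 = 3 * k + 2 by ring, dr_two]; linarith
  · rw [dr_two, show 3 * k + 2 + 1 = 3 * (k + 1) by ring, dr_zero]; push_cast; linarith

end

theorem small_ev {η : ℝ} (hη : 0 < η) : ∀ᶠ s : ℝ in 𝓝[>] 0, 0 < s ∧ s < η :=
  Ioo_mem_nhdsGT hη

section
variable {k : ℕ} {U : Fin k → Set ℂ} {T : ℂ → Set (Fin k)} {z : ℂ} {a b c d i j q : Fin k}
  {u u0 v : ℝ} {x y w m : ℤ}

/-- the label of `i` in the direction number `x` -/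
def Nx (U : Fin k → Set ℂ) (z : ℂ) (i : Fin k) (u : ℝ) (x : ℤ) : Prop :=
  ∀ᶠ s : ℝ in 𝓝[>] 0, Nc U z i (dr u s x)

namespace Nx

theorem one : Nx U z i u (3 * m + 1) ↔ Nc U z i (u + m) := by
  unfold Nx
  constructor
  · intro h
    obtain ⟨s, hs⟩ := h.exists
    rwa [dr_one] at hs
  · intro h
    refine Eventually.of_forall fun s => ?_
    rwa [dr_one]

theorem zero : Nx U z i u (3 * m) ↔ ∀ᶠ t in 𝓝[<] u, Nc U z i (t + m) := by
  constructor
  · intro h
    have h1 := (tendsto_left u (κ := 1) one_pos).eventually h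
    filter_upwards [h1] with t ht
    rw [dr_zero] at ht
    have e : u + m - (u - t) * 1 = t + m := by ring
    rwa [e] at ht
  · intro h
    have h1 : Tendsto (fun s : ℝ => u - s) (𝓝[>] 0) (𝓝[<] u) := by
      refine tendsto_nhdsWithin_iff.2 ⟨?_, ?_⟩
      · have : Continuous fun s : ℝ => u - s := by fun_prop
        have h2 := this.tendsto 0
        rw [sub_zero] at h2
        exact h2.mono_left nhdsWithin_le_nhds
      · filter_upwards [self_mem_nhdsWithin] with s hs
        have : (0 : ℝ) < s := hs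
        show u - s < u
        linarith
    filter_upwards [h1.eventually h] with s hs
    rw [dr_zero]
    have e : u - s + m = u + m - s := by ring
    rwa [e] at hs

theorem two : Nx U z i u (3 * m + 2) ↔ ∀ᶠ t in 𝓝[>] u, Nc U z i (t + m) := by
  constructor
  · intro h
    have h1 := (tendsto_right u (κ := 1) one_pos).eventually h
    filter_upwards [h1] with t ht
    rw [dr_two] at ht
    have e : u + m + (t - u) * 1 = t + m := by ring
    rwa [e] at ht
  · intro h
    have h1 : Tendsto (fun s : ℝ => u + s) (𝓝[>] 0) (𝓝[>] u) := by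
      refine tendsto_nhdsWithin_iff.2 ⟨?_, ?_⟩
      · have : Continuous fun s : ℝ => u + s := by fun_prop
        have h2 := this.tendsto 0
        rw [add_zero] at h2
        exact h2.mono_left nhdsWithin_le_nhds
      · filter_upwards [self_mem_nhdsWithin] with s hs
        have : (0 : ℝ) < s := hs
        show u < u + s
        linarith
    filter_upwards [h1.eventually h] with s hs
    rw [dr_two]
    have e : u + s + m = u + m + s := by ring
    rwa [e] at hs

theorem per : Nx U z i u (x + 18) ↔ Nx U z i u x := by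
  unfold Nx
  have e : ∀ s, dr u s (x + 18) = dr u s x + 6 := by
    intro s
    have := dr_add u s x 6
    rw [show x + 3 * 6 = x + 18 by ring] at this
    rw [this]; norm_num
  simp only [e, Nc.per]

/-- the label fails frequently: it fails -/
theorem dich (U : Fin k → Set ℂ) (z : ℂ) (i : Fin k) (u : ℝ) (x : ℤ) :
    Nx U z i u x ∨ ∀ᶠ s : ℝ in 𝓝[>] 0, ¬ Nc U z i (dr u s x) := by
  obtain ⟨m, rfl | rfl | rfl⟩ := three_cases x
  · have h1 : Tendsto (fun s : ℝ => u + m - s) (𝓝[>] 0) (𝓝[<] (u + m)) := by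
      refine tendsto_nhdsWithin_iff.2 ⟨?_, ?_⟩
      · have : Continuous fun s : ℝ => u + m - s := by fun_prop
        have h2 := this.tendsto 0
        rw [sub_zero] at h2
        exact h2.mono_left nhdsWithin_le_nhds
      · filter_upwards [self_mem_nhdsWithin] with s hs
        have : (0 : ℝ) < s := hs
        show u + m - s < u + m
        linarith
    unfold Nx
    simp only [dr_zero]
    rcases Nc.left U z i (u + m) with h2 | h2
    · exact Or.inl (h1.eventually h2)
    · exact Or.inr (h1.eventually h2)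
  · by_cases h2 : Nc U z i (u + m)
    · exact Or.inl (one.2 h2)
    · right
      refine Eventually.of_forall fun s => ?_
      rwa [dr_one]
  · have h1 : Tendsto (fun s : ℝ => u + m + s) (𝓝[>] 0) (𝓝[>] (u + m)) := by
      refine tendsto_nhdsWithin_iff.2 ⟨?_, ?_⟩
      · have : Continuous fun s : ℝ => u + m + s := by fun_prop
        have h2 := this.tendsto 0
        rw [add_zero] at h2
        exact h2.mono_left nhdsWithin_le_nhds
      · filter_upwards [self_mem_nhdsWithin] with s hs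
        have : (0 : ℝ) < s := hs
        show u + m < u + m + s
        linarith
    unfold Nx
    simp only [dr_two]
    rcases Nc.right U z i (u + m) with h2 | h2
    · exact Or.inl (h1.eventually h2)
    · exact Or.inr (h1.eventually h2)

theorem of_freq (h : ∃ᶠ s : ℝ in 𝓝[>] 0, Nc U z i (dr u s x)) : Nx U z i u x := by
  rcases dich U z i u x with h1 | h1
  · exact h1
  · exact absurd h1 (not_eventually.2 (h.mono fun _ hs => not_not.2 hs))

theorem not_ev (h : ¬ Nx U z i u x) : ∀ᶠ s : ℝ in 𝓝[>] 0, ¬ Nc U z i (dr u s x) :=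
  (dich U z i u x).resolve_left h

/-- **conv** -/
theorem conv (h1 : Nx U z i u x) (h2 : Nx U z i u y) (hxw : x ≤ w) (hwy : w ≤ y)
    (hxy : y < x + 9) : Nx U z i u w := by
  filter_upwards [h1, h2, small_ev (η := 1 / 2) (by norm_num)] with s k1 k2 hs
  have hm := dr_mono (u := u) hs.1 hs.2
  have e : dr u s (x + 9) = dr u s x + 3 := by
    have := dr_add u s x 3
    rw [show x + 3 * 3 = x + 9 by ring] at this
    rw [this]; norm_num
  refine Nc.conv k1 k2 (hm.monotone hxw) (hm.monotone hwy) ?_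
  rw [← e]
  exact hm hxy

/-- **n0L** -/
theorem n0L (h : Nx U z i u (3 * m)) : Nx U z i u (3 * m + 1) := by
  rw [one]
  unfold Nx at h
  have h1 : Tendsto (fun s : ℝ => dr u s (3 * m)) (𝓝[>] 0) (𝓝 (u + m)) := by
    simp only [dr_zero]
    have : Continuous fun s : ℝ => u + m - s := by fun_prop
    have h2 := this.tendsto 0
    rw [sub_zero] at h2
    exact h2.mono_left nhdsWithin_le_nhds
  exact Nc.isClosed.mem_of_tendsto h1 h

/-- **n0R** -/
theorem n0R (h : Nx U z i u (3 * m + 2)) : Nx U z i u (3 * m + 1) := by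
  rw [one]
  unfold Nx at h
  have h1 : Tendsto (fun s : ℝ => dr u s (3 * m + 2)) (𝓝[>] 0) (𝓝 (u + m)) := by
    simp only [dr_two]
    have : Continuous fun s : ℝ => u + m + s := by fun_prop
    have h2 := this.tendsto 0
    rw [add_zero] at h2
    exact h2.mono_left nhdsWithin_le_nhds
  exact Nc.isClosed.mem_of_tendsto h1 h

/-- **convM**: the label was met in the position `m` since `u0` -/
theorem convM (hM : seen {t | Nc U z i (t + m)} u0 u) (hu : u < u0 + 1) (h : Nx U z i u y)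
    (hy : y < 3 * m + 9) (hw : 3 * m ≤ w) (hwy : w ≤ y) : Nx U z i u w := by
  obtain ⟨t, ht, h1, h2⟩ := hM
  have ht : Nc U z i (t + m) := ht
  filter_upwards [h, small_ev (η := 1 / 2) (by norm_num), small_ev (η := u - t) (by linarith),
    small_ev (η := u0 + 1 - u) (by linarith)] with s k1 k2 k3 k4
  have hm := dr_mono (u := u) k2.1 k2.2
  refine Nc.conv ht k1 ?_ (hm.monotone hwy) ?_
  · have h3 := hm.monotone hw
    rw [dr_zero] at h3
    linarith [k3.2]
  · have h3 : dr u s y ≤ dr u s (3 * (m + 2) + 2) := hm.monotone (by omega)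
    rw [dr_two] at h3
    push_cast at h3
    linarith [k4.2]

/-- **convM2** -/
theorem convM2 (hM : seen {t | Nc U z i (t + m)} u0 u) (hu : u < u0 + 1) (h : Nx U z i u y)
    (hy : 3 * m - 6 ≤ y) (hyw : y ≤ w) (hw : w < 3 * m) : Nx U z i u w := by
  obtain ⟨t, ht, h1, h2⟩ := hM
  have ht : Nc U z i (t + m) := ht
  filter_upwards [h, small_ev (η := 1 / 2) (by norm_num), small_ev (η := u0 + 1 - u) (by linarith)]
    with s k1 k2 k4
  have hm := dr_mono (u := u) k2.1 k2.2
  refine Nc.conv k1 ht (hm.monotone hyw) ?_ ?_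
  · have h3 : dr u s w ≤ dr u s (3 * (m - 1) + 2) := hm.monotone (by omega)
    rw [dr_two] at h3
    push_cast at h3
    linarith [k4.2]
  · have h3 : dr u s (3 * (m - 2)) ≤ dr u s y := hm.monotone (by omega)
    rw [dr_zero] at h3
    push_cast at h3
    linarith [k2.2]

end Nx

/-- the label as a latch, limit from the left -/
theorem nx_memL {P : Prop} (h : MemL (fun v => Nc U z i (v + m)) u P) : P ↔ Nx U z i u (3 * m) := by
  rw [Nx.zero]
  have h1 : ∀ᶠ v in 𝓝[<] u, Nc U z i (v + m) = P := h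
  constructor
  · intro hP
    exact h1.mono fun v hv => by rw [hv]; exact hP
  · intro h2
    obtain ⟨v, h3, h4⟩ := (h1.and h2).exists
    rwa [h3] at h4

/-- the label as a latch, limit from the right -/
theorem nx_memR {P : Prop} (h : MemR (fun v => Nc U z i (v + m)) u P) :
    P ↔ Nx U z i u (3 * m + 2) := by
  rw [Nx.two]
  have h1 : ∀ᶠ v in 𝓝[>] u, Nc U z i (v + m) = P := h
  constructor
  · intro hP
    exact h1.mono fun v hv => by rw [hv]; exact hP
  · intro h2
    obtain ⟨v, h3, h4⟩ := (h1.and h2).exists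
    rwa [h3] at h4

namespace Irr

theorem dr_nine (u s : ℝ) (x : ℤ) : dr u s (x + 9) = dr u s x + 3 := by
  have := dr_add u s x 3
  rw [show x + 3 * 3 = x + 9 by ring] at this
  rw [this]; norm_num

/-- **opp** -/
theorem nx_opp (h : Irr U T) (hz : DPt T z a b c d) (hi : i ∈ T z) (h1 : Nx U z i u x)
    (h2 : Nx U z i u (x + 9)) : False := by
  obtain ⟨s, k1, k2⟩ := (h1.and h2).exists
  rw [dr_nine] at k2
  exact h.nc_opp' hz hi k1 k2

/-- not both colours of a pair in the same direction -/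
theorem nx_pair (h : Irr U T) (hz : DPt T z a b c d) (h1 : Nx U z a u x) (h2 : Nx U z b u x) :
    False := by
  obtain ⟨s, k1, k2⟩ := (h1.and h2).exists
  exact h.nc_pair hz k1 k2

/-- **mix** -/
theorem nx_mix (h : Irr U T) (hz : DPt T z a b c d) (hi : i = a ∨ i = b) (hq : q = c ∨ q = d)
    (hx : x % 3 ≠ 1) (h1 : Nx U z q u x) (h2 : Nx U z i u (x + 9)) : False := by
  obtain ⟨m, hm⟩ := three_cases x
  rcases hm with rfl | rfl | rfl
  · rw [Nx.zero] at h1
    rw [show 3 * m + 9 = 3 * (m + 3) by ring, Nx.zero] at h2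
    have h3 := h.mix_left hz hi hq (v := u + m)
    have h4 : Tendsto (fun t : ℝ => t + m) (𝓝[<] u) (𝓝[<] (u + m)) := by
      refine tendsto_nhdsWithin_iff.2 ⟨?_, ?_⟩
      · have : Continuous fun t : ℝ => t + (m : ℝ) := by fun_prop
        exact (this.tendsto u).mono_left nhdsWithin_le_nhds
      · filter_upwards [self_mem_nhdsWithin] with t ht
        have : t < u := ht
        show t + m < u + m
        linarith
    obtain ⟨t, k1, k2, k3⟩ := (h1.and (h2.and (h4.eventually h3))).exists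
    push_cast at k2
    rw [← add_assoc] at k2
    exact k3 ⟨k1, k2⟩
  · omega
  · rw [Nx.two] at h1
    rw [show 3 * m + 2 + 9 = 3 * (m + 3) + 2 by ring, Nx.two] at h2
    have h3 := h.mix_right hz hi hq (v := u + m)
    have h4 : Tendsto (fun t : ℝ => t + m) (𝓝[>] u) (𝓝[>] (u + m)) := by
      refine tendsto_nhdsWithin_iff.2 ⟨?_, ?_⟩
      · have : Continuous fun t : ℝ => t + (m : ℝ) := by fun_prop
        exact (this.tendsto u).mono_left nhdsWithin_le_nhds
      · filter_upwards [self_mem_nhdsWithin] with t ht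
        have : u < t := ht
        show u + m < t + m
        linarith
    obtain ⟨t, k1, k2, k3⟩ := (h1.and (h2.and (h4.eventually h3))).exists
    push_cast at k2
    rw [← add_assoc] at k2
    exact k3 ⟨k1, k2⟩

end Irr

theorem pt_eq_int6 {s t : ℝ} (h : pt z s = pt z t) : ∃ n : ℤ, s - t = 6 * n := by
  have h2 : cis (s * (Real.pi / 3)) = cis (t * (Real.pi / 3)) := by
    rw [← pt_sub z, ← pt_sub z, h]
  unfold cis at h2
  obtain ⟨n, hn⟩ := Complex.exp_eq_exp_iff_exists_int.1 h2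
  have h3 := congrArg Complex.im hn
  have h4 : s * (Real.pi / 3) = t * (Real.pi / 3) + n * (2 * Real.pi) := by simpa using h3
  have hpi := Real.pi_pos
  refine ⟨n, ?_⟩
  have : (s - t) * Real.pi = 6 * n * Real.pi := by linarith
  exact mul_right_cancel₀ hpi.ne' this

namespace Irr

/-- **line1**: at most one position with `q` near and `i` far -/
theorem nx_line1 (h : Irr U T) (hz : DPt T z a b c d) (hi : i = a ∨ i = b) (hq : q = c ∨ q = d)
    {m m' : ℤ} (h1 : Nx U z q u (3 * m + 1)) (h2 : Nx U z i u (3 * m + 10))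
    (h3 : Nx U z q u (3 * m' + 1)) (h4 : Nx U z i u (3 * m' + 10)) : (6 : ℤ) ∣ m' - m := by
  rw [Nx.one] at h1 h3
  rw [show 3 * m + 10 = 3 * (m + 3) + 1 by ring, Nx.one] at h2
  rw [show 3 * m' + 10 = 3 * (m' + 3) + 1 by ring, Nx.one] at h4
  push_cast at h2 h4
  rw [← add_assoc] at h2 h4
  obtain ⟨n, hn⟩ := pt_eq_int6 (h.line1' hz hi hq h1 h2 h3 h4)
  refine ⟨n, ?_⟩
  have : ((m' - m : ℤ) : ℝ) = ((6 * n : ℤ) : ℝ) := by push_cast; linarith
  exact_mod_cast this

/-- **gline**: the mixed direction is met at most once in a period -/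
theorem nx_gline (h : Irr U T) (hz : DPt T z a b c d) (hi : i = a ∨ i = b) (hq : q = c ∨ q = d)
    {m m' : ℤ} {t : ℝ} (ht : Nc U z q (t + m)) (ht' : Nc U z i (t + m + 3)) (h0 : t < u)
    (h1 : u < t + 1) (h3 : Nx U z q u (3 * m' + 1)) (h4 : Nx U z i u (3 * m' + 10)) : False := by
  rw [Nx.one] at h3
  rw [show 3 * m' + 10 = 3 * (m' + 3) + 1 by ring, Nx.one] at h4
  push_cast at h4
  rw [← add_assoc] at h4
  obtain ⟨n, hn⟩ := pt_eq_int6 (h.line1' hz hi hq ht ht' h3 h4)
  have h5 : u - t = ((6 * n + m - m' : ℤ) : ℝ) := by push_cast; linarith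
  have h6 : (0 : ℝ) < ((6 * n + m - m' : ℤ) : ℝ) := by rw [← h5]; linarith
  have h7 : ((6 * n + m - m' : ℤ) : ℝ) < 1 := by rw [← h5]; linarith
  have h8 : 0 < 6 * n + m - m' := by exact_mod_cast h6
  have h9 : 6 * n + m - m' < 1 := by exact_mod_cast h7
  omega

/-- **lab1** -/
theorem nx_lab1 (h : Irr U T) (hz : DPt T z a b c d) (hi : i ∈ T z)
    (hp : i ∈ T (pt z (u + m))) : Nx U z i u (3 * m + 1) ∨ Nx U z i u (3 * m + 10) := by
  rw [Nx.one, show 3 * m + 10 = 3 * (m + 3) + 1 by ring, Nx.one]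
  push_cast
  rw [← add_assoc]
  exact h.lab1 hz hi (h.sub _ hp)

/-- **pairlab** -/
theorem nx_pairlab (h : Irr U T) (hz : DPt T z a b c d) (ha : a ∈ T (pt z (u + m)))
    (hb : b ∈ T (pt z (u + m))) :
    (Nx U z a u (3 * m + 1) ∧ Nx U z b u (3 * m + 10)) ∨
      (Nx U z b u (3 * m + 1) ∧ Nx U z a u (3 * m + 10)) := by
  rw [Nx.one, Nx.one, show 3 * m + 10 = 3 * (m + 3) + 1 by ring, Nx.one, Nx.one]
  push_cast
  rw [← add_assoc]
  exact h.pairlab hz (h.sub _ ha) (h.sub _ hb)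

/-- both colours of a pair frequent from the left -/
theorem nx_letL (h : Irr U T) (hz : DPt T z a b c d)
    (hp : ∃ᶠ t in 𝓝[<] (u + m), a ∈ Pal U (pt z t) ∧ b ∈ Pal U (pt z t)) :
    (Nx U z a u (3 * m) ∧ Nx U z b u (3 * m + 9)) ∨
      (Nx U z b u (3 * m) ∧ Nx U z a u (3 * m + 9)) := by
  have h1 : ∃ᶠ s : ℝ in 𝓝[>] 0, a ∈ Pal U (pt z (dr u s (3 * m))) ∧
      b ∈ Pal U (pt z (dr u s (3 * m))) := by
    have h2 := (tendsto_left (u + m) (κ := 1) one_pos).frequently (p := fun s =>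
      a ∈ Pal U (pt z (dr u s (3 * m))) ∧ b ∈ Pal U (pt z (dr u s (3 * m)))) (hp.mono fun t ht => by
        rw [dr_zero]
        have e : u + m - (u + m - t) * 1 = t := by ring
        rwa [e])
    exact h2
  have h3 : (∃ᶠ s : ℝ in 𝓝[>] 0, Nc U z a (dr u s (3 * m)) ∧ Nc U z b (dr u s (3 * m + 9))) ∨
      ∃ᶠ s : ℝ in 𝓝[>] 0, Nc U z b (dr u s (3 * m)) ∧ Nc U z a (dr u s (3 * m + 9)) := by
    rw [← frequently_or_distrib]
    refine h1.mono fun s hs => ?_
    rw [dr_nine]
    exact h.pairlab hz hs.1 hs.2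
  rcases h3 with h3 | h3
  · exact Or.inl ⟨Nx.of_freq (h3.mono fun _ hs => hs.1), Nx.of_freq (h3.mono fun _ hs => hs.2)⟩
  · exact Or.inr ⟨Nx.of_freq (h3.mono fun _ hs => hs.1), Nx.of_freq (h3.mono fun _ hs => hs.2)⟩

/-- both colours of a pair frequent from the right -/
theorem nx_letR (h : Irr U T) (hz : DPt T z a b c d)
    (hp : ∃ᶠ t in 𝓝[>] (u + m), a ∈ Pal U (pt z t) ∧ b ∈ Pal U (pt z t)) :
    (Nx U z a u (3 * m + 2) ∧ Nx U z b u (3 * m + 11)) ∨
      (Nx U z b u (3 * m + 2) ∧ Nx U z a u (3 * m + 11)) := by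
  have e9 : (3 * m + 11 : ℤ) = 3 * m + 2 + 9 := by ring
  rw [e9]
  have h1 : ∃ᶠ s : ℝ in 𝓝[>] 0, a ∈ Pal U (pt z (dr u s (3 * m + 2))) ∧
      b ∈ Pal U (pt z (dr u s (3 * m + 2))) := by
    have h2 := (tendsto_right (u + m) (κ := 1) one_pos).frequently (p := fun s =>
      a ∈ Pal U (pt z (dr u s (3 * m + 2))) ∧ b ∈ Pal U (pt z (dr u s (3 * m + 2))))
      (hp.mono fun t ht => by
        rw [dr_two]
        have e : u + m + (t - (u + m)) * 1 = t := by ring
        rwa [e])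
    exact h2
  have h3 : (∃ᶠ s : ℝ in 𝓝[>] 0, Nc U z a (dr u s (3 * m + 2)) ∧
      Nc U z b (dr u s (3 * m + 2 + 9))) ∨
      ∃ᶠ s : ℝ in 𝓝[>] 0, Nc U z b (dr u s (3 * m + 2)) ∧ Nc U z a (dr u s (3 * m + 2 + 9)) := by
    rw [← frequently_or_distrib]
    refine h1.mono fun s hs => ?_
    rw [dr_nine]
    exact h.pairlab hz hs.1 hs.2
  rcases h3 with h3 | h3
  · exact Or.inl ⟨Nx.of_freq (h3.mono fun _ hs => hs.1), Nx.of_freq (h3.mono fun _ hs => hs.2)⟩
  · exact Or.inr ⟨Nx.of_freq (h3.mono fun _ hs => hs.1), Nx.of_freq (h3.mono fun _ hs => hs.2)⟩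

end Irr

end

section
variable {U : Fin 6 → Set ℂ} {T : ℂ → Set (Fin 6)} {z : ℂ} {a b c d e f : Fin 6} {u : ℝ} {m : ℤ}

namespace Irr

/-- **letlab**, letter `{a, b}` from the left -/
theorem nx_letlab0 (h : Irr U T) (hz : DPt T z a b c d) (hL : LF T z a b c d e f (u + m) 2) :
    (Nx U z a u (3 * m) ∧ Nx U z b u (3 * m + 9)) ∨
      (Nx U z b u (3 * m) ∧ Nx U z a u (3 * m + 9)) :=
  h.nx_letL hz (Frequently.mono hL fun _ ht => ⟨h.sub _ (xs2 h ht).1, h.sub _ (xs2 h ht).2⟩)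

/-- **letlab**, letter `{a, b}` from the right -/
theorem nx_letlab1 (h : Irr U T) (hz : DPt T z a b c d) (hL : RF T z a b c d e f (u + m) 2) :
    (Nx U z a u (3 * m + 2) ∧ Nx U z b u (3 * m + 11)) ∨
      (Nx U z b u (3 * m + 2) ∧ Nx U z a u (3 * m + 11)) :=
  h.nx_letR hz (Frequently.mono hL fun _ ht => ⟨h.sub _ (xs2 h ht).1, h.sub _ (xs2 h ht).2⟩)

/-- **letlab**, letter `{c, d}` from the left -/
theorem nx_letlab0' (h : Irr U T) (hz : DPt T z a b c d) (hL : LF T z a b c d e f (u + m) 3) :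
    (Nx U z c u (3 * m) ∧ Nx U z d u (3 * m + 9)) ∨
      (Nx U z d u (3 * m) ∧ Nx U z c u (3 * m + 9)) :=
  h.nx_letL hz.swap (Frequently.mono hL fun _ ht => ⟨h.sub _ (xs3 h ht).1, h.sub _ (xs3 h ht).2⟩)

/-- **letlab**, letter `{c, d}` from the right -/
theorem nx_letlab1' (h : Irr U T) (hz : DPt T z a b c d) (hL : RF T z a b c d e f (u + m) 3) :
    (Nx U z c u (3 * m + 2) ∧ Nx U z d u (3 * m + 11)) ∨
      (Nx U z d u (3 * m + 2) ∧ Nx U z c u (3 * m + 11)) :=
  h.nx_letR hz.swap (Frequently.mono hL fun _ ht => ⟨h.sub _ (xs3 h ht).1, h.sub _ (xs3 h ht).2⟩)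

/-! ## contacts, in the numbering: `n = pt z (u + m)`, `z = pt n (u + m')` -/

/-- **rkind** -/
theorem nx_rkind {k : ℕ} {U : Fin k → Set ℂ} {T : ℂ → Set (Fin k)} {a b c d e f : Fin k}
    (h : Irr U T) (hz : DPt T z a b c d) (hy : DPt T (pt z (u + m)) a c e f) :
    (Nx U z a u (3 * m + 1) ∧ Nx U z c u (3 * m + 10)) ∨
      (Nx U z c u (3 * m + 1) ∧ Nx U z a u (3 * m + 10)) := by
  rw [Nx.one, Nx.one, show 3 * m + 10 = 3 * (m + 3) + 1 by ring, Nx.one, Nx.one]
  push_cast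
  rw [← add_assoc]
  exact h.rkind hz hy

/-- **mkind** -/
theorem nx_mkind (h : Irr U T) (hz : DPt T z a b c d) {o l : Fin 6}
    (hy : DPt T (pt z (u + m)) b o c l) (h1 : Nx U z c u (3 * m + 1))
    (h2 : Nx U z b u (3 * m + 10)) : False := by
  rw [Nx.one] at h1
  rw [show 3 * m + 10 = 3 * (m + 3) + 1 by ring, Nx.one] at h2
  push_cast at h2
  rw [← add_assoc] at h2
  exact h.mkind hz hy h1 h2

/-- **agree** -/
theorem nx_agree {k : ℕ} {U : Fin k → Set ℂ} {T : ℂ → Set (Fin k)} {a b c d a' b' c' d' i : Fin k}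
    {n : ℂ} (h : Irr U T) (hz : DPt T z a b c d) (hn : DPt T n a' b' c' d') {m' : ℤ}
    (hv : pt z (u + m) = n) (hw : pt n (u + m') = z) (hi : i ∈ T z) (hi' : i ∈ T n) :
    (Nx U z i u (3 * m + 1) ↔ Nx U n i u (3 * m' + 1)) ∧
      (Nx U z i u (3 * m + 10) ↔ Nx U n i u (3 * m' + 10)) := by
  rw [Nx.one, Nx.one, show 3 * m + 10 = 3 * (m + 3) + 1 by ring,
    show 3 * m' + 10 = 3 * (m' + 3) + 1 by ring, Nx.one, Nx.one]
  push_cast
  rw [← add_assoc, ← add_assoc]
  exact ⟨h.agree_near hz hn hv hw hi hi', h.agree_far hz hn hv hw hi hi'⟩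

/-- left limit at `u` of a property of the direction `t + m` -/
theorem ev_shift_left {P : ℝ → Prop} (m : ℤ) (h : ∀ᶠ t in 𝓝[<] (u + m), P t) :
    ∀ᶠ t in 𝓝[<] u, P (t + m) := by
  have h4 : Tendsto (fun t : ℝ => t + m) (𝓝[<] u) (𝓝[<] (u + m)) := by
    refine tendsto_nhdsWithin_iff.2 ⟨?_, ?_⟩
    · have : Continuous fun t : ℝ => t + (m : ℝ) := by fun_prop
      exact (this.tendsto u).mono_left nhdsWithin_le_nhds
    · filter_upwards [self_mem_nhdsWithin] with t ht
      have : t < u := ht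
      show t + m < u + m
      linarith
  exact h4.eventually h

theorem ev_shift_right {P : ℝ → Prop} (m : ℤ) (h : ∀ᶠ t in 𝓝[>] (u + m), P t) :
    ∀ᶠ t in 𝓝[>] u, P (t + m) := by
  have h4 : Tendsto (fun t : ℝ => t + m) (𝓝[>] u) (𝓝[>] (u + m)) := by
    refine tendsto_nhdsWithin_iff.2 ⟨?_, ?_⟩
    · have : Continuous fun t : ℝ => t + (m : ℝ) := by fun_prop
      exact (this.tendsto u).mono_left nhdsWithin_le_nhds
    · filter_upwards [self_mem_nhdsWithin] with t ht
      have : u < t := ht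
      show u + m < t + m
      linarith
  exact h4.eventually h

/-- the label fails just before -/
theorem nx_not_zero {k : ℕ} {U : Fin k → Set ℂ} {i : Fin k}
    (h : ∀ᶠ t in 𝓝[<] u, ¬ Nc U z i (t + m)) : ¬ Nx U z i u (3 * m) := by
  rw [Nx.zero]
  intro h1
  obtain ⟨t, k1, k2⟩ := (h.and h1).exists
  exact k1 k2

theorem nx_not_two {k : ℕ} {U : Fin k → Set ℂ} {i : Fin k}
    (h : ∀ᶠ t in 𝓝[>] u, ¬ Nc U z i (t + m)) : ¬ Nx U z i u (3 * m + 2) := by
  rw [Nx.two]
  intro h1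
  obtain ⟨t, k1, k2⟩ := (h.and h1).exists
  exact k1 k2

/-- **tight**, `n` reads `b` or `c` just before `z` (`c` near, `b` far at `n`) -/
theorem nx_tight0 {k : ℕ} {U : Fin k → Set ℂ} {T : ℂ → Set (Fin k)} {a b c d : Fin k} {n : ℂ}
    (h : Irr U T) (hz : DPt T z a b c d) {m' : ℤ} (hv : pt z (u + m) = n)
    (hw : pt n (u + m') = z) (hc : c ∈ T n) (hb : b ∈ T n) (hc1 : Nx U z c u (3 * m + 1))
    (hb1 : Nx U z b u (3 * m + 10))
    (hA : ∃ᶠ t in 𝓝[<] (u + m'), b ∈ Pal U (pt n t) ∨ c ∈ Pal U (pt n t)) :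
    ¬ Nx U z c u (3 * m) ∧ Nx U z c u (3 * m + 2) ∧ Nx U z b u (3 * m + 9) ∧
      ¬ Nx U z b u (3 * m + 11) := by
  rw [Nx.one] at hc1
  rw [show 3 * m + 10 = 3 * (m + 3) + 1 by ring, Nx.one] at hb1
  push_cast at hb1
  rw [← add_assoc] at hb1
  have k1 := h.near_of_nc hz (i := c) (by rw [hz.pal]; simp) (by rw [hv]; exact h.sub _ hc) hc1
  have k2 := h.far_of_nc hz (i := b) (by rw [hz.pal]; simp) (by rw [hv]; exact h.sub _ hb) hb1
  rw [hv] at k1 k2
  obtain ⟨h1, h2⟩ := h.tight_before hz hv hw k1 k2 hA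
  have g1 := ev_shift_left m h1
  have g2 := ev_shift_right m h2
  refine ⟨nx_not_zero (g1.mono fun _ ht => ht.1), Nx.two.2 (g2.mono fun _ ht => ht.1), ?_, ?_⟩
  · rw [show 3 * m + 9 = 3 * (m + 3) by ring, Nx.zero]
    push_cast
    exact g1.mono fun _ ht => by rw [← add_assoc]; exact ht.2
  · rw [show 3 * m + 11 = 3 * (m + 3) + 2 by ring]
    refine nx_not_two ?_
    push_cast
    exact g2.mono fun _ ht => by rw [← add_assoc]; exact ht.2

/-- **tight**, `n` reads `b` or `c` just after `z` (`c` near, `b` far at `n`) -/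
theorem nx_tight1 {k : ℕ} {U : Fin k → Set ℂ} {T : ℂ → Set (Fin k)} {a b c d : Fin k} {n : ℂ}
    (h : Irr U T) (hz : DPt T z a b c d) {m' : ℤ} (hv : pt z (u + m) = n)
    (hw : pt n (u + m') = z) (hc : c ∈ T n) (hb : b ∈ T n) (hc1 : Nx U z c u (3 * m + 1))
    (hb1 : Nx U z b u (3 * m + 10))
    (hA : ∃ᶠ t in 𝓝[>] (u + m'), b ∈ Pal U (pt n t) ∨ c ∈ Pal U (pt n t)) :
    Nx U z c u (3 * m) ∧ ¬ Nx U z c u (3 * m + 2) ∧ ¬ Nx U z b u (3 * m + 9) ∧
      Nx U z b u (3 * m + 11) := by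
  rw [Nx.one] at hc1
  rw [show 3 * m + 10 = 3 * (m + 3) + 1 by ring, Nx.one] at hb1
  push_cast at hb1
  rw [← add_assoc] at hb1
  have k1 := h.near_of_nc hz (i := c) (by rw [hz.pal]; simp) (by rw [hv]; exact h.sub _ hc) hc1
  have k2 := h.far_of_nc hz (i := b) (by rw [hz.pal]; simp) (by rw [hv]; exact h.sub _ hb) hb1
  rw [hv] at k1 k2
  obtain ⟨h1, h2⟩ := h.tight_after hz hv hw k1 k2 hA
  have g1 := ev_shift_left m h1
  have g2 := ev_shift_right m h2
  refine ⟨Nx.zero.2 (g1.mono fun _ ht => ht.1), nx_not_two (g2.mono fun _ ht => ht.1), ?_, ?_⟩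
  · rw [show 3 * m + 9 = 3 * (m + 3) by ring]
    refine nx_not_zero ?_
    push_cast
    exact g1.mono fun _ ht => by rw [← add_assoc]; exact ht.2
  · rw [show 3 * m + 11 = 3 * (m + 3) + 2 by ring, Nx.two]
    push_cast
    exact g2.mono fun _ ht => by rw [← add_assoc]; exact ht.2

end Irr

end

end Vale.Agent.P032.Six
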