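import Vale.Agent.P032.R2.H267.NoS3
import Vale.Agent.P032.S5.H11.TopD

/-!
# P032: the world with contacts of type S3 only is empty
-/

open Set Filter Topology Metric

noncomputable section

namespace Vale.Agent.P032.Six

open Vale.Agent.P032.S5.H843

variable {U : Fin 6 → Set ℂ} {T : ℂ → Set (Fin 6)}

/-- **the world with contacts of type S3 only is empty** -/
theorem S3W.empty (H : S3W U T) (hmin : Mn U T) : False := by
  refine H.irr.coreD_four' hmin H.le4 fun z v hzv h4 hz => ?_
  rcases hz with h5 | ⟨a, b, c, d, hD⟩
  · have := H.le4 z
    omega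
  · have := H.clean hD (y := v) (by rw [dist_comm]; exact hzv)
    omega

end Vale.Agent.P032.Six
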