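import Vale.Agent.P032.R2.H267.Labels
import Vale.Agent.P032.R2.H741.TpF
import Vale.Agent.P032.R2.H609.WFam

/-!
# P032: the label fields of `H741/TpF.lean`

`LabH`: the literal meaning of the atoms `n`, `C`, `X`, `M`, `g`, `D`, `H`, `ct` at the instant `u` of the
period which starts at `u0`.  For every valuation with this meaning: the fields `opp`, `conv`, `mix`,
`letlab` of `SF` (`LabH.s_opp` ...) and the fields `n0L`, `n0R`, `opp`, `conv`, `convM`, `convM2`, `mix`,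
`line1`, `rkind`, `mkind`, `lab1`, `pairlab`, `letlab`, `gline`, `agree`, `tight` of `TF` (`LabH.t_opp` ...),
word for word.  The fields of `SF` use only `LabS` (no upper bound for `u`, nothing after `u`).
-/

set_option autoImplicit false

open Set Filter Topology Metric

noncomputable section

namespace Vale.Agent.P032.Six

open S5.H767 (pt dist_pt pt_six pt_three seen)
open R2.H741.Tp

theorem Nx.congr {k : ℕ} {U : Fin k → Set ℂ} {z : ℂ} {i : Fin k} {u : ℝ} {x y : ℤ}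
    (h : (18 : ℤ) ∣ x - y) : Nx U z i u x ↔ Nx U z i u y := by
  have key : ∀ n : ℕ, ∀ x : ℤ, Nx U z i u (x + 18 * n) ↔ Nx U z i u x := by
    intro n
    induction n with
    | zero => intro x; simp
    | succ n ih =>
      intro x
      rw [← ih x, show x + 18 * ((n + 1 : ℕ) : ℤ) = x + 18 * n + 18 by push_cast; ring]
      exact Nx.per
  obtain ⟨n, hn⟩ := h
  rcases Int.eq_nat_or_neg n with ⟨m, rfl | rfl⟩
  · rw [show x = y + 18 * m by linarith]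
    exact key m y
  · rw [show y = x + 18 * m by linarith]
    exact (key m x).symm

/-- the literal meaning of the atoms of a state for the label fields -/
structure LabS (G : RD) (S : Sem) (U : Fin 6 → Set ℂ) (T : ℂ → Set (Fin 6)) (c : ℕ → ℂ)
    (col : ℕ → Fin 6) (u : ℝ) : Prop where
  wt : WT U T
  mn : MinF U T
  sgl : ∀ r < G.R, ∀ j < 6, G.sg r j < 6
  nd : ∀ r < G.R, [col (G.sg r 0), col (G.sg r 1), col (G.sg r 2), col (G.sg r 3), col (G.sg r 4),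
    col (G.sg r 5)].Nodup
  dpt : ∀ r < G.R, DPt T (c r) (col (G.sg r 0)) (col (G.sg r 1)) (col (G.sg r 2)) (col (G.sg r 3))
  n : ∀ r < G.R, ∀ i < 6, ∀ x < 18, (S.n r i x ↔ Nx U (c r) (col i) u x)
  XL : ∀ r < G.R, ∀ k < 6, ∀ p < 2, S.X 0 r k (2 + p) → ∃ᶠ t in 𝓝[<] (u + (k : ℝ)),
    col (G.sg r (2 * p)) ∈ Pal U (pt (c r) t) ∧ col (G.sg r (2 * p + 1)) ∈ Pal U (pt (c r) t)

/-- the literal meaning of the atoms for the label fields -/
structure LabH (G : RD) (S : Sem) (U : Fin 6 → Set ℂ) (T : ℂ → Set (Fin 6)) (c : ℕ → ℂ)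
    (col : ℕ → Fin 6) (u0 u : ℝ) : Prop extends LabS G S U T c col u where
  lt0 : u0 ≤ u
  lt1 : u < u0 + 1
  C : ∀ r < G.R, ∀ k < 6, ∀ i < 6, (S.C r k i ↔ col i ∈ T (pt (c r) (u + k)))
  XR : ∀ r < G.R, ∀ k < 6, ∀ p < 2, S.X 1 r k (2 + p) → ∃ᶠ t in 𝓝[>] (u + (k : ℝ)),
    col (G.sg r (2 * p)) ∈ Pal U (pt (c r) t) ∧ col (G.sg r (2 * p + 1)) ∈ Pal U (pt (c r) t)
  M : ∀ r < G.R, ∀ j < 4, ∀ k < 6, S.M 0 r (G.sg r j) k →
    ∃ w, u0 ≤ w ∧ w < u ∧ Nc U (c r) (col (G.sg r j)) (w + (k : ℝ))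
  g : ∀ r < G.R, ∀ i < 2, ∀ q, 2 ≤ q → q < 4 → S.g 0 r (2 * i + (q - 2)) →
    ∃ w, u0 ≤ w ∧ w < u ∧ ∃ m : ℤ, Nc U (c r) (col (G.sg r i)) (w + m) ∧
      Nc U (c r) (col (G.sg r q)) (w + m + 3)
  D : ∀ r < G.R, ∀ k < 6, ∀ w < 16, S.D r k w → DPt T (pt (c r) (u + k)) (col (pc G r w 0))
    (col (pc G r w 1)) (col (pc G r w 2)) (col (pc G r w 3))
  H : ∀ r < G.R, ∀ k < 6, S.H r k → ∃ A, Harm T (pt (c r) (u + k)) A
  ct : ∀ r < G.R, ∀ s < G.R, ∀ k < 6, S.ct r s k → pt (c r) (u + k) = c s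

theorem ptz_back {z n : ℂ} {v : ℝ} (h : pt z v = n) : pt n (v + 3) = z := by
  rw [pt_three, ← h]
  unfold pt
  ring

theorem pt_int_six (z : ℂ) (v : ℝ) (n : ℤ) : pt z (v + 6 * n) = pt z v := by
  unfold pt
  congr 1
  unfold cis
  rw [Complex.exp_eq_exp_iff_exists_int]
  refine ⟨n, ?_⟩
  push_cast
  ring

namespace LabS

variable {G : RD} {S : Sem} {U : Fin 6 → Set ℂ} {T : ℂ → Set (Fin 6)} {c : ℕ → ℂ}
  {col : ℕ → Fin 6} {u : ℝ}

theorem nn (L : LabS G S U T c col u) {r i x : ℕ} (hr : r < G.R) (hi : i < 6) (hx : x < 18)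
    {y : ℤ} (h : (18 : ℤ) ∣ (x : ℤ) - y) : S.n r i x ↔ Nx U (c r) (col i) u y :=
  (L.n r hr i hi x hx).trans (Nx.congr h)

theorem mem (L : LabS G S U T c col u) {r j : ℕ} (hr : r < G.R) (hj : j < 4) :
    col (G.sg r j) ∈ T (c r) := by
  rw [(L.dpt r hr).pal]
  interval_cases j <;> simp

theorem lt6 (L : LabS G S U T c col u) {r j : ℕ} (hr : r < G.R) (hj : j < 4) :
    G.sg r j < 6 := L.sgl r hr j (by omega)

/-- names of the ring with a crossed pair in the middle -/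
theorem arr (L : LabS G S U T c col u) {r i q : ℕ} (hr : r < G.R) (hi : i < 2) (hq : 2 ≤ q)
    (hq' : q < 4) : DPt T (c r) (col (G.sg r (1 - i))) (col (G.sg r i)) (col (G.sg r q))
      (col (G.sg r (5 - q))) := by
  have hz := L.dpt r hr
  interval_cases i <;> interval_cases q
  · exact hz.swap12
  · exact hz.swap12.swap34
  · exact hz
  · exact hz.swap34

theorem arr_of (L : LabS G S U T c col u) {s i j : ℕ} (hs : s < G.R)
    (h : ((i = G.sg s 0 ∨ i = G.sg s 1) ∧ (j = G.sg s 2 ∨ j = G.sg s 3)) ∨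
      ((i = G.sg s 2 ∨ i = G.sg s 3) ∧ (j = G.sg s 0 ∨ j = G.sg s 1))) :
    ∃ i' j' : Fin 6, DPt T (c s) j' (col j) (col i) i' := by
  have hz := L.dpt s hs
  rcases h with ⟨h1 | h1, h2 | h2⟩ | ⟨h1 | h1, h2 | h2⟩ <;> rw [h1, h2]
  · exact ⟨_, _, hz.swap.swap12⟩
  · exact ⟨_, _, hz.swap⟩
  · exact ⟨_, _, hz.swap.swap12.swap34⟩
  · exact ⟨_, _, hz.swap.swap34⟩
  · exact ⟨_, _, hz.swap12⟩
  · exact ⟨_, _, hz⟩
  · exact ⟨_, _, hz.swap12.swap34⟩
  · exact ⟨_, _, hz.swap34⟩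

/-! ## `SF` -/

theorem s_opp (L : LabS G S U T c col u) : ∀ r < G.R, ∀ j < 4, ∀ k < 3,
    ¬ (S.n r (G.sg r j) (3 * k) ∧ S.n r (G.sg r j) (3 * k + 9)) := by
  rintro r hr j hj k hk ⟨h1, h2⟩
  rw [L.nn hr (L.lt6 hr hj) (by omega) (y := 3 * k) (by omega)] at h1
  rw [L.nn hr (L.lt6 hr hj) (by omega) (y := 3 * k + 9) (by omega)] at h2
  exact L.wt.irr.nx_opp (L.dpt r hr) (L.mem hr hj) h1 h2

theorem s_conv (L : LabS G S U T c col u) : ∀ r < G.R, ∀ j < 4, ∀ k < 6,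
    S.n r (G.sg r j) (3 * k) → S.n r (G.sg r j) (3 * ((k + 2) % 6)) →
    S.n r (G.sg r j) (3 * ((k + 1) % 6)) := by
  intro r hr j hj k hk h1 h2
  rw [L.nn hr (L.lt6 hr hj) (by omega) (y := 3 * k) (by omega)] at h1
  rw [L.nn hr (L.lt6 hr hj) (by omega) (y := 3 * k + 6) (by omega)] at h2
  rw [L.nn hr (L.lt6 hr hj) (by omega) (y := 3 * k + 3) (by omega)]
  exact Nx.conv h1 h2 (by omega) (by omega) (by omega)

theorem s_mix (L : LabS G S U T c col u) : ∀ r < G.R, ∀ i < 2, ∀ q, 2 ≤ q → q < 4 → ∀ k < 6,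
    S.n r (G.sg r i) (3 * k) → ¬ S.n r (G.sg r q) (3 * ((k + 3) % 6)) := by
  intro r hr i hi q hq hq' k hk h1 h2
  rw [L.nn hr (L.lt6 hr (by omega)) (by omega) (y := 3 * k) (by omega)] at h1
  rw [L.nn hr (L.lt6 hr (by omega)) (by omega) (y := 3 * k + 9) (by omega)] at h2
  exact L.wt.irr.nx_mix (L.arr hr hi hq hq').swap (Or.inl rfl) (Or.inr rfl) (by omega) h1 h2

theorem s_letlab (L : LabS G S U T c col u) : ∀ r < G.R, ∀ k < 6, ∀ p < 2, S.X 0 r k (2 + p) →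
    (S.n r (G.sg r (2 * p)) (3 * k) ∧ S.n r (G.sg r (2 * p + 1)) (3 * ((k + 3) % 6))) ∨
    (S.n r (G.sg r (2 * p + 1)) (3 * k) ∧ S.n r (G.sg r (2 * p)) (3 * ((k + 3) % 6))) := by
  intro r hr k hk p hp hX
  have h0 := L.lt6 hr (j := 2 * p) (by omega)
  have h1 := L.lt6 hr (j := 2 * p + 1) (by omega)
  rw [L.nn hr h0 (x := 3 * k) (by omega) (y := 3 * k) (by omega), L.nn hr h1 (x := 3 * k) (by omega) (y := 3 * k) (by omega),
    L.nn hr h0 (x := 3 * ((k + 3) % 6)) (by omega) (y := 3 * k + 9) (by omega),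
    L.nn hr h1 (x := 3 * ((k + 3) % 6)) (by omega) (y := 3 * k + 9) (by omega)]
  have hX' := L.XL r hr k hk p hp hX
  have hz := L.dpt r hr
  have e : (u + (k : ℝ)) = u + ((k : ℤ) : ℝ) := by push_cast; ring
  rw [e] at hX'
  interval_cases p
  · exact L.wt.irr.nx_letL hz hX'
  · exact L.wt.irr.nx_letL hz.swap hX'

end LabS

namespace LabH

variable {G : RD} {S : Sem} {U : Fin 6 → Set ℂ} {T : ℂ → Set (Fin 6)} {c : ℕ → ℂ}
  {col : ℕ → Fin 6} {u0 u : ℝ}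

/-! ## `TF` -/

theorem t_n0L (L : LabH G S U T c col u0 u) : ∀ r < G.R, ∀ j < 4, ∀ k < 6,
    S.n r (G.sg r j) (3 * k) → S.n r (G.sg r j) (3 * k + 1) := by
  intro r hr j hj k hk h1
  rw [L.nn hr (L.lt6 hr hj) (by omega) (y := 3 * k) (by omega)] at h1
  rw [L.nn hr (L.lt6 hr hj) (by omega) (y := 3 * k + 1) (by omega)]
  exact Nx.n0L h1

theorem t_n0R (L : LabH G S U T c col u0 u) : ∀ r < G.R, ∀ j < 4, ∀ k < 6,
    S.n r (G.sg r j) (3 * k + 2) → S.n r (G.sg r j) (3 * k + 1) := by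
  intro r hr j hj k hk h1
  rw [L.nn hr (L.lt6 hr hj) (by omega) (y := 3 * k + 2) (by omega)] at h1
  rw [L.nn hr (L.lt6 hr hj) (by omega) (y := 3 * k + 1) (by omega)]
  exact Nx.n0R h1

theorem t_opp (L : LabH G S U T c col u0 u) : ∀ r < G.R, ∀ j < 4, ∀ x < 9,
    ¬ (S.n r (G.sg r j) x ∧ S.n r (G.sg r j) (x + 9)) := by
  rintro r hr j hj x hx ⟨h1, h2⟩
  rw [L.nn hr (L.lt6 hr hj) (by omega) (y := x) (by omega)] at h1
  rw [L.nn hr (L.lt6 hr hj) (by omega) (y := x + 9) (by omega)] at h2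
  exact L.wt.irr.nx_opp (L.dpt r hr) (L.mem hr hj) h1 h2

theorem t_conv (L : LabH G S U T c col u0 u) : ∀ r < G.R, ∀ j < 4, ∀ x < 18, ∀ y w : ℕ,
    x < w → w < y → y < x + 9 → S.n r (G.sg r j) x → S.n r (G.sg r j) (y % 18) →
    S.n r (G.sg r j) (w % 18) := by
  intro r hr j hj x hx y w h3 h4 h5 h1 h2
  rw [L.nn hr (L.lt6 hr hj) (by omega) (y := x) (by omega)] at h1
  rw [L.nn hr (L.lt6 hr hj) (by omega) (y := y) (by omega)] at h2
  rw [L.nn hr (L.lt6 hr hj) (by omega) (y := w) (by omega)]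
  exact Nx.conv h1 h2 (by omega) (by omega) (by omega)

theorem seen_of (L : LabH G S U T c col u0 u) {r j k : ℕ} (hr : r < G.R) (hj : j < 4) (hk : k < 6)
    (h : S.M 0 r (G.sg r j) k) :
    seen {t | Nc U (c r) (col (G.sg r j)) (t + ((k : ℤ) : ℝ))} u0 u := by
  obtain ⟨w, h1, h2, h3⟩ := L.M r hr j hj k hk h
  refine ⟨w, ?_, h1, h2⟩
  show Nc U (c r) (col (G.sg r j)) (w + ((k : ℤ) : ℝ))
  push_cast
  exact h3

theorem t_convM (L : LabH G S U T c col u0 u) : ∀ r < G.R, ∀ j < 4, ∀ k < 6, ∀ y w : ℕ,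
    3 * k ≤ w → w < y → y < 3 * k + 9 → S.M 0 r (G.sg r j) k → S.n r (G.sg r j) (y % 18) →
    S.n r (G.sg r j) (w % 18) := by
  intro r hr j hj k hk y w h3 h4 h5 h1 h2
  rw [L.nn hr (L.lt6 hr hj) (by omega) (y := y) (by omega)] at h2
  rw [L.nn hr (L.lt6 hr hj) (by omega) (y := w) (by omega)]
  exact Nx.convM (L.seen_of hr hj hk h1) L.lt1 h2 (by omega) (by omega) (by omega)

theorem t_convM2 (L : LabH G S U T c col u0 u) : ∀ r < G.R, ∀ j < 4, ∀ k < 6, ∀ y w : ℕ,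
    3 * k + 12 ≤ y → y < w → w < 3 * k + 18 → S.M 0 r (G.sg r j) k →
    S.n r (G.sg r j) (y % 18) → S.n r (G.sg r j) (w % 18) := by
  intro r hr j hj k hk y w h3 h4 h5 h1 h2
  rw [L.nn hr (L.lt6 hr hj) (by omega) (y := (y : ℤ) - 18) (by omega)] at h2
  rw [L.nn hr (L.lt6 hr hj) (by omega) (y := (w : ℤ) - 18) (by omega)]
  exact Nx.convM2 (L.seen_of hr hj hk h1) L.lt1 h2 (by omega) (by omega) (by omega)

theorem t_mix (L : LabH G S U T c col u0 u) : ∀ r < G.R, ∀ i < 2, ∀ q, 2 ≤ q → q < 4 → ∀ k < 6,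
    S.n r (G.sg r i) (3 * k + 2) → ¬ S.n r (G.sg r q) (3 * ((k + 3) % 6) + 2) := by
  intro r hr i hi q hq hq' k hk h1 h2
  rw [L.nn hr (L.lt6 hr (by omega)) (by omega) (y := 3 * k + 2) (by omega)] at h1
  rw [L.nn hr (L.lt6 hr (by omega)) (by omega) (y := 3 * k + 2 + 9) (by omega)] at h2
  exact L.wt.irr.nx_mix (L.arr hr hi hq hq').swap (Or.inl rfl) (Or.inr rfl) (by omega) h1 h2

theorem t_line1 (L : LabH G S U T c col u0 u) : ∀ r < G.R, ∀ i < 2, ∀ q, 2 ≤ q → q < 4 →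
    ∀ k < 6, ∀ m < 6, k ≠ m →
    S.n r (G.sg r i) (3 * k + 1) → S.n r (G.sg r q) (3 * ((k + 3) % 6) + 1) →
    S.n r (G.sg r i) (3 * m + 1) → ¬ S.n r (G.sg r q) (3 * ((m + 3) % 6) + 1) := by
  intro r hr i hi q hq hq' k hk m hm hkm h1 h2 h3 h4
  rw [L.nn hr (L.lt6 hr (by omega)) (by omega) (y := 3 * k + 1) (by omega)] at h1
  rw [L.nn hr (L.lt6 hr (by omega)) (by omega) (y := 3 * k + 10) (by omega)] at h2
  rw [L.nn hr (L.lt6 hr (by omega)) (by omega) (y := 3 * m + 1) (by omega)] at h3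
  rw [L.nn hr (L.lt6 hr (by omega)) (by omega) (y := 3 * m + 10) (by omega)] at h4
  have := L.wt.irr.nx_line1 (L.arr hr hi hq hq').swap (Or.inl rfl) (Or.inr rfl) h1 h2 h3 h4
  omega

theorem t_gline (L : LabH G S U T c col u0 u) : ∀ r < G.R, ∀ i < 2, ∀ q, 2 ≤ q → q < 4 →
    ∀ k < 6, S.g 0 r (2 * i + (q - 2)) → S.n r (G.sg r i) (3 * k + 1) →
    ¬ S.n r (G.sg r q) (3 * ((k + 3) % 6) + 1) := by
  intro r hr i hi q hq hq' k hk hg h1 h2
  rw [L.nn hr (L.lt6 hr (by omega)) (by omega) (y := 3 * k + 1) (by omega)] at h1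
  rw [L.nn hr (L.lt6 hr (by omega)) (by omega) (y := 3 * k + 10) (by omega)] at h2
  obtain ⟨w, w0, w1, m, k1, k2⟩ := L.g r hr i hi q hq hq' hg
  exact L.wt.irr.nx_gline (L.arr hr hi hq hq').swap (Or.inl rfl) (Or.inr rfl) k1 k2 w1
    (by linarith [L.lt1]) h1 h2

theorem t_lab1 (L : LabH G S U T c col u0 u) : ∀ r < G.R, ∀ j < 4, ∀ k < 6,
    S.C r k (G.sg r j) →
    S.n r (G.sg r j) (3 * k + 1) ∨ S.n r (G.sg r j) (3 * ((k + 3) % 6) + 1) := by
  intro r hr j hj k hk h1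
  rw [L.C r hr k hk _ (L.lt6 hr hj)] at h1
  rw [L.nn hr (L.lt6 hr hj) (x := 3 * k + 1) (by omega) (y := 3 * k + 1) (by omega),
    L.nn hr (L.lt6 hr hj) (x := 3 * ((k + 3) % 6) + 1) (by omega) (y := 3 * k + 10) (by omega)]
  exact L.wt.irr.nx_lab1 (L.dpt r hr) (L.mem hr hj) (m := k) (by push_cast; exact h1)

theorem t_pairlab (L : LabH G S U T c col u0 u) : ∀ r < G.R, ∀ k < 6, ∀ p < 2,
    S.C r k (G.sg r (2 * p)) → S.C r k (G.sg r (2 * p + 1)) →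
    (S.n r (G.sg r (2 * p)) (3 * k + 1) ∧ S.n r (G.sg r (2 * p + 1)) (3 * ((k + 3) % 6) + 1)) ∨
    (S.n r (G.sg r (2 * p + 1)) (3 * k + 1) ∧
      S.n r (G.sg r (2 * p)) (3 * ((k + 3) % 6) + 1)) := by
  intro r hr k hk p hp h1 h2
  have l0 := L.lt6 hr (j := 2 * p) (by omega)
  have l1 := L.lt6 hr (j := 2 * p + 1) (by omega)
  rw [L.C r hr k hk _ l0] at h1
  rw [L.C r hr k hk _ l1] at h2
  rw [L.nn hr l0 (x := 3 * k + 1) (by omega) (y := 3 * k + 1) (by omega),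
    L.nn hr l1 (x := 3 * k + 1) (by omega) (y := 3 * k + 1) (by omega),
    L.nn hr l0 (x := 3 * ((k + 3) % 6) + 1) (by omega) (y := 3 * k + 10) (by omega),
    L.nn hr l1 (x := 3 * ((k + 3) % 6) + 1) (by omega) (y := 3 * k + 10) (by omega)]
  have hz := L.dpt r hr
  have e : (u + (k : ℝ)) = u + ((k : ℤ) : ℝ) := by push_cast; ring
  rw [e] at h1 h2
  interval_cases p
  · exact L.wt.irr.nx_pairlab hz h1 h2
  · exact L.wt.irr.nx_pairlab hz.swap h1 h2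

theorem t_letlab (L : LabH G S U T c col u0 u) : ∀ r < G.R, ∀ k < 6, ∀ p < 2, S.X 1 r k (2 + p) →
    (S.n r (G.sg r (2 * p)) (3 * k + 2) ∧
      S.n r (G.sg r (2 * p + 1)) (3 * ((k + 3) % 6) + 2)) ∨
    (S.n r (G.sg r (2 * p + 1)) (3 * k + 2) ∧
      S.n r (G.sg r (2 * p)) (3 * ((k + 3) % 6) + 2)) := by
  intro r hr k hk p hp hX
  have h0 := L.lt6 hr (j := 2 * p) (by omega)
  have h1 := L.lt6 hr (j := 2 * p + 1) (by omega)
  rw [L.nn hr h0 (x := 3 * k + 2) (by omega) (y := 3 * k + 2) (by omega),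
    L.nn hr h1 (x := 3 * k + 2) (by omega) (y := 3 * k + 2) (by omega),
    L.nn hr h0 (x := 3 * ((k + 3) % 6) + 2) (by omega) (y := 3 * k + 11) (by omega),
    L.nn hr h1 (x := 3 * ((k + 3) % 6) + 2) (by omega) (y := 3 * k + 11) (by omega)]
  have hX' := L.XR r hr k hk p hp hX
  have hz := L.dpt r hr
  have e : (u + (k : ℝ)) = u + ((k : ℤ) : ℝ) := by push_cast; ring
  rw [e] at hX'
  interval_cases p
  · exact L.wt.irr.nx_letR hz hX'
  · exact L.wt.irr.nx_letR hz.swap hX'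

theorem t_rkind (L : LabH G S U T c col u0 u) : ∀ r < G.R, ∀ i < 2, ∀ q, 2 ≤ q → q < 4 →
    ∀ k < 6, S.D r k (4 + 3 * (2 * i + (q - 2))) →
    (S.n r (G.sg r i) (3 * k + 1) ∧ S.n r (G.sg r q) (3 * ((k + 3) % 6) + 1)) ∨
    (S.n r (G.sg r q) (3 * k + 1) ∧ S.n r (G.sg r i) (3 * ((k + 3) % 6) + 1)) := by
  intro r hr i hi q hq hq' k hk hD
  have l0 := L.lt6 hr (j := i) (by omega)
  have l1 := L.lt6 hr (j := q) (by omega)
  rw [L.nn hr l0 (x := 3 * k + 1) (by omega) (y := 3 * k + 1) (by omega),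
    L.nn hr l1 (x := 3 * k + 1) (by omega) (y := 3 * k + 1) (by omega),
    L.nn hr l0 (x := 3 * ((k + 3) % 6) + 1) (by omega) (y := 3 * k + 10) (by omega),
    L.nn hr l1 (x := 3 * ((k + 3) % 6) + 1) (by omega) (y := 3 * k + 10) (by omega)]
  have hD' := L.D r hr k hk _ (by omega) hD
  have hz := (L.arr hr hi hq hq').swap12
  have e : (u + (k : ℝ)) = u + ((k : ℤ) : ℝ) := by push_cast; ring
  rw [e] at hD'
  have hD2 : DPt T (pt (c r) (u + ((k : ℤ) : ℝ))) (col (G.sg r i)) (col (G.sg r q))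
      (col (G.sg r 4)) (col (G.sg r 5)) := by
    interval_cases i <;> interval_cases q <;> exact hD'
  exact L.wt.irr.nx_rkind hz hD2

/-- the palette of a harmless contact with colours of both pairs -/
theorem harm_pal (L : LabH G S U T c col u0 u) {r i q k : ℕ} (hr : r < G.R) (hi : i < 2)
    (hq : 2 ≤ q) (hq' : q < 4) {A : Set (Fin 6)} (hA : Harm T (pt (c r) (u + (k : ℝ))) A)
    (h1 : col (G.sg r i) ∈ T (pt (c r) (u + (k : ℝ))))
    (h2 : col (G.sg r q) ∈ T (pt (c r) (u + (k : ℝ)))) :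
    T (pt (c r) (u + (k : ℝ))) =
      {col (G.sg r i), col (G.sg r q), col (G.sg r 4), col (G.sg r 5)} := by
  have nd := L.nd r hr
  have h4 : 4 ≤ (T (pt (c r) (u + (k : ℝ)))).ncard := hA.card.ge
  obtain ⟨he, hf⟩ := L.wt.f_q4e (L.dpt r hr) nd (dist_pt _ _) h4
  obtain ⟨⟨ab, ac, ad, ae, af⟩, ⟨bc, bd, be, bf⟩, ⟨cd, ce, cf⟩, ⟨de, df⟩, ef⟩ := nodup_sep nd
  symm
  refine Set.eq_of_subset_of_ncard_le ?_ ?_ (Set.toFinite _)
  · rintro x (rfl | rfl | rfl | hx)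
    · exact h1
    · exact h2
    · exact he
    · rw [mem_singleton_iff] at hx; rw [hx]; exact hf
  · rw [hA.card]
    have e1 : ({col (G.sg r 4), col (G.sg r 5)} : Set (Fin 6)).ncard = 2 := Set.ncard_pair ef
    have e2 : ({col (G.sg r q), col (G.sg r 4), col (G.sg r 5)} : Set (Fin 6)).ncard = 3 := by
      rw [Set.ncard_insert_of_notMem, e1]
      interval_cases q <;> simp [ce, cf, de, df]
    rw [Set.ncard_insert_of_notMem, e2]
    interval_cases i <;> interval_cases q <;> simp [ac, ad, ae, af, bc, bd, be, bf]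

theorem t_mkind (L : LabH G S U T c col u0 u) : ∀ r < G.R, ∀ i < 2, ∀ q, 2 ≤ q → q < 4 →
    ∀ k < 6, (S.D r k (5 + 3 * (2 * i + (q - 2))) ∨ S.D r k (6 + 3 * (2 * i + (q - 2))) ∨
      (S.H r k ∧ S.C r k (G.sg r i) ∧ S.C r k (G.sg r q))) →
    ¬ (S.n r (G.sg r i) (3 * k + 1) ∧ S.n r (G.sg r q) (3 * ((k + 3) % 6) + 1)) ∧
    ¬ (S.n r (G.sg r i) (3 * ((k + 3) % 6) + 1) ∧ S.n r (G.sg r q) (3 * k + 1)) := by
  intro r hr i hi q hq hq' k hk hD
  have l0 := L.lt6 hr (j := i) (by omega)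
  have l1 := L.lt6 hr (j := q) (by omega)
  rw [L.nn hr l0 (x := 3 * k + 1) (by omega) (y := 3 * k + 1) (by omega),
    L.nn hr l1 (x := 3 * k + 1) (by omega) (y := 3 * k + 1) (by omega),
    L.nn hr l0 (x := 3 * ((k + 3) % 6) + 1) (by omega) (y := 3 * k + 10) (by omega),
    L.nn hr l1 (x := 3 * ((k + 3) % 6) + 1) (by omega) (y := 3 * k + 10) (by omega)]
  have hz := L.arr hr hi hq hq'
  have e : (u + (k : ℝ)) = u + ((k : ℤ) : ℝ) := by push_cast; ring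
  have key : ∀ {o l : Fin 6}, DPt T (pt (c r) (u + ((k : ℤ) : ℝ))) (col (G.sg r i)) o
      (col (G.sg r q)) l →
      ¬ (Nx U (c r) (col (G.sg r i)) u (3 * k + 1) ∧ Nx U (c r) (col (G.sg r q)) u (3 * k + 10)) ∧
      ¬ (Nx U (c r) (col (G.sg r i)) u (3 * k + 10) ∧ Nx U (c r) (col (G.sg r q)) u (3 * k + 1)) := by
    intro o l hy
    exact ⟨fun h1 => L.wt.irr.nx_mkind hz.swap.swap12.swap34 hy.swap h1.1 h1.2,
      fun h1 => L.wt.irr.nx_mkind hz hy h1.2 h1.1⟩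
  rcases hD with hD | hD | ⟨hH, hCi, hCq⟩
  · have hD' := L.D r hr k hk _ (by omega) hD
    rw [e] at hD'
    refine key (o := col (G.sg r 4)) (l := col (G.sg r 5)) ?_
    interval_cases i <;> interval_cases q <;> exact hD'
  · have hD' := L.D r hr k hk _ (by omega) hD
    rw [e] at hD'
    refine key (o := col (G.sg r 5)) (l := col (G.sg r 4)) ?_
    interval_cases i <;> interval_cases q <;> exact hD'
  · obtain ⟨A, hA⟩ := L.H r hr k hk hH
    rw [L.C r hr k hk _ l0] at hCi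
    rw [L.C r hr k hk _ l1] at hCq
    have hT := L.harm_pal hr hi hq hq' hA hCi hCq
    obtain ⟨⟨ab, ac, ad, ae, af⟩, ⟨bc, bd, be, bf⟩, ⟨cd, ce, cf⟩, ⟨de, df⟩, ef⟩ :=
      nodup_sep (L.nd r hr)
    have one : ∀ {m : ℤ} {j : ℕ}, Nx U (c r) (col (G.sg r j)) u (3 * m + 1) ↔
      Nc U (c r) (col (G.sg r j)) (u + m) := Nx.one
    have ten : ∀ {j : ℕ}, Nx U (c r) (col (G.sg r j)) u (3 * (k : ℤ) + 10) ↔
        Nc U (c r) (col (G.sg r j)) (u + (k : ℝ) + 3) := by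
      intro j
      rw [show 3 * (k : ℤ) + 10 = 3 * ((k : ℤ) + 3) + 1 by ring, Nx.one]
      push_cast
      rw [← add_assoc]
    constructor
    · rintro ⟨h1, h2⟩
      rw [one] at h1
      rw [ten] at h2
      push_cast at h1
      refine L.wt.mkind_harm L.mn hz.swap.swap12.swap34 (e := col (G.sg r 4)) (f := col (G.sg r 5))
        ?_ ?_ hA h1 h2
      · interval_cases i <;> interval_cases q <;>
          simp [ab, ac, ad, ae, af, bc, bd, be, bf, cd, ce, cf, de, df, ef, Ne.symm ab, Ne.symm ac,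
            Ne.symm ad, Ne.symm bc, Ne.symm bd, Ne.symm cd]
      · rw [hT]; ext x; simp only [mem_insert_iff, mem_singleton_iff]; tauto
    · rintro ⟨h1, h2⟩
      rw [one] at h2
      rw [ten] at h1
      push_cast at h2
      refine L.wt.mkind_harm L.mn hz (e := col (G.sg r 4)) (f := col (G.sg r 5)) ?_ hT hA h2 h1
      interval_cases i <;> interval_cases q <;>
        simp [ab, ac, ad, ae, af, bc, bd, be, bf, cd, ce, cf, de, df, ef, Ne.symm ab, Ne.symm ac,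
          Ne.symm ad, Ne.symm bc, Ne.symm bd, Ne.symm cd]

/-! ## contacts -/

theorem ct_pos (L : LabH G S U T c col u0 u) {r s k : ℕ} (hr : r < G.R) (hs : s < G.R)
    (hk : k < 6) (h : CT G S r s k) : pt (c r) (u + ((k : ℤ) : ℝ)) = c s := by
  unfold CT at h
  push_cast
  split_ifs at h with h1
  · exact L.ct r hr s hs k hk h
  · have h2 := L.ct s hs r hr _ (by omega) h
    have h3 := ptz_back h2
    obtain ⟨n, hn⟩ : ∃ n : ℤ, (((k + 3) % 6 : ℕ) : ℤ) + 3 = k + 6 * n := ⟨1 - (k + 3 : ℤ) / 6, by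
      omega⟩
    have h4 : u + (((k + 3) % 6 : ℕ) : ℝ) + 3 = u + (k : ℝ) + 6 * n := by
      have h5 : ((((k + 3) % 6 : ℕ) : ℤ) : ℝ) + 3 = (k : ℝ) + 6 * n := by exact_mod_cast hn
      rw [Int.cast_natCast] at h5
      linarith
    rw [h4, pt_int_six] at h3
    exact h3

theorem t_agree (L : LabH G S U T c col u0 u) : ∀ r < G.R, ∀ s < G.R, G.adj r s = true →
    ∀ k < 6, S.ct r s k → ∀ i < 6,
    (∃ j < 4, i = G.sg r j) → (∃ j < 4, i = G.sg s j) →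
    (S.n r i (3 * k + 1) ↔ S.n s i (3 * ((k + 3) % 6) + 1)) ∧
    (S.n r i (3 * ((k + 3) % 6) + 1) ↔ S.n s i (3 * k + 1)) := by
  rintro r hr s hs - k hk hct i hi ⟨j, hj, hij⟩ ⟨j', hj', hij'⟩
  have h1 := L.ct r hr s hs k hk hct
  have h2 := ptz_back h1
  have m1 : col i ∈ T (c r) := by rw [hij]; exact L.mem hr hj
  have m2 : col i ∈ T (c s) := by rw [hij']; exact L.mem hs hj'
  have h3 := L.wt.irr.nx_agree (L.dpt r hr) (L.dpt s hs) (m := (k : ℤ)) (m' := (k : ℤ) + 3)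
    (by push_cast; exact h1) (by push_cast; rw [← add_assoc]; exact h2) m1 m2
  rw [L.nn hr hi (x := 3 * k + 1) (by omega) (y := 3 * k + 1) (by omega),
    L.nn hr hi (x := 3 * ((k + 3) % 6) + 1) (by omega) (y := 3 * k + 10) (by omega),
    L.nn hs hi (x := 3 * ((k + 3) % 6) + 1) (by omega) (y := 3 * (k + 3) + 1) (by omega),
    L.nn hs hi (x := 3 * k + 1) (by omega) (y := 3 * (k + 3) + 10) (by omega)]
  exact h3

theorem t_tight (L : LabH G S U T c col u0 u) : ∀ r < G.R, ∀ s < G.R, ∀ k < 6, CT G S r s k →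
    (G.adj r s || G.adj s r) = true → ∀ t < 2, ∀ p < 2, ∀ i j : ℕ,
    (i = G.sg r (2 * p) ∧ j = G.sg r (2 * p + 1)) ∨ (i = G.sg r (2 * p + 1) ∧ j = G.sg r (2 * p)) →
    ((i = G.sg s 0 ∨ i = G.sg s 1) ∧ (j = G.sg s 2 ∨ j = G.sg s 3)) ∨
      ((i = G.sg s 2 ∨ i = G.sg s 3) ∧ (j = G.sg s 0 ∨ j = G.sg s 1)) →
    S.X t r k (2 + p) → S.n s i (3 * ((k + 3) % 6) + 1) → S.n s j (3 * k + 1) →
    ¬ S.n s i (3 * ((k + 3) % 6) + 2 * t) ∧ S.n s i (3 * ((k + 3) % 6) + 2 * (1 - t)) ∧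
    S.n s j (3 * k + 2 * t) ∧ ¬ S.n s j (3 * k + 2 * (1 - t)) := by
  intro r hr s hs k hk hct _ t ht p hp i j hij hsp hX h1 h2
  have hw := L.ct_pos hr hs hk hct
  have hv := ptz_back hw
  have hv' : pt (c s) (u + (((k : ℤ) + 3 : ℤ) : ℝ)) = c r := by
    push_cast; push_cast at hv; rw [← add_assoc]; exact hv
  obtain ⟨i', j', hz⟩ := L.arr_of hs hsp
  have li : i < 6 := by
    rcases hij with ⟨e, -⟩ | ⟨e, -⟩ <;> rw [e] <;> exact L.lt6 hr (by omega)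
  have lj : j < 6 := by
    rcases hij with ⟨-, e⟩ | ⟨-, e⟩ <;> rw [e] <;> exact L.lt6 hr (by omega)
  have mi : col i ∈ T (c r) := by
    rcases hij with ⟨e, -⟩ | ⟨e, -⟩ <;> rw [e] <;> exact L.mem hr (by omega)
  have mj : col j ∈ T (c r) := by
    rcases hij with ⟨-, e⟩ | ⟨-, e⟩ <;> rw [e] <;> exact L.mem hr (by omega)
  rw [L.nn hs li (by omega) (y := 3 * (k + 3) + 1) (by omega)] at h1
  rw [L.nn hs lj (by omega) (y := 3 * (k + 3) + 10) (by omega)] at h2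
  have pal : ∀ x : ℂ, (col (G.sg r (2 * p)) ∈ Pal U x ∧ col (G.sg r (2 * p + 1)) ∈ Pal U x) →
      (col j ∈ Pal U x ∨ col i ∈ Pal U x) := by
    rintro x ⟨x1, x2⟩
    rcases hij with ⟨-, e⟩ | ⟨-, e⟩
    · rw [e]; exact Or.inl x2
    · rw [e]; exact Or.inl x1
  interval_cases t
  · have hA := (L.XL r hr k hk p hp hX).mono fun x hx => pal _ hx
    have h3 := L.wt.irr.nx_tight0 hz (m := (k : ℤ) + 3) (m' := (k : ℤ)) hv' hw mi mj h1 h2
      (by push_cast; exact hA)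
    simp only [Nat.mul_zero, Nat.sub_zero, Nat.mul_one, Nat.add_zero]
    rw [L.nn hs li (x := 3 * ((k + 3) % 6)) (by omega) (y := 3 * (k + 3)) (by omega),
      L.nn hs li (x := 3 * ((k + 3) % 6) + 2) (by omega) (y := 3 * (k + 3) + 2) (by omega),
      L.nn hs lj (x := 3 * k) (by omega) (y := 3 * (k + 3) + 9) (by omega),
      L.nn hs lj (x := 3 * k + 2) (by omega) (y := 3 * (k + 3) + 11) (by omega)]
    exact h3
  · have hA := (L.XR r hr k hk p hp hX).mono fun x hx => pal _ hx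
    have h3 := L.wt.irr.nx_tight1 hz (m := (k : ℤ) + 3) (m' := (k : ℤ)) hv' hw mi mj h1 h2
      (by push_cast; exact hA)
    simp only [Nat.mul_one, Nat.sub_self, Nat.mul_zero, Nat.add_zero]
    rw [L.nn hs li (x := 3 * ((k + 3) % 6)) (by omega) (y := 3 * (k + 3)) (by omega),
      L.nn hs li (x := 3 * ((k + 3) % 6) + 2) (by omega) (y := 3 * (k + 3) + 2) (by omega),
      L.nn hs lj (x := 3 * k) (by omega) (y := 3 * (k + 3) + 9) (by omega),
      L.nn hs lj (x := 3 * k + 2) (by omega) (y := 3 * (k + 3) + 11) (by omega)]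
    exact ⟨h3.2.1, h3.1, h3.2.2.2, h3.2.2.1⟩

end LabH

end Vale.Agent.P032.Six
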