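import Vale.Agent.P032.R2.H833.S3B
import Vale.Agent.P032.S5.H824.Two

/-!
# P032: there are no contacts of type S3 in the world with contacts of type S3 only

`z = {ab|cd}`, `y = {ab|ef}` two-pair points at distance one, `p` a flank with `e, f ∈ T p`.  Take `g` on
an exact `cd`-arc of `S(z)`.  Then `u = y + g - z` is on an exact `ab`-arc of `S(y)` (rule R), and
`w = p + g - z` is at distance one from `g`, `u` and `p`: no `c, d` (because of `g`), no `a, b` (because of
`u`), so `T w ⊆ {e, f} ⊆ T p`, impossible for `|T p| ≤ 3`.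

* `Lock.no_swapped`, `Lock.false`;
* `S3W.clean`: the circle of a two-pair point carries palettes of at most three colours.
-/

open Set Filter Topology Metric

noncomputable section

namespace Vale.Agent.P032.Six

open S5.H767 (Ex ex_self dist_of_closure sub_of_closure line_free)

variable {U : Fin 6 → Set ℂ} {T : ℂ → Set (Fin 6)}

namespace Lock

variable {z y p : ℂ} {a b c d e f : Fin 6}

/-- **no flank carries both `e` and `f`** -/
theorem no_swapped (L : Lock T z y a b c d e f) (H : S3W U T) (hz : dist p z = 1)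
    (hy : dist p y = 1) (he : e ∈ T p) (hf : f ∈ T p) : False := by
  have h := H.irr
  obtain ⟨⟨ab, ac, ad, ae, af⟩, ⟨bc, bd, be, bf⟩, ⟨cd, ce, cf⟩, ⟨de, df⟩, ef⟩ := L.ne_all
  obtain ⟨g0, hg0⟩ := L.hz.arc2
  obtain ⟨g, hg, g1, g2, g3, g4⟩ := hg0.exists_off_two (y := p) (y' := y + z - p)
  have hu : T (y + g - z) = {a, b} := L.rule H hg
  have huy : dist (y + g - z) y = 1 := (L.dist_tr hg.1).1
  have haby : ({a, b} : Set (Fin 6)) ⊆ T y := by
    rintro i (rfl | hi)
    · exact L.ay
    · rw [mem_singleton_iff] at hi; rw [hi]; exact L.by'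
  have hua : Arc T y (y + g - z) {a, b} :=
    ⟨huy, h.pair_open (Set.ncard_pair ab) haby hu.subset⟩
  obtain ⟨w, hw⟩ : ∃ w, w = p + g - z := ⟨_, rfl⟩
  have hwp : dist w p = 1 := by
    rw [hw, dist_eq_norm, show p + g - z - p = g - z by ring, ← dist_eq_norm]; exact hg.1
  have hcd : ∀ i ∈ ({c, d} : Set (Fin 6)), i ∉ T w := by
    intro i hi h5
    exact h.prism833 hg hz g1 g2 hi (by rw [← hw]; exact h.sub _ h5)
  have hab : ∀ i ∈ ({a, b} : Set (Fin 6)), i ∉ T w := by
    intro i hi h5
    refine h.prism833 (z := y) (y := p) hua hy (fun h1 => g4 ?_) (fun h1 => g3 ?_) hi ?_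
    · linear_combination h1
    · linear_combination h1
    · rw [show p + (y + g - z) - y = w by rw [hw]; ring]
      exact h.sub _ h5
  have hsub : T w ⊆ {e, f} := by
    intro i hi
    rcases L.all i with rfl | rfl | rfl | rfl | rfl | rfl
    · exact absurd hi (hab _ (by simp))
    · exact absurd hi (hab _ (by simp))
    · exact absurd hi (hcd _ (by simp))
    · exact absurd hi (hcd _ (by simp))
    · simp
    · simp
  have hwTp : T w ⊆ T p := by
    intro i hi
    rcases hsub hi with rfl | h1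
    · exact he
    · rw [mem_singleton_iff] at h1; rw [h1]; exact hf
  rcases Nat.lt_or_ge (T p).ncard 4 with hlt | hge
  · exact h.not_sub hwp (by omega) hwTp
  · have hp4 : (T p).ncard = 4 := by have := H.le4 p; omega
    rcases H.tie L.hz hz hp4 with ⟨h1, m, n, hD⟩ | ⟨h1, -⟩
    · -- `T p = T y`
      have hap : a ∈ T p := (h1.symm.subset (by simp : a ∈ ({a, b} : Set (Fin 6)))).1
      have hbp : b ∈ T p := (h1.symm.subset (by simp : b ∈ ({a, b} : Set (Fin 6)))).1
      have hsy : T y ⊆ T p := by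
        rw [L.hy.pal]
        rintro i (rfl | rfl | rfl | hi)
        · exact hap
        · exact hbp
        · exact he
        · rw [mem_singleton_iff] at hi; rw [hi]; exact hf
      have hint : T p ∩ T y = T y := inter_eq_right.2 hsy
      rcases H.tie L.hy hy hp4 with ⟨h2, -⟩ | ⟨h2, -⟩
      · rw [hint] at h2
        have h3 := L.ey
        rw [h2] at h3
        rcases h3 with h3 | h3
        · exact ae h3.symm
        · exact be h3.symm
      · rw [hint] at h2
        have h3 := L.ay
        rw [h2] at h3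
        rcases h3 with h3 | h3
        · exact ae h3
        · exact af h3
    · have hcp : c ∈ T p := (h1.symm.subset (by simp : c ∈ ({c, d} : Set (Fin 6)))).1
      have hdp : d ∈ T p := (h1.symm.subset (by simp : d ∈ ({c, d} : Set (Fin 6)))).1
      exact L.no_t1 H hz hy hcp hdp he hf

/-- **there are no contacts of type S3** -/
theorem false' (L : Lock T z y a b c d e f) (H : S3W U T) (hz : dist p z = 1)
    (hy : dist p y = 1) : False := by
  rcases L.dich H hz hy with h1 | ⟨he, hf⟩
  · have h2 := sub_of_closure H.irr h1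
    exact L.symm.no_swapped H hy hz (h2 (by simp)) (h2 (by simp))
  · exact L.no_swapped H hz hy he hf

end Lock

/-- two points at distance one have a common neighbour -/
theorem exists_flank {z y : ℂ} (hy : dist y z = 1) : ∃ p, dist p z = 1 ∧ dist p y = 1 := by
  have h3 := S5.H767.dist_pt_one
  obtain ⟨θ, hθ⟩ := exists_cis (u := y - z) (by rw [← dist_eq_norm]; exact hy)
  have hpi := Real.pi_pos
  refine ⟨S5.H767.pt z (θ * (3 / Real.pi) + 1), S5.H767.dist_pt z _, ?_⟩
  have h4 := h3 z (θ * (3 / Real.pi))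
  have h5 : S5.H767.pt z (θ * (3 / Real.pi)) = y := by
    unfold S5.H767.pt
    rw [show θ * (3 / Real.pi) * (Real.pi / 3) = θ by field_simp, ← hθ]
    ring
  rw [h5] at h4
  rw [dist_comm]; exact h4

namespace S3W

/-- **hub circles are clean** in the world with contacts of type S3 only -/
theorem clean (H : S3W U T) {z : ℂ} {a b c d : Fin 6} (hz : DPt T z a b c d) {y : ℂ}
    (hy : dist y z = 1) : (T y).ncard ≤ 3 := by
  by_contra hcon
  have h4 : (T y).ncard = 4 := by have := H.le4 y; omega
  have h := H.irr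
  obtain ⟨p, hpz, hpy⟩ := exists_flank hy
  obtain ⟨e, f, he, hf, hef⟩ : ∃ e f : Fin 6, e ∉ T z ∧ f ∉ T z ∧ e ≠ f := by
    have h1 : (T z)ᶜ.ncard = 2 := by
      have := Set.ncard_add_ncard_compl (T z)
      rw [hz.card] at this
      simp at this
      omega
    obtain ⟨e, f, hef, hs⟩ := Set.ncard_eq_two.1 h1
    refine ⟨e, f, ?_, ?_, hef⟩
    · have : e ∈ (T z)ᶜ := by rw [hs]; simp
      exact this
    · have : f ∈ (T z)ᶜ := by rw [hs]; simp
      exact this
  have hea : ∀ i ∈ T z, e ≠ i ∧ f ≠ i := fun i hi => ⟨fun h5 => he (h5 ▸ hi), fun h5 => hf (h5 ▸ hi)⟩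
  have haz : a ∈ T z := by rw [hz.pal]; simp
  have hbz : b ∈ T z := by rw [hz.pal]; simp
  have hcz : c ∈ T z := by rw [hz.pal]; simp
  have hdz : d ∈ T z := by rw [hz.pal]; simp
  have nd : [a, b, c, d, e, f].Nodup := by
    simp [hz.ab, hz.ac, hz.ad, hz.bc, hz.bd, hz.cd, (hea a haz).1.symm, (hea a haz).2.symm,
      (hea b hbz).1.symm, (hea b hbz).2.symm, (hea c hcz).1.symm, (hea c hcz).2.symm,
      (hea d hdz).1.symm, (hea d hdz).2.symm, hef]
  have nd2 : [c, d, a, b, e, f].Nodup := by
    simp [hz.ab, hz.ac.symm, hz.ad.symm, hz.bc.symm, hz.bd.symm, hz.cd, (hea a haz).1.symm,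
      (hea a haz).2.symm, (hea b hbz).1.symm, (hea b hbz).2.symm, (hea c hcz).1.symm,
      (hea c hcz).2.symm, (hea d hdz).1.symm, (hea d hdz).2.symm, hef]
  have Ct := S5.H767.ctr_of_dpt h hz nd
  have hall : ∀ g, g ∉ T z → g = e ∨ g = f := fun g hg => Ct.miss hg
  have hefY : ∀ {i j : Fin 6}, i ∈ T z → j ∈ T z → T y ∩ T z = {i, j} →
      (∃ m n, DPt T y i j m n) → e ∈ T y ∧ f ∈ T y := by
    rintro i j hi hj hint ⟨m, n, hD⟩
    have hm : m ∉ T z := by
      intro h5
      have h6 : m ∈ T y ∩ T z := ⟨by rw [hD.pal]; simp, h5⟩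
      rw [hint] at h6
      rcases h6 with h6 | h6
      · exact hD.ac h6.symm
      · exact hD.bc (by simpa using h6.symm)
    have hn : n ∉ T z := by
      intro h5
      have h6 : n ∈ T y ∩ T z := ⟨by rw [hD.pal]; simp, h5⟩
      rw [hint] at h6
      rcases h6 with h6 | h6
      · exact hD.ad h6.symm
      · exact hD.bd (by simpa using h6.symm)
    have hmT : m ∈ T y := by rw [hD.pal]; simp
    have hnT : n ∈ T y := by rw [hD.pal]; simp
    rcases hall m hm with rfl | rfl <;> rcases hall n hn with rfl | rfl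
    · exact absurd rfl hD.cd
    · exact ⟨hmT, hnT⟩
    · exact ⟨hnT, hmT⟩
    · exact absurd rfl hD.cd
  rcases H.tie hz hy h4 with ⟨hint, hD⟩ | ⟨hint, hD⟩
  · obtain ⟨heY, hfY⟩ := hefY haz hbz hint hD
    have haY : a ∈ T y := (hint.symm.subset (by simp : a ∈ ({a, b} : Set (Fin 6)))).1
    have hbY : b ∈ T y := (hint.symm.subset (by simp : b ∈ ({a, b} : Set (Fin 6)))).1
    exact (H.lock hz hy nd haY hbY heY hfY).false' H hpz hpy
  · obtain ⟨heY, hfY⟩ := hefY hcz hdz hint hD
    have hcY : c ∈ T y := (hint.symm.subset (by simp : c ∈ ({c, d} : Set (Fin 6)))).1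
    have hdY : d ∈ T y := (hint.symm.subset (by simp : d ∈ ({c, d} : Set (Fin 6)))).1
    exact (H.lock hz.swap hy nd2 hcY hdY heY hfY).false' H hpz hpy

end S3W

end Vale.Agent.P032.Six
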