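import Vale.Agent.P032.R2.H267.Zone
import Vale.Agent.P032.R2.H939.HW2

/-!
# P032: labels at a contact of a two-pair point

`z = {a, b | c, d}`, `n` on `S(z)`.

* `Irr.tight` : `c` near and `b` far at `n`: on one side of the direction of `n` the label of `c` holds and
  the label of `b` fails, on the other side conversely; `Irr.tight_before`, `Irr.tight_after`: which side is
  which is decided by the `{b, c}` arc of `S(n)` at `z`;
* `Irr.agree` : a common colour of two two-pair points at distance one is near at both or far at both;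
* `Irr.rkind`, `Irr.mkind`, `WT.mkind_harm` : kinds of the contacts with colours of both pairs.
-/

set_option autoImplicit false

open Set Filter Topology Metric

noncomputable section

namespace Vale.Agent.P032.Six

open S5.H767 (pt dist_pt pt_six pt_three)

section
variable {k : ℕ} {U : Fin k → Set ℂ} {T : ℂ → Set (Fin k)} {z n : ℂ} {a b c d e f i j q : Fin k}
  {v v' w w' : ℝ}

/-- a ray of a colour which is absent near `-W` is away from `-W` -/
theorem ray_away {N W q x : ℂ} (hN : ‖N‖ = 1) {s : ℝ} (hs : s = 1 ∨ s = -1)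
    (hW : W = s * (Complex.I * N)) (hq : dist q z = 1)
    (e : ∀ᶠ x in 𝓝 z, Sm (-W) z q x → i ∉ Pal U x) (hr : Ray (U i) z x) (hβ : ip x W < 0) :
    |ip x W| * |ip W (q - z)| ≤ |ip x N| * |ip N (q - z)| := by
  by_contra hcon
  push Not at hcon
  have h1 := ip_basis hN hs hW x (q - z)
  have hzq : dist z q = 1 := by rw [dist_comm]; exact hq
  have key : ∀ᶠ r : ℝ in 𝓝[>] 0, Sm (-W) z q (z + r * x) := by
    have h2 : |ip x N * ip N (q - z)| < |ip x W * ip W (q - z)| := by rwa [abs_mul, abs_mul]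
    rcases lt_trichotomy (ip W (q - z)) 0 with h3 | h3 | h3
    · have h4 : 0 < ip x W * ip W (q - z) := mul_pos_of_neg_of_neg hβ h3
      rw [abs_of_pos h4] at h2
      have h5 : 0 < ip x (q - z) := by rw [h1]; linarith [(abs_lt.1 h2).1]
      filter_upwards [ray_in hzq h5] with r hr
      refine ⟨fun _ => hr, fun h6 => ?_⟩
      rw [ip_neg] at h6
      linarith
    · rw [h3, mul_zero, abs_zero] at h2
      exact absurd (abs_nonneg _) (not_le.2 h2)
    · have h4 : ip x W * ip W (q - z) < 0 := mul_neg_of_neg_of_pos hβ h3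
      rw [abs_of_neg h4] at h2
      have h5 : ip x (q - z) < 0 := by rw [h1]; linarith [(abs_lt.1 h2).2]
      filter_upwards [ray_out hzq h5] with r hr
      refine ⟨fun h6 => ?_, fun _ => hr⟩
      rw [ip_neg] at h6
      linarith
  obtain ⟨r, h2, h3, h4⟩ := ((show ∀ᶠ r : ℝ in 𝓝[>] 0, z + r * x ∈ U i from hr).and
    (key.and ((tendsto_ray z x).eventually e))).exists
  exact h4 h3 (subset_closure h2)

theorem ip_right_comb (x N W : ℂ) (α β : ℝ) : ip x (α * N + β * W) = α * ip x N + β * ip x W := by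
  unfold ip; simp; ring

/-- the rays of one colour stay on one side of the rotated direction -/
theorem rays_rot {N W q : ℂ} (hN : ‖N‖ = 1) {s : ℝ} (hs : s = 1 ∨ s = -1)
    (hW : W = s * (Complex.I * N)) (hq : dist q z = 1) (nq : ip W (q - z) ≠ 0)
    (e : ∀ᶠ x in 𝓝 z, Sm (-W) z q x → i ∉ Pal U x) {κ : ℝ} (hκ : κ = 1 ∨ κ = -1)
    (hN0 : ∀ x, Ray (U i) z x → 0 ≤ κ * ip x N) :
    ∀ᶠ t : ℝ in 𝓝[>] 0, ∀ x, Ray (U i) z x →
      0 ≤ κ * ip x ((Real.cos t : ℝ) * N + ((κ * Real.sin t : ℝ) : ℂ) * W) := by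
  have c1 : ∀ᶠ t : ℝ in 𝓝[>] 0, |ip N (q - z)| * Real.sin t < |ip W (q - z)| * Real.cos t := by
    have h1 : ContinuousAt (fun t : ℝ => |ip N (q - z)| * Real.sin t) 0 := by fun_prop
    have h2 : ContinuousAt (fun t : ℝ => |ip W (q - z)| * Real.cos t) 0 := by fun_prop
    have h3 := h1.eventually_lt h2 (by simpa using nq)
    exact h3.filter_mono nhdsWithin_le_nhds
  have c2 : ∀ᶠ t : ℝ in 𝓝[>] 0, 0 < Real.sin t ∧ 0 < Real.cos t := by
    have h1 : Ioo (0 : ℝ) (Real.pi / 2) ∈ 𝓝[>] (0 : ℝ) := Ioo_mem_nhdsGT (by positivity)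
    filter_upwards [h1] with t ht
    exact ⟨Real.sin_pos_of_pos_of_lt_pi ht.1 (by linarith [ht.2, Real.pi_pos]),
      Real.cos_pos_of_mem_Ioo ⟨by linarith [ht.1, Real.pi_pos], ht.2⟩⟩
  filter_upwards [c1, c2] with t h1 h2 x hx
  have hκ2 : κ * κ = 1 := by rcases hκ with rfl | rfl <;> norm_num
  rw [ip_right_comb]
  have e1 : κ * (Real.cos t * ip x N + κ * Real.sin t * ip x W) =
      Real.cos t * (κ * ip x N) + Real.sin t * ip x W := by
    linear_combination (Real.sin t * ip x W) * hκ2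
  rw [e1]
  have hα := hN0 x hx
  rcases le_or_gt 0 (ip x W) with hβ | hβ
  · have := mul_nonneg h2.2.le hα
    have := mul_nonneg h2.1.le hβ
    linarith
  · have h3 := ray_away hN hs hW hq e hx hβ
    have h4 : |ip x N| = κ * ip x N := by
      rcases hκ with rfl | rfl
      · rw [one_mul] at hα ⊢; exact abs_of_nonneg hα
      · rw [abs_of_nonpos (by linarith)]; ring
    rw [h4, abs_of_neg hβ] at h3
    have hW0 : 0 < |ip W (q - z)| := abs_pos.2 nq
    have h5 : 0 ≤ |ip W (q - z)| * (Real.cos t * (κ * ip x N) + Real.sin t * ip x W) := by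
      have h6 : Real.sin t * (-ip x W * |ip W (q - z)|) ≤
          Real.sin t * (κ * ip x N * |ip N (q - z)|) := mul_le_mul_of_nonneg_left h3 h2.1.le
      have h7 : κ * ip x N * (|ip N (q - z)| * Real.sin t) ≤
          κ * ip x N * (|ip W (q - z)| * Real.cos t) := mul_le_mul_of_nonneg_left h1.le hα
      nlinarith
    exact nonneg_of_mul_nonneg_right h5 hW0

/-- rotation of a direction -/
theorem rot_dir (z : ℂ) (v t : ℝ) {σ : ℝ} (hσ : σ = 1 ∨ σ = -1) :
    pt z (v + σ * t) - z = ((Real.cos (t * (Real.pi / 3)) : ℝ) : ℂ) * (pt z v - z) +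
      ((Real.sin (t * (Real.pi / 3)) : ℝ) : ℂ) * (σ * (Complex.I * (pt z v - z))) := by
  rw [pt_sub, pt_sub]
  have e1 : (v + σ * t) * (Real.pi / 3) = v * (Real.pi / 3) + σ * (t * (Real.pi / 3)) := by ring
  rw [e1]
  set θ := t * (Real.pi / 3)
  have e2 : cis (v * (Real.pi / 3) + σ * θ) = cis (v * (Real.pi / 3)) * cis (σ * θ) := by
    unfold cis
    rw [← Complex.exp_add]
    congr 1
    push_cast
    ring
  rw [e2]
  have e3 : cis (σ * θ) = (Real.cos θ : ℝ) + ((σ * Real.sin θ : ℝ) : ℂ) * Complex.I := by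
    unfold cis
    rw [Complex.exp_mul_I]
    rcases hσ with rfl | rfl
    · push_cast; simp
    · push_cast; simp
  rw [e3]
  push_cast
  ring

namespace Irr

/-- both sides of a locked direction -/
theorem tight_aux (h : Irr U T) (hz : DPt T z a b c d) (hc : NrC U z (pt z v) c)
    (hb : FrC U z (pt z v) b) : ∃ σ : ℝ, (σ = 1 ∨ σ = -1) ∧
      (∀ᶠ t : ℝ in 𝓝[>] 0, Nc U z c (v + σ * t)) ∧
      (∀ᶠ t : ℝ in 𝓝[>] 0, Nc U z b (v - σ * t + 3)) ∧
      ∀ᶠ t : ℝ in 𝓝[>] 0, b ∉ Pal U (pt z v + (z - pt z v) * cis (σ * t)) ∧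
        c ∉ Pal U (pt z v + (z - pt z v) * cis (σ * t)) := by
  have hn := dist_pt z v
  have kc := h.mx.near_polar hn hc.1 hc.2
  have kb := h.mx.far_polar hn hb.1 hb.2
  obtain ⟨σ, p, q, hσ, hp, hq, nP, nQ, -, -, e3, e4⟩ := h.corner_region hz hn kc kb
  have hN : ‖pt z v - z‖ = 1 := by rw [← dist_eq_norm]; exact hn
  obtain ⟨W, hW⟩ : ∃ W : ℂ, W = σ * (Complex.I * (pt z v - z)) := ⟨_, rfl⟩
  rw [← hW] at nP nQ e3 e4
  have hmap : Tendsto (fun t : ℝ => t * (Real.pi / 3)) (𝓝[>] 0) (𝓝[>] 0) := by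
    refine tendsto_nhdsWithin_iff.2 ⟨?_, ?_⟩
    · have : Continuous fun t : ℝ => t * (Real.pi / 3) := by fun_prop
      have h2 := this.tendsto 0
      rw [zero_mul] at h2
      exact h2.mono_left nhdsWithin_le_nhds
    · filter_upwards [self_mem_nhdsWithin] with t ht
      exact mul_pos (show (0 : ℝ) < t from ht) (by positivity)
  refine ⟨σ, hσ, ?_, ?_, ?_⟩
  · have h1 := rays_rot hN hσ hW hq nQ e4 (κ := 1) (Or.inl rfl) (fun x hx => by
      rw [one_mul]; exact kc x hx)
    filter_upwards [hmap.eventually h1] with t ht x hx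
    have h2 := ht x hx
    rw [rot_dir z v t hσ, ← hW]
    rw [one_mul, one_mul] at h2
    exact h2
  · have h1 := rays_rot hN hσ hW hp nP e3 (κ := -1) (Or.inr rfl) (fun x hx => by
      have := kb x hx; linarith)
    filter_upwards [hmap.eventually h1] with t ht
    rw [Nc.add_three_iff]
    intro x hx
    have h2 := ht x hx
    have hσ' : -σ = 1 ∨ -σ = -1 := by rcases hσ with h1 | h1 <;> rw [h1] <;> norm_num
    have e5 : v - σ * t = v + -σ * t := by ring
    rw [e5, rot_dir z v t hσ']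
    have e6 : (((-σ : ℝ) : ℝ) : ℂ) * (Complex.I * (pt z v - z)) = -W := by
      rw [hW]; push_cast; ring
    rw [e6]
    have e7 : ((Real.cos (t * (Real.pi / 3)) : ℝ) : ℂ) * (pt z v - z) +
        ((Real.sin (t * (Real.pi / 3)) : ℝ) : ℂ) * -W =
        ((Real.cos (t * (Real.pi / 3)) : ℝ) : ℂ) * (pt z v - z) +
        ((-1 * Real.sin (t * (Real.pi / 3)) : ℝ) : ℂ) * W := by
      push_cast; ring
    rw [e7]
    linarith
  · have b1 := branch_sm (n := pt z v) hp σ
    have b2 := branch_sm (n := pt z v) hq σ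
    have eσ : (((-σ : ℝ) : ℝ) : ℂ) * (Complex.I * (pt z v - z)) = -W := by
      rw [hW]; push_cast; ring
    rw [eσ] at b1 b2
    have ht := tendsto_arc (pt z v) z σ
    filter_upwards [b1, b2, ht.eventually e3, ht.eventually e4] with t h1 h2 h3 h4
    exact ⟨h3 h1, h4 h2⟩

/-- **TIGHT**, both sides of a locked direction -/
theorem tight (h : Irr U T) (hz : DPt T z a b c d) (hc : NrC U z (pt z v) c)
    (hb : FrC U z (pt z v) b) : ∃ σ : ℝ, (σ = 1 ∨ σ = -1) ∧
      (∀ᶠ t : ℝ in 𝓝[>] 0, Nc U z c (v + σ * t) ∧ ¬ Nc U z b (v + σ * t + 3)) ∧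
      (∀ᶠ t : ℝ in 𝓝[>] 0, ¬ Nc U z c (v + -σ * t) ∧ Nc U z b (v + -σ * t + 3)) ∧
      ∀ᶠ t : ℝ in 𝓝[>] 0, b ∉ Pal U (pt z v + (z - pt z v) * cis (σ * t)) ∧
        c ∉ Pal U (pt z v + (z - pt z v) * cis (σ * t)) := by
  obtain ⟨σ, hσ, h1, h2, h3⟩ := h.tight_aux hz hc hb
  have k1 := h.nc_near hc
  have k2 := h.nc_far hb
  have small : ∀ᶠ t : ℝ in 𝓝[>] 0, t ∈ Ioo (0 : ℝ) 1 := Ioo_mem_nhdsGT (by norm_num)
  have no : ∀ s : ℝ, s ≠ 0 → |s| < 1 → Nc U z c (v + s) → Nc U z b (v + s + 3) → False := by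
    intro s hs0 hs1 m1 m2
    have h4 := h.line1' hz (Or.inr rfl) (Or.inl rfl) k1 k2 m1 m2
    have h5 := pt_inj_near h4 (by rw [show v + s - v = s by ring]; linarith)
    exact hs0 (by linarith)
  refine ⟨σ, hσ, ?_, ?_, h3⟩
  · filter_upwards [h1, small] with t ht hs
    refine ⟨ht, fun hb' => no (σ * t) ?_ ?_ ht hb'⟩
    · rcases hσ with rfl | rfl
      · rw [one_mul]; exact hs.1.ne'
      · have := hs.1; intro h0; linarith
    · rw [abs_mul, show |σ| = 1 by rcases hσ with rfl | rfl <;> norm_num, one_mul, abs_of_pos hs.1]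
      exact hs.2
  · filter_upwards [h2, small] with t ht hs
    have e : v - σ * t + 3 = v + -σ * t + 3 := by ring
    rw [e] at ht
    refine ⟨fun hc' => no (-σ * t) ?_ ?_ hc' ht, ht⟩
    · rcases hσ with rfl | rfl
      · have := hs.1; intro h0; linarith
      · rw [neg_neg, one_mul]; exact hs.1.ne'
    · rw [abs_mul, show |-σ| = 1 by rcases hσ with rfl | rfl <;> norm_num, one_mul,
        abs_of_pos hs.1]
      exact hs.2

end Irr

theorem tendsto_right (w : ℝ) {κ : ℝ} (hκ : 0 < κ) :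
    Tendsto (fun s : ℝ => (s - w) * κ) (𝓝[>] w) (𝓝[>] 0) := by
  refine tendsto_nhdsWithin_iff.2 ⟨?_, ?_⟩
  · have : Continuous fun s : ℝ => (s - w) * κ := by fun_prop
    have h2 := this.tendsto w
    rw [sub_self, zero_mul] at h2
    exact h2.mono_left nhdsWithin_le_nhds
  · filter_upwards [self_mem_nhdsWithin] with s hs
    exact mul_pos (by linarith [show w < s from hs]) hκ

theorem tendsto_left (w : ℝ) {κ : ℝ} (hκ : 0 < κ) :
    Tendsto (fun s : ℝ => (w - s) * κ) (𝓝[<] w) (𝓝[>] 0) := by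
  refine tendsto_nhdsWithin_iff.2 ⟨?_, ?_⟩
  · have : Continuous fun s : ℝ => (w - s) * κ := by fun_prop
    have h2 := this.tendsto w
    rw [sub_self, zero_mul] at h2
    exact h2.mono_left nhdsWithin_le_nhds
  · filter_upwards [self_mem_nhdsWithin] with s hs
    exact mul_pos (by linarith [show s < w from hs]) hκ

/-- a circle through `z`, in the form `pt` -/
theorem pt_branch {z n : ℂ} {w : ℝ} (hw : pt n w = z) (s : ℝ) :
    pt n s = n + (z - n) * cis ((s - w) * (Real.pi / 3)) := by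
  rw [← hw, pt_sub]
  unfold pt
  congr 1
  unfold cis
  rw [← Complex.exp_add]
  congr 1
  push_cast
  ring

theorem bev_right {P : ℂ → Prop} {z n : ℂ} {w : ℝ} (hw : pt n w = z)
    (h : ∀ᶠ t : ℝ in 𝓝[>] 0, P (n + (z - n) * cis (1 * t))) : ∀ᶠ s in 𝓝[>] w, P (pt n s) := by
  have h1 := (tendsto_right w (κ := Real.pi / 3) (by positivity)).eventually h
  filter_upwards [h1] with s hs
  rw [one_mul] at hs
  rwa [pt_branch hw]

theorem bev_left {P : ℂ → Prop} {z n : ℂ} {w : ℝ} (hw : pt n w = z)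
    (h : ∀ᶠ t : ℝ in 𝓝[>] 0, P (n + (z - n) * cis (-1 * t))) : ∀ᶠ s in 𝓝[<] w, P (pt n s) := by
  have h1 := (tendsto_left w (κ := Real.pi / 3) (by positivity)).eventually h
  filter_upwards [h1] with s hs
  have e : -1 * ((w - s) * (Real.pi / 3)) = (s - w) * (Real.pi / 3) := by ring
  rw [e] at hs
  rwa [pt_branch hw]

theorem ev_dir_right {P : ℝ → Prop} {v : ℝ} (h : ∀ᶠ t : ℝ in 𝓝[>] 0, P (v + 1 * t)) :
    ∀ᶠ s in 𝓝[>] v, P s := by
  have h1 := (tendsto_right v (κ := 1) one_pos).eventually h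
  filter_upwards [h1] with s hs
  have e : v + 1 * ((s - v) * 1) = s := by ring
  rwa [e] at hs

theorem ev_dir_left {P : ℝ → Prop} {v : ℝ} (h : ∀ᶠ t : ℝ in 𝓝[>] 0, P (v + -1 * t)) :
    ∀ᶠ s in 𝓝[<] v, P s := by
  have h1 := (tendsto_left v (κ := 1) one_pos).eventually h
  filter_upwards [h1] with s hs
  have e : v + -1 * ((v - s) * 1) = s := by ring
  rwa [e] at hs

namespace Irr

/-- **TIGHT**, `{b, c}` of `S(n)` just before `z`: the label of the near colour `c` starts, the label of the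
far colour `b` ends -/
theorem tight_before (h : Irr U T) (hz : DPt T z a b c d) (hv : pt z v = n) (hw : pt n w = z)
    (hc : NrC U z n c) (hb : FrC U z n b)
    (hA : ∃ᶠ t in 𝓝[<] w, b ∈ Pal U (pt n t) ∨ c ∈ Pal U (pt n t)) :
    (∀ᶠ t in 𝓝[<] v, ¬ Nc U z c t ∧ Nc U z b (t + 3)) ∧
      ∀ᶠ t in 𝓝[>] v, Nc U z c t ∧ ¬ Nc U z b (t + 3) := by
  subst hv
  obtain ⟨σ, hσ, h1, h2, h3⟩ := h.tight hz hc hb
  rcases hσ with rfl | rfl
  · exact ⟨ev_dir_left h2, ev_dir_right h1⟩
  · exfalso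
    have h4 := bev_left (P := fun x => b ∉ Pal U x ∧ c ∉ Pal U x) hw h3
    obtain ⟨t, h5, h6⟩ := (hA.and_eventually h4).exists
    rcases h5 with h5 | h5
    exacts [h6.1 h5, h6.2 h5]

/-- **TIGHT**, `{b, c}` of `S(n)` just after `z`: the label of the near colour `c` ends, the label of the
far colour `b` starts -/
theorem tight_after (h : Irr U T) (hz : DPt T z a b c d) (hv : pt z v = n) (hw : pt n w = z)
    (hc : NrC U z n c) (hb : FrC U z n b)
    (hA : ∃ᶠ t in 𝓝[>] w, b ∈ Pal U (pt n t) ∨ c ∈ Pal U (pt n t)) :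
    (∀ᶠ t in 𝓝[<] v, Nc U z c t ∧ ¬ Nc U z b (t + 3)) ∧
      ∀ᶠ t in 𝓝[>] v, ¬ Nc U z c t ∧ Nc U z b (t + 3) := by
  subst hv
  obtain ⟨σ, hσ, h1, h2, h3⟩ := h.tight hz hc hb
  rcases hσ with rfl | rfl
  · exfalso
    have h4 := bev_right (P := fun x => b ∉ Pal U x ∧ c ∉ Pal U x) hw h3
    obtain ⟨t, h5, h6⟩ := (hA.and_eventually h4).exists
    rcases h5 with h5 | h5
    exacts [h6.1 h5, h6.2 h5]
  · rw [neg_neg] at h2
    exact ⟨ev_dir_left h1, ev_dir_right h2⟩

/-- the label decides near / far -/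
theorem near_of_nc (h : Irr U T) (hz : DPt T z a b c d) (hi : i ∈ T z) (hp : i ∈ Pal U (pt z v))
    (hn : Nc U z i v) : NrC U z (pt z v) i := by
  have key : ∀ {a b c d : Fin k}, DPt T z a b c d → a ∈ Pal U (pt z v) → Nc U z a v →
      NrC U z (pt z v) a := by
    intro a b c d hz ha hn
    rcases h.nr_or_fr hz (dist_pt z v) ha with h1 | h1
    · exact h1
    · exact (h.nc_opp hz hn (h.nc_far h1)).elim
  rw [hz.pal] at hi
  rcases hi with rfl | rfl | rfl | hi
  · exact key hz hp hn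
  · exact key hz.swap12 hp hn
  · exact key hz.swap hp hn
  · rw [mem_singleton_iff] at hi
    subst hi
    exact key hz.swap.swap12 hp hn

theorem far_of_nc (h : Irr U T) (hz : DPt T z a b c d) (hi : i ∈ T z) (hp : i ∈ Pal U (pt z v))
    (hn : Nc U z i (v + 3)) : FrC U z (pt z v) i := by
  have key : ∀ {a b c d : Fin k}, DPt T z a b c d → a ∈ Pal U (pt z v) → Nc U z a (v + 3) →
      FrC U z (pt z v) a := by
    intro a b c d hz ha hn
    rcases h.nr_or_fr hz (dist_pt z v) ha with h1 | h1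
    · exact (h.nc_opp hz (h.nc_near h1) hn).elim
    · exact h1
  rw [hz.pal] at hi
  rcases hi with rfl | rfl | rfl | hi
  · exact key hz hp hn
  · exact key hz.swap12 hp hn
  · exact key hz.swap hp hn
  · rw [mem_singleton_iff] at hi
    subst hi
    exact key hz.swap.swap12 hp hn

/-- **lab1** -/
theorem lab1 (h : Irr U T) (hz : DPt T z a b c d) (hi : i ∈ T z) (hp : i ∈ Pal U (pt z v)) :
    Nc U z i v ∨ Nc U z i (v + 3) := by
  rw [hz.pal] at hi
  rcases hi with rfl | rfl | rfl | hi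
  · exact h.nc_or hz hp
  · exact h.nc_or hz.swap12 hp
  · exact h.nc_or hz.swap hp
  · rw [mem_singleton_iff] at hi
    subst hi
    exact h.nc_or hz.swap.swap12 hp

/-- a near common colour is near for both -/
theorem nr_symm (h : Irr U T) (hn : DPt T n a b c d) (hnz : dist n z = 1) (hi : i ∈ T n)
    (hiz : i ∈ T z) (h1 : NrC U z n i) : NrC U n z i := by
  have key : ∀ {a b c d : Fin k}, DPt T n a b c d → a ∈ T z → NrC U z n a → NrC U n z a := by
    intro a b c d hn ha h1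
    exact ⟨h.sub _ ha, (h.contact_near hn hnz (h.sub _ ha) h1.2).mono fun _ hx => hx.1⟩
  rw [hn.pal] at hi
  rcases hi with rfl | rfl | rfl | hi
  · exact key hn hiz h1
  · exact key hn.swap12 hiz h1
  · exact key hn.swap hiz h1
  · rw [mem_singleton_iff] at hi
    subst hi
    exact key hn.swap.swap12 hiz h1

theorem fr_symm (h : Irr U T) (hn : DPt T n a b c d) (hnz : dist n z = 1) (hi : i ∈ T n)
    (hiz : i ∈ T z) (h1 : FrC U z n i) : FrC U n z i := by
  have key : ∀ {a b c d : Fin k}, DPt T n a b c d → a ∈ T z → FrC U z n a → FrC U n z a := by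
    intro a b c d hn ha h1
    exact ⟨h.sub _ ha, (h.contact_far hn hnz (h.sub _ ha) h1.2).mono fun _ hx => hx.2⟩
  rw [hn.pal] at hi
  rcases hi with rfl | rfl | rfl | hi
  · exact key hn hiz h1
  · exact key hn.swap12 hiz h1
  · exact key hn.swap hiz h1
  · rw [mem_singleton_iff] at hi
    subst hi
    exact key hn.swap.swap12 hiz h1

/-- **agree**: a common colour of two two-pair points `z`, `n = pt z v`, `z = pt n w` -/
theorem agree_near (h : Irr U T) {a' b' c' d' : Fin k} (hz : DPt T z a b c d)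
    (hn : DPt T n a' b' c' d') (hv : pt z v = n) (hw : pt n w = z) (hi : i ∈ T z) (hi' : i ∈ T n) :
    Nc U z i v ↔ Nc U n i w := by
  constructor
  · intro h1
    have h2 := h.near_of_nc hz hi (v := v) (by rw [hv]; exact h.sub _ hi') h1
    rw [hv] at h2
    have h3 := h.nr_symm hn (by rw [← hv]; exact dist_pt z v) hi' hi h2
    exact h.nc_near (v := w) (by rw [hw]; exact h3)
  · intro h1
    have h2 := h.near_of_nc hn hi' (v := w) (by rw [hw]; exact h.sub _ hi) h1
    rw [hw] at h2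
    have h3 := h.nr_symm hz (by rw [← hw]; exact dist_pt n w) hi hi' h2
    exact h.nc_near (v := v) (by rw [hv]; exact h3)

/-- **agree**, far -/
theorem agree_far (h : Irr U T) {a' b' c' d' : Fin k} (hz : DPt T z a b c d)
    (hn : DPt T n a' b' c' d') (hv : pt z v = n) (hw : pt n w = z) (hi : i ∈ T z) (hi' : i ∈ T n) :
    Nc U z i (v + 3) ↔ Nc U n i (w + 3) := by
  constructor
  · intro h1
    have h2 := h.far_of_nc hz hi (v := v) (by rw [hv]; exact h.sub _ hi') h1
    rw [hv] at h2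
    have h3 := h.fr_symm hn (by rw [← hv]; exact dist_pt z v) hi' hi h2
    exact h.nc_far (v := w) (by rw [hw]; exact h3)
  · intro h1
    have h2 := h.far_of_nc hn hi' (v := w) (by rw [hw]; exact h.sub _ hi) h1
    rw [hw] at h2
    have h3 := h.fr_symm hz (by rw [← hw]; exact dist_pt n w) hi hi' h2
    exact h.nc_far (v := v) (by rw [hv]; exact h3)

/-- **rkind**: a contact whose pair is a crossed pair of `z` is mixed -/
theorem rkind (h : Irr U T) (hz : DPt T z a b c d) (hy : DPt T (pt z v) a c e f) :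
    (Nc U z a v ∧ Nc U z c (v + 3)) ∨ (Nc U z c v ∧ Nc U z a (v + 3)) := by
  rcases h.kind_mixed hz hy (dist_pt z v) with ⟨h1, h2⟩ | ⟨h1, h2⟩
  · exact Or.inl ⟨h.nc_near h1, h.nc_far h2⟩
  · exact Or.inr ⟨h.nc_near h2, h.nc_far h1⟩

end Irr

end

section
variable {U : Fin 6 → Set ℂ} {T : ℂ → Set (Fin 6)} {z : ℂ} {a b c d e f : Fin 6} {v : ℝ}
  {A : Set (Fin 6)}

/-- **mkind**: `c` near and `b` far at a two-pair contact: `{b, c}` is a pair of the contact -/
theorem Irr.mkind (h : Irr U T) (hz : DPt T z a b c d) {m l : Fin 6} (hy : DPt T (pt z v) b m c l)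
    (h1 : Nc U z c v) (h2 : Nc U z b (v + 3)) : False := by
  have hyz := dist_pt z v
  have hbT : b ∈ T (pt z v) := by rw [hy.pal]; simp
  have hcT : c ∈ T (pt z v) := by rw [hy.pal]; simp
  have hc := h.near_of_nc hz (i := c) (by rw [hz.pal]; simp) (h.sub _ hcT) h1
  have hb := h.far_of_nc hz (i := b) (by rw [hz.pal]; simp) (h.sub _ hbT) h2
  have s1 := h.sd_of_nr hz.swap hyz hc
  have s2 := h.sd_of_fr hz.swap12 hyz hb
  rcases h.s4r_kind hz hyz s1 s2 hcT hbT (h.twoPairs hy) with h3 | h3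
  · have h4 : m ∈ ({b, c} : Set (Fin 6)) := by rw [← h3]; simp
    rcases h4 with h4 | h4
    · exact hy.ab h4.symm
    · exact hy.bc h4
  · have h4 : b ∈ ({c, l} : Set (Fin 6)) := by rw [h3]; simp
    rcases h4 with h4 | h4
    · exact hy.ac h4
    · exact hy.ad h4

/-- **mkind**, harmless contacts -/
theorem WT.mkind_harm (H : WT U T) (hmin : MinF U T) (hz : DPt T z a b c d)
    (nd : [a, b, c, d, e, f].Nodup) (hT : T (pt z v) = {b, c, e, f}) (hy : Harm T (pt z v) A)
    (h1 : Nc U z c v) (h2 : Nc U z b (v + 3)) : False := by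
  have h := H.irr
  have hyz := dist_pt z v
  have hbT : b ∈ T (pt z v) := by rw [hT]; simp
  have hcT : c ∈ T (pt z v) := by rw [hT]; simp
  have hc := h.near_of_nc hz (i := c) (by rw [hz.pal]; simp) (h.sub _ hcT) h1
  have hb := h.far_of_nc hz (i := b) (by rw [hz.pal]; simp) (h.sub _ hbT) h2
  have s1 := h.sd_of_nr hz.swap hyz hc
  have s2 := h.sd_of_fr hz.swap12 hyz hb
  have h3 := h.s4r_kind_harm hz hyz s1 s2 hcT hbT hy.cardA hy.h1
  simp only [List.nodup_cons, List.mem_cons, List.not_mem_nil, or_false, not_or, List.nodup_nil,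
    and_true, not_false_eq_true] at nd
  obtain ⟨⟨ab, ac, ad, ae, af⟩, ⟨bc, bd, be, bf⟩, ⟨cd, ce, cf⟩, ⟨de, df⟩, ef⟩ := nd
  have h4 := H.hmix hmin hz.swap12 (a := b) (b := a) (c := c) (d := d) (e := e) (f := f) (by
    simp [ac, ad, ae, af, bc, bd, be, bf, cd, ce, cf, de, df, ef, Ne.symm ab]) hyz hT hy
  have k1 : ∀ {x y : Fin 6}, A = {x, y} → (y ≠ b) → (y ≠ c) → False := by
    intro x y e1 e2 e3
    have : y ∈ ({b, c} : Set (Fin 6)) := by rw [← h3, e1]; simp
    rcases this with h5 | h5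
    exacts [e2 h5, e3 h5]
  rcases h4 with h4 | h4 | h4 | h4
  · exact k1 h4 (Ne.symm be) (Ne.symm ce)
  · exact k1 h4 (Ne.symm bf) (Ne.symm cf)
  · exact k1 h4 (Ne.symm be) (Ne.symm ce)
  · exact k1 h4 (Ne.symm bf) (Ne.symm cf)

end

end Vale.Agent.P032.Six
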