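import Vale.Agent.P032.R2.H609.NSLock

/-!
# P032: no swapped contact of type S3 if four-coloured points at distance one share at most two colours

`z = {ab|cd}`, `T y = {a, b, e, f}` (exact arcs of `S(y)` inside `T y` only `{a, b}` or `{e, f}`), `p` a flank
with `e, f ∈ T p` and at most three colours.  By rule NS' every exact `cd`-arc of `S(z)` is translated by
`y - z` into points with the colours `e, f`.  At the end `v` of the arc the point `w = y + v - z` carries
`e, f`; all cases for `T v` and `T w` are impossible (`S3x.false_of_no3`).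
-/

open Set Filter Topology Metric

noncomputable section

namespace Vale.Agent.P032.Six

variable {U : Fin 6 → Set ℂ} {T : ℂ → Set (Fin 6)} {z y p g v : ℂ} {a b c d e f : Fin 6}

namespace S3x

theorem ay (C : S3x U T z y p a b c d e f) : a ∈ T y := by rw [C.pal]; simp
theorem by' (C : S3x U T z y p a b c d e f) : b ∈ T y := by rw [C.pal]; simp
theorem ey (C : S3x U T z y p a b c d e f) : e ∈ T y := by rw [C.pal]; simp
theorem fy (C : S3x U T z y p a b c d e f) : f ∈ T y := by rw [C.pal]; simp
theorem az (C : S3x U T z y p a b c d e f) : a ∈ T z := by rw [C.dp.pal]; simp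
theorem bz (C : S3x U T z y p a b c d e f) : b ∈ T z := by rw [C.dp.pal]; simp
theorem cz (C : S3x U T z y p a b c d e f) : c ∈ T z := by rw [C.dp.pal]; simp
theorem dz (C : S3x U T z y p a b c d e f) : d ∈ T z := by rw [C.dp.pal]; simp

theorem cy (C : S3x U T z y p a b c d e f) : c ∉ T y := by
  obtain ⟨⟨ab, ac, ad, ae, af⟩, ⟨bc, bd, be, bf⟩, ⟨cd, ce, cf⟩, ⟨de, df⟩, ef⟩ := C.sep
  rw [C.pal]; simp [ac.symm, bc.symm, ce, cf]

theorem dy (C : S3x U T z y p a b c d e f) : d ∉ T y := by
  obtain ⟨⟨ab, ac, ad, ae, af⟩, ⟨bc, bd, be, bf⟩, ⟨cd, ce, cf⟩, ⟨de, df⟩, ef⟩ := C.sep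
  rw [C.pal]; simp [ad.symm, bd.symm, de, df]

theorem card4 (C : S3x U T z y p a b c d e f) : (T y).ncard = 4 := by
  obtain ⟨⟨ab, ac, ad, ae, af⟩, ⟨bc, bd, be, bf⟩, ⟨cd, ce, cf⟩, ⟨de, df⟩, ef⟩ := C.sep
  rw [C.pal, Set.ncard_insert_of_notMem, Set.ncard_insert_of_notMem, Set.ncard_pair ef]
  · simp [be, bf]
  · simp [ab, ae, af]

/-- a point of `S(z)` with the colours `c, d` is neither `y` nor antipodal to `y` -/
theorem off_cd (C : S3x U T z y p a b c d e f) (hc : c ∈ T v) (hd : d ∈ T v) :
    v ≠ y ∧ v + y ≠ 2 * z := by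
  constructor
  · rintro rfl
    exact C.cy hc
  · intro h2
    have e1 : 2 * z - y = v := by linear_combination -h2
    exact C.irr.anti C.dp C.yz (C.irr.sub _ C.ay) (C.irr.sub _ C.by')
      (by rw [e1]; exact C.irr.sub _ hc) (by rw [e1]; exact C.irr.sub _ hd)

/-- over an exact `cd`-arc of `S(z)` the points of `S(y)` carry `e` and `f` -/
theorem ef_on (C : S3x U T z y p a b c d e f)
    (hE : ∀ q, Arc T y q (T q) → T q ⊆ T y → (T q).ncard = 2 → T q = {a, b} ∨ T q = {e, f})
    (hg : Arc T z g {c, d}) : e ∈ T (y + g - z) ∧ f ∈ T (y + g - z) := by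
  have h := C.irr
  have hud : dist (y + g - z) y = 1 := by
    rw [dist_eq_norm, show y + g - z - y = g - z by ring, ← dist_eq_norm]; exact hg.1
  have hsub := C.sub_y hg
  have hV1 : ∀ᶠ q in 𝓝 g, q ∈ sphere z 1 → Arc T z q {c, d} := by
    rw [← eventually_nhdsWithin_iff]
    filter_upwards [eventually_eventually_nhdsWithin.2 hg.2, self_mem_nhdsWithin] with x k1 k2
    exact ⟨k2, k1⟩
  have hcont : Tendsto (fun w : ℂ => z + w - y) (𝓝 (y + g - z)) (𝓝 g) := by
    have h1 : Continuous fun w : ℂ => z + w - y := by fun_prop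
    have h2 := h1.tendsto (y + g - z)
    rwa [show z + (y + g - z) - y = g by ring] at h2
  obtain ⟨q, ⟨hq1, hq2⟩, hq3, hq4, hq5, hq6, hq7⟩ :=
    h.arc_of_sub hud hsub (inter_mem (h.nhd (y + g - z)) (hcont.eventually hV1))
  have hqy : T q ⊆ T y := hq5.trans hsub
  have hc2 : (T q).ncard = 2 := by
    have h6 := Set.ncard_sdiff hqy (Set.toFinite _)
    rw [C.card4] at h6
    omega
  have hqa : Arc T y q (T q) := ⟨hq3, hq4⟩
  have hgz : z + q - y ∈ sphere z 1 := by
    rw [mem_sphere, dist_eq_norm, show z + q - y - z = q - y by ring, ← dist_eq_norm]; exact hq3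
  rcases hE q hqa hqy hc2 with h1 | h1
  · exfalso
    refine C.not_ab (g := z + q - y) (hq2 hgz) ?_
    rw [show y + (z + q - y) - z = q by ring, ← h1]
    exact hqa
  · exact ⟨hq5 (by rw [h1]; simp), hq5 (by rw [h1]; simp)⟩

/-- a four-coloured palette with two given elements and inside a set of two other elements -/
theorem _root_.Vale.Agent.P032.Six.ncard_inter_three {S R : Set (Fin 6)} {i j k : Fin 6}
    (hij : i ≠ j) (hik : i ≠ k) (hjk : j ≠ k) (h1 : i ∈ S ∩ R) (h2 : j ∈ S ∩ R) (h3 : k ∈ S ∩ R) :
    3 ≤ (S ∩ R).ncard := by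
  have hs : ({i, j, k} : Set (Fin 6)) ⊆ S ∩ R := by
    rintro x (rfl | rfl | hx)
    · exact h1
    · exact h2
    · rw [mem_singleton_iff] at hx; rw [hx]; exact h3
  have hc : ({i, j, k} : Set (Fin 6)).ncard = 3 := by
    refine Set.ncard_eq_three.2 ⟨i, j, k, hij, hik, hjk, rfl⟩
  have := Set.ncard_le_ncard hs (Set.toFinite _)
  omega

/-- **no swapped contact of type S3** if four-coloured points at distance one share at most two
colours -/
theorem false_of_no3 (C : S3x U T z y p a b c d e f) (h4 : ∀ x, (T x).ncard ≤ 4)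
    (no3 : ∀ {x x' : ℂ}, dist x' x = 1 → (T x).ncard = 4 → (T x').ncard = 4 →
      (T x' ∩ T x).ncard ≤ 2)
    (hE : ∀ q, Arc T y q (T q) → T q ⊆ T y → (T q).ncard = 2 → T q = {a, b} ∨ T q = {e, f}) :
    False := by
  have h := C.irr
  obtain ⟨⟨ab, ac, ad, ae, af⟩, ⟨bc, bd, be, bf⟩, ⟨cd, ce, cf⟩, ⟨de, df⟩, ef⟩ := C.sep
  have hcd2 : ({c, d} : Set (Fin 6)).ncard = 2 := Set.ncard_pair cd
  have hcdz : ({c, d} : Set (Fin 6)) ⊆ T z := by
    rintro i (rfl | hi)
    · exact C.cz
    · rw [mem_singleton_iff] at hi; rw [hi]; exact C.dz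
  obtain ⟨g0, hg0⟩ := C.dp.arc2
  obtain ⟨l, hl0, -, hlt, hss, hA⟩ := h.arc_side (o := 1) (Or.inl rfl) hcd2 hcdz hg0.1 hg0.mem
  obtain ⟨v, hv⟩ : ∃ v, v = z + (g0 - z) * cis (-(1 * l)) := ⟨_, rfl⟩
  rw [← hv] at hss hA
  -- the colours at `y + v - z`
  have hcont : Continuous fun t : ℝ => y + (z + (g0 - z) * cis (-(1 * t))) - z :=
    (continuous_const.add (continuous_rot z g0 1)).sub continuous_const
  have hon : ∀ t ∈ Ioo 0 l, e ∈ T (y + (z + (g0 - z) * cis (-(1 * t))) - z) ∧
      f ∈ T (y + (z + (g0 - z) * cis (-(1 * t))) - z) := fun t ht =>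
    C.ef_on hE ⟨dist_rot hg0.1 _, h.pair_open hcd2 hcdz (hlt t ht).subset⟩
  have hmem : ∀ i : Fin 6, (∀ t ∈ Ioo 0 l, i ∈ T (y + (z + (g0 - z) * cis (-(1 * t))) - z)) →
      i ∈ T (y + v - z) := by
    intro i hi
    have h1 : IsClosed {t : ℝ | i ∈ T (y + (z + (g0 - z) * cis (-(1 * t))) - z)} :=
      (h.closed i).preimage hcont
    have h2 : closure (Ioo 0 l) ⊆ {t : ℝ | i ∈ T (y + (z + (g0 - z) * cis (-(1 * t))) - z)} :=
      closure_minimal hi h1
    rw [closure_Ioo hl0.ne] at h2
    rw [hv]
    exact h2 ⟨hl0.le, le_rfl⟩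
  obtain ⟨w, hw⟩ : ∃ w, w = y + v - z := ⟨_, rfl⟩
  have he : e ∈ T w := by rw [hw]; exact hmem e fun t ht => (hon t ht).1
  have hf : f ∈ T w := by rw [hw]; exact hmem f fun t ht => (hon t ht).2
  have hvz : dist v z = 1 := hA.dist
  have hcv : c ∈ T v := hss.1 (by simp)
  have hdv : d ∈ T v := hss.1 (by simp)
  obtain ⟨hvy, hanti⟩ := C.off_cd hcv hdv
  have hwy : dist w y = 1 := by
    rw [hw, dist_eq_norm, show y + v - z - y = v - z by ring, ← dist_eq_norm]; exact hvz
  have hwv : dist w v = 1 := by
    rw [hw, dist_eq_norm, show y + v - z - v = y - z by ring, ← dist_eq_norm]; exact C.yz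
  have hzw : z ≠ w := fun h1 => hanti (by rw [hw] at h1; linear_combination -h1)
  have hzw2 : z + w ≠ 2 * y := fun h1 => hvy (by rw [hw] at h1; linear_combination h1)
  have hzwv2 : z + w ≠ 2 * v := fun h1 => hvy (by rw [hw] at h1; linear_combination -h1)
  have hyvw2 : y + v ≠ 2 * w := fun h1 => hanti (by rw [hw] at h1; linear_combination -h1)
  have hzy : dist z y = 1 := by rw [dist_comm]; exact C.yz
  have hzv : dist z v = 1 := by rw [dist_comm]; exact hvz
  -- `v` carries `e` or `f`, or all of them
  have hvef : e ∈ T v ∨ f ∈ T v := by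
    by_contra hcon
    push Not at hcon
    have hvz' : T v ⊆ T z := by
      intro i hi
      rw [C.dp.pal]
      rcases C.all i with rfl | rfl | rfl | rfl | rfl | rfl
      · simp
      · simp
      · simp
      · simp
      · exact absurd hi hcon.1
      · exact absurd hi hcon.2
    have h3 : 3 ≤ (T v).ncard := by
      have := Set.ncard_lt_ncard hss (Set.toFinite _)
      omega
    have h4v := h4 v
    rcases Nat.lt_or_ge (T v).ncard 4 with hlt3 | hge
    · obtain ⟨x, hx, hTx⟩ := h.third C.dp.swap hvz (by omega) hss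
      exact hx (hvz' (by rw [hTx]; simp))
    · have h5 := no3 hvz C.dp.card (by omega)
      rw [inter_eq_left.2 hvz'] at h5
      omega
  by_cases hin : T w ⊆ T y
  · -- `w` inside `T y`
    have hc2 : (T w).ncard = 2 := by
      rcases Nat.lt_or_ge (T w).ncard 4 with hlt4 | hge
      · by_contra h2
        have h3 : (T w).ncard = 3 := by
          have : 2 ≤ (T w).ncard := by
            have hs : ({e, f} : Set (Fin 6)) ⊆ T w := by
              rintro i (rfl | hi)
              · exact he
              · rw [mem_singleton_iff] at hi; rw [hi]; exact hf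
            have := Set.ncard_le_ncard hs (Set.toFinite _)
            rwa [Set.ncard_pair ef] at this
          omega
        -- the missing colour is `a` or `b`, present at `z`
        have hc := Set.ncard_sdiff hin (Set.toFinite _)
        rw [C.card4, h3] at hc
        obtain ⟨i, hi⟩ := Set.ncard_eq_one.1 (show (T y \ T w).ncard = 1 by omega)
        have hins : T y ⊆ insert i (T w) := by
          intro m hm
          by_cases hmx : m ∈ T w
          · exact Or.inr hmx
          · left
            have : m ∈ T y \ T w := ⟨hm, hmx⟩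
            rw [hi] at this
            exact this
        have hiy : i ∈ T y \ T w := by rw [hi]; rfl
        have hiz : i ∈ T z := by
          have := hiy.1
          rw [C.pal] at this
          rcases this with h1 | h1 | h1 | h1
          · rw [h1]; exact C.az
          · rw [h1]; exact C.bz
          · exact absurd (h1 ▸ he) hiy.2
          · rw [mem_singleton_iff] at h1; exact absurd (h1 ▸ hf) hiy.2
        exact h.third_notMem (z := y) (v := w) (q := z) (d := i) hwy (by omega) hins hzy
          (h.sub _ hiz) hzw hzw2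
      · exfalso
        have h5 := no3 hwy C.card4 (by have := h4 w; omega)
        rw [inter_eq_left.2 hin] at h5
        omega
    have hTw : T w = {e, f} := by
      have hs : ({e, f} : Set (Fin 6)) ⊆ T w := by
        rintro i (rfl | hi)
        · exact he
        · rw [mem_singleton_iff] at hi; rw [hi]; exact hf
      exact (Set.eq_of_subset_of_ncard_le hs (by rw [hc2, Set.ncard_pair ef])
        (Set.toFinite _)).symm
    have hefy : ({e, f} : Set (Fin 6)) ⊆ T y := by rw [← hTw]; exact hin
    have harc : Arc T y w {e, f} :=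
      ⟨hwy, h.pair_open (Set.ncard_pair ef) hefy hTw.subset⟩
    have key : ∀ i ∈ ({e, f} : Set (Fin 6)), i ∉ T v := by
      intro i hi h5
      refine h.prism609 (z := y) (y := z) harc hzy (fun h1 => hzw h1.symm) (fun h1 => hzw2 ?_)
        hi ?_
      · linear_combination h1
      · rw [show z + w - y = v by rw [hw]; ring]
        exact h.sub _ h5
    rcases hvef with h1 | h1
    · exact key e (by simp) h1
    · exact key f (by simp) h1
  · -- a colour `j ∈ {c, d}` at `w`
    obtain ⟨j, hjw, hjy⟩ := Set.not_subset.1 hin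
    have hjcd : j = c ∨ j = d := by
      rcases C.all j with h1 | h1 | h1 | h1 | h1 | h1
      · exact absurd (h1 ▸ C.ay) hjy
      · exact absurd (h1 ▸ C.by') hjy
      · exact Or.inl h1
      · exact Or.inr h1
      · exact absurd (h1 ▸ C.ey) hjy
      · exact absurd (h1 ▸ C.fy) hjy
    have hje : j ≠ e := by rcases hjcd with rfl | rfl; exacts [ce, de]
    have hjf : j ≠ f := by rcases hjcd with rfl | rfl; exacts [cf, df]
    have hjv : j ∈ T v := by rcases hjcd with rfl | rfl; exacts [hcv, hdv]
    have hw3 : 3 ≤ (T w).ncard := by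
      have := ncard_inter_three (S := T w) (R := T w) ef hje.symm hjf.symm ⟨he, he⟩ ⟨hf, hf⟩
        ⟨hjw, hjw⟩
      rwa [inter_self] at this
    rcases Nat.lt_or_ge (T w).ncard 4 with hlt4 | hge
    · -- `T w = {e, f, j}`
      have hTw : T w = {e, f, j} := by
        have hs : ({e, f, j} : Set (Fin 6)) ⊆ T w := by
          rintro i (rfl | rfl | hi)
          · exact he
          · exact hf
          · rw [mem_singleton_iff] at hi; rw [hi]; exact hjw
        refine (Set.eq_of_subset_of_ncard_le hs ?_ (Set.toFinite _)).symm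
        rw [Set.ncard_eq_three.2 ⟨e, f, j, ef, hje.symm, hjf.symm, rfl⟩]
        omega
      -- the other colour of `{c, d}`
      obtain ⟨j', hj', hj'z, hj'v⟩ : ∃ j', ({c, d} : Set (Fin 6)) ⊆ {j, j'} ∧ j' ∈ T z ∧ j' ∈ T v := by
        rcases hjcd with rfl | rfl
        · exact ⟨d, Subset.rfl, C.dz, hdv⟩
        · exact ⟨c, by rw [pair_comm], C.cz, hcv⟩
      rcases Nat.lt_or_ge (T v).ncard 4 with hltv | hgev
      · -- `v` is a real end
        obtain ⟨x, hx, hTv⟩ := h.third C.dp.swap hvz (by omega) hss
        have hxw : x ∈ T w := by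
          rcases C.all x with h1 | h1 | h1 | h1 | h1 | h1
          · exact absurd (h1 ▸ C.az) hx
          · exact absurd (h1 ▸ C.bz) hx
          · exact absurd (h1 ▸ C.cz) hx
          · exact absurd (h1 ▸ C.dz) hx
          · rw [h1]; exact he
          · rw [h1]; exact hf
        rcases h.lemmaX (u := w) (p := v) (v := z) (t := j') (by rw [dist_comm]; exact hwv)
          (by omega) (by
            rw [hTv]
            rintro i (hi | hi | hi)
            · rcases hj' (Or.inl hi) with h1 | h1
              · rw [h1]; exact Or.inr hjw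
              · exact Or.inl h1
            · rcases hj' (Or.inr hi) with h1 | h1
              · rw [h1]; exact Or.inr hjw
              · exact Or.inl h1
            · rw [mem_singleton_iff] at hi; rw [hi]; exact Or.inr hxw)
          hvz (h.sub _ hj'z) with h1 | h1
        · exact hzw h1
        · exact hzwv2 h1
      · -- `v` has four colours `c, d, e, f`
        have hv4 : (T v).ncard = 4 := by have := h4 v; omega
        have hTv : T v ⊆ insert j' (T w) := by
          intro i hi
          rcases C.all i with h1 | h1 | h1 | h1 | h1 | h1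
          · exfalso
            have := ncard_inter_three (S := T v) (R := T z) (i := c) (j := d) (k := i) cd
              (by rw [h1]; exact ac.symm) (by rw [h1]; exact ad.symm) ⟨hcv, C.cz⟩ ⟨hdv, C.dz⟩
              ⟨hi, by rw [h1]; exact C.az⟩
            have := no3 hvz C.dp.card hv4
            omega
          · exfalso
            have := ncard_inter_three (S := T v) (R := T z) (i := c) (j := d) (k := i) cd
              (by rw [h1]; exact bc.symm) (by rw [h1]; exact bd.symm) ⟨hcv, C.cz⟩ ⟨hdv, C.dz⟩
              ⟨hi, by rw [h1]; exact C.bz⟩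
            have := no3 hvz C.dp.card hv4
            omega
          · rcases hj' (Or.inl h1) with h2 | h2
            · rw [h2]; exact Or.inr hjw
            · exact Or.inl h2
          · rcases hj' (Or.inr h1) with h2 | h2
            · rw [h2]; exact Or.inr hjw
            · exact Or.inl h2
          · rw [h1]; exact Or.inr he
          · rw [h1]; exact Or.inr hf
        exact h.third_notMem (z := v) (v := w) (q := z) (d := j') hwv (by omega) hTv hzv
          (h.sub _ hj'z) hzw hzwv2
    · -- four colours at `w`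
      have hw4 : (T w).ncard = 4 := by have := h4 w; omega
      have hny := no3 hwy C.card4 hw4
      have hab : a ∉ T w ∧ b ∉ T w := by
        constructor
        · intro h1
          have := ncard_inter_three (S := T w) (R := T y) ae.symm ef af ⟨he, C.ey⟩ ⟨h1, C.ay⟩
            ⟨hf, C.fy⟩
          omega
        · intro h1
          have := ncard_inter_three (S := T w) (R := T y) be.symm ef bf ⟨he, C.ey⟩ ⟨h1, C.by'⟩
            ⟨hf, C.fy⟩
          omega
      have hc4 : ({c, d, e, f} : Set (Fin 6)).ncard = 4 := by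
        rw [Set.ncard_insert_of_notMem, Set.ncard_insert_of_notMem, Set.ncard_pair ef]
        · simp [de, df]
        · simp [cd, ce, cf]
      have hsw : T w ⊆ {c, d, e, f} := by
        intro i hi
        rcases C.all i with rfl | rfl | rfl | rfl | rfl | rfl
        · exact absurd hi hab.1
        · exact absurd hi hab.2
        · simp
        · simp
        · simp
        · simp
      have hTw : T w = {c, d, e, f} :=
        Set.eq_of_subset_of_ncard_le hsw (by omega) (Set.toFinite _)
      have hcw : c ∈ T w := by rw [hTw]; simp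
      have hdw : d ∈ T w := by rw [hTw]; simp
      rcases Nat.lt_or_ge (T v).ncard 4 with hltv | hgev
      · obtain ⟨x, hx, hTv⟩ := h.third C.dp.swap hvz (by omega) hss
        -- the missing colour `x'` of `w`
        have hxef : x = e ∨ x = f := by
          rcases C.all x with h1 | h1 | h1 | h1 | h1 | h1
          · exact absurd (h1 ▸ C.az) hx
          · exact absurd (h1 ▸ C.bz) hx
          · exact absurd (h1 ▸ C.cz) hx
          · exact absurd (h1 ▸ C.dz) hx
          · exact Or.inl h1
          · exact Or.inr h1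
        obtain ⟨x', hx', hx'y⟩ : ∃ x', ({e, f} : Set (Fin 6)) ⊆ {x, x'} ∧ x' ∈ T y := by
          rcases hxef with rfl | rfl
          · exact ⟨f, Subset.rfl, C.fy⟩
          · exact ⟨e, by rw [pair_comm], C.ey⟩
        refine h.third_notMem (z := w) (v := v) (q := y) (d := x') (by rw [dist_comm]; exact hwv)
          (by omega) ?_ (by rw [dist_comm]; exact hwy) (h.sub _ hx'y) hvy.symm hyvw2
        rw [hTw, hTv]
        rintro i (hi | hi | hi | hi)
        · rw [hi]; simp
        · rw [hi]; simp
        · rcases hx' (Or.inl hi) with h1 | h1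
          · rw [h1]; simp
          · exact Or.inl h1
        · rcases hx' (Or.inr hi) with h1 | h1
          · rw [h1]; simp
          · exact Or.inl h1
      · have hv4 : (T v).ncard = 4 := by have := h4 v; omega
        have h5 := no3 hwv hv4 hw4
        rcases hvef with h1 | h1
        · have := ncard_inter_three (S := T w) (R := T v) cd ce de ⟨hcw, hcv⟩ ⟨hdw, hdv⟩
            ⟨he, h1⟩
          omega
        · have := ncard_inter_three (S := T w) (R := T v) cd cf df ⟨hcw, hcv⟩ ⟨hdw, hdv⟩
            ⟨hf, h1⟩
          omega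

end S3x

end Vale.Agent.P032.Six
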